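import Vale.Agent.P356.Defs

/-! Named regions and hypotheses used in the statement of the area law. -/

namespace Vale.Agent.P356

open Finset Matrix

/-- The operator norm of `h` is at most `|J|`: `‖h ψ‖² ≤ J² ‖ψ‖²` for all vectors `ψ`. -/
def NormLe {n : Type} [Fintype n] (h : Matrix n n ℂ) (J : ℝ) : Prop :=
  ∀ ψ : n → ℂ, (star (h *ᵥ ψ) ⬝ᵥ (h *ᵥ ψ)).re ≤ J ^ 2 * (star ψ ⬝ᵥ ψ).re

/-- The local terms are Hermitian, act on their sets and have operator norm at most `J`. -/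
def LocalTerms {L q : ℕ} (R : ℕ) (J : ℝ)
    (h : Finset (Site L) → Matrix (Site L → Fin q) (Site L → Fin q) ℂ) : Prop :=
  ∀ X ∈ terms L R, (h X).IsHermitian ∧ ActsOn X (h X) ∧ NormLe (h X) J

/-- The rows `a ≤ x₂ < b`. -/
def rowBand (L a b : ℕ) : Finset (Site L) := univ.filter fun x => a ≤ x.2.val ∧ x.2.val < b

/-- The diagonal band `a ≤ x₁ + x₂ < b`. -/
def diagBand (L a b : ℕ) : Finset (Site L) :=
  univ.filter fun x => a ≤ x.1.val + x.2.val ∧ x.1.val + x.2.val < b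

/-- The part `x₁ < c` to the left of a vertical cut. -/
def leftPart (L c : ℕ) : Finset (Site L) := univ.filter fun x => x.1.val < c

/-- The rectangle `a ≤ x₁ < b`, `c ≤ x₂ < d`. -/
def rect (L a b c d : ℕ) : Finset (Site L) :=
  univ.filter fun x => a ≤ x.1.val ∧ x.1.val < b ∧ c ≤ x.2.val ∧ x.2.val < d

end Vale.Agent.P356
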