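import Vale.Agent.P356.Geo
import Vale.Agent.P356.Regions

/-! The vector form of the norm bound gives the operator norm bound. -/

namespace Vale.Agent.P356

open Finset Matrix

theorem admissible_of_localTerms {L q R : ℕ} {J : ℝ}
    {h : Finset (Site L) → Matrix (Site L → Fin q) (Site L → Fin q) ℂ} (H : LocalTerms R J h) :
    Admissible R |J| h := by
  intro X hX
  obtain ⟨h1, h2, h3⟩ := H X hX
  refine ⟨h1, h2, ContinuousLinearMap.opNorm_le_bound _ (abs_nonneg J) fun ψ => ?_⟩
  refine (pow_le_pow_iff_left₀ (norm_nonneg _) (by positivity) two_ne_zero).1 ?_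
  have := h3 ψ.ofLp
  rwa [← ofLp_toEuclideanCLM, lt_norm, lt_norm, ← sq_abs J, ← mul_pow] at this

end Vale.Agent.P356
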