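import Vale.Agent.P356.Defs

/-! Internal definitions. -/

namespace Vale.Agent.P356

open Finset Filter Topology
open scoped InnerProductSpace

/-- The Hilbert space. -/
abbrev Hs (ι : Type) (q : ℕ) := EuclideanSpace ℂ (ι → Fin q)

/-- Operators. -/
abbrev Op (ι : Type) [Fintype ι] [DecidableEq ι] (q : ℕ) := Hs ι q →L[ℂ] Hs ι q

section
variable {ι : Type} [Fintype ι] [DecidableEq ι] {q : ℕ}

/-- Matrix unit at one site. -/
noncomputable def eu (x : ι) (i j : Fin q) : Op ι q :=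
  Matrix.toEuclideanCLM (n := ι → Fin q) (𝕜 := ℂ)
    (Matrix.of fun σ σ' => if σ x = i ∧ σ' = Function.update σ x j then 1 else 0)

/-- Operators supported on `S`. -/
noncomputable def loc (S : Finset ι) : StarSubalgebra ℂ (Op ι q) :=
  StarSubalgebra.centralizer ℂ {z | ∃ x ∉ S, ∃ i j, z = eu x i j}

/-- The left `loc A` module generated by `G`. -/
noncomputable def sp (A : Finset ι) (G : Finset (Op ι q)) : Submodule ℂ (Op ι q) :=
  Submodule.span ℂ {z | ∃ a ∈ loc A, ∃ g ∈ G, z = a * g}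

/-- All operators in `U` have operator Schmidt rank at most `r`, with common right factors. -/
def Cov (A : Finset ι) (r : ℝ) (U : Set (Op ι q)) : Prop :=
  ∃ G : Finset (Op ι q), (G.card : ℝ) ≤ r ∧ (∀ g ∈ G, g ∈ loc Aᶜ) ∧ U ⊆ sp A G

/-- A column of the coefficient matrix of `ψ`. -/
def col (A : Finset ι) (ψ : Hs ι q) (β : {x // x ∉ A} → Fin q) : EuclideanSpace ℂ (A → Fin q) :=
  WithLp.toLp 2 fun α => ψ (glue A α β)

/-- Schmidt rank at most `r`. -/
def RankLe (A : Finset ι) (r : ℝ) (ψ : Hs ι q) : Prop :=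
  ∃ U : Submodule ℂ (EuclideanSpace ℂ (A → Fin q)),
    (Module.finrank ℂ U : ℝ) ≤ r ∧ ∀ β, col A ψ β ∈ U

end

/-- The projection onto the common kernel. -/
noncomputable def gp {E : Type*} [NormedAddCommGroup E] [InnerProductSpace ℂ E]
    [FiniteDimensional ℂ E] {X : Type*} (p : X → E →L[ℂ] E) (F : Finset X) : E →L[ℂ] E :=
  (⨅ x ∈ F, (p x).ker : Submodule ℂ E).starProjection

/-- A continuous algebra norm dominating the norm. -/
structure IsN {O : Type*} [NormedRing O] (N : O → ℝ) : Prop where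
  cont : Continuous N
  zero : N 0 = 0
  add : ∀ x y, N (x + y) ≤ N x + N y
  mul : ∀ x y, N (x * y) ≤ N x * N y
  neg : ∀ x, N (-x) = N x
  one : N 1 ≤ 1
  norm_le : ∀ x, ‖x‖ ≤ N x

/-- The iteration `t ↦ 3 t² - 2 t³`. -/
def it {O : Type*} [Ring O] (Y : O) : ℕ → O
  | 0 => Y
  | n + 1 => 3 * (it Y n * it Y n) - 2 * (it Y n * it Y n * it Y n)

/-- One step of a walk: `0` stays, `1` goes up, `2` goes down. -/
def stp (a : ℕ) (s : Fin 3) : ℕ := if s = 0 then a else if s = 1 then a + 1 else a - 1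

/-- End point of a walk. -/
def pend : ℕ → List (Fin 3) → ℕ
  | a, [] => a
  | a, s :: p => pend (stp a s) p

/-- The letters read along a walk. -/
def plist : ℕ → List (Fin 3) → List ℕ
  | _, [] => []
  | a, s :: p => if s = 0 then a :: plist a p else plist (stp a s) p

/-- The span of the words read along walks from `a` to `b` with at most `D` steps. -/
def V {O : Type*} [Ring O] [Algebra ℂ O] (K : ℕ → O) (a b D : ℕ) : Submodule ℂ O :=
  Submodule.span ℂ {z | ∃ p : List (Fin 3), p.length ≤ D ∧ pend a p = b ∧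
    z = ((plist a p).map K).prod}

/-- A graded family of norms. -/
structure IsG {O : Type*} [NormedRing O] [NormedAlgebra ℂ O] (K : ℕ → O) (y : ℝ) (D₀ : ℕ)
    (N : ℕ → ℕ → O → ℝ) : Prop where
  isN : ∀ a, IsN (N a a)
  nonneg : ∀ a b x, 0 ≤ N a b x
  mul : ∀ a b c x z, N a c (x * z) ≤ N a b x * N b c z
  mem : ∀ a b D x, x ∈ V K a b D → N a b x ≤ y ^ D * ‖x‖
  ext : ∀ a b x t, N a b x < t → ∃ G ∈ V K a b D₀, ‖x - G‖ ≤ t / y ^ (D₀ + 1)

end Vale.Agent.P356
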