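import Vale.Agent.P356.Graded

/-! Approximating the intersection of a chain of almost commuting projections. -/

set_option linter.unusedSectionVars false

namespace Vale.Agent.P356

open Finset Filter Topology

variable {O : Type*} [NormedRing O] [NormedAlgebra ℂ O] [CompleteSpace O]

theorem cn_nonneg {N : O → ℝ} (hN : IsN N) (x : O) : 0 ≤ N x := (norm_nonneg x).trans (hN.norm_le x)

theorem cn_sub {N : O → ℝ} (hN : IsN N) (x z : O) : N (x - z) ≤ N x + N z := by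
  rw [sub_eq_add_neg, ← hN.neg z]; exact hN.add _ _

theorem cn_comm {N : O → ℝ} (hN : IsN N) {a b : O} {A B : ℝ} (ha : N a ≤ A) (hb : N b ≤ B) :
    N (a * b - b * a) ≤ 2 * (A * B) := by
  have h1 := mul_le_mul ha hb (cn_nonneg hN b) ((cn_nonneg hN a).trans ha)
  have h2 := hN.mul a b
  have h3 := hN.mul b a
  have h4 := cn_sub hN (a * b) (b * a)
  linarith

theorem cn_isN (h1 : ‖(1 : O)‖ ≤ 1) : IsN fun x : O => ‖x‖ :=
  ⟨continuous_norm, norm_zero, norm_add_le, norm_mul_le, norm_neg, h1, fun _ => le_rfl⟩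

theorem cn_it_comm {Y A : O} (h : Commute Y A) (n : ℕ) : Commute (it Y n) A := by
  induction n with
  | zero => exact h
  | succ n ih =>
    exact ((Commute.ofNat_left 3 A).mul_left (ih.mul_left ih)).sub_left
      ((Commute.ofNat_left 2 A).mul_left ((ih.mul_left ih).mul_left ih))

theorem cn_lim_comm {Y A P : O} (hT : Tendsto (it Y) atTop (𝓝 P)) (h : Commute Y A) :
    Commute P A :=
  tendsto_nhds_unique (hT.mul_const A) ((hT.const_mul A).congr fun n => (cn_it_comm h n).eq.symm)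

theorem cn_lim_eq {Y E F Z P : O} (hT : Tendsto (it Y) atTop (𝓝 P)) (hE : E * E = E)
    (hF : F * F = F) (hYE : Commute Y E) (hZ : Y * E = F + Z) (hZF : Z * F = 0) (hFZ : F * Z = 0)
    (hz : ‖Z‖ ≤ 1 / 10) : P * E = F := by
  have key : ∀ n, it Y n * E = F + it Z n ∧ it Z n * F = 0 ∧ F * it Z n = 0 ∧
      ‖it Z n‖ ≤ 1 / 10 * (1 / 2) ^ n := by
    intro n
    induction n with
    | zero => exact ⟨hZ, hZF, hFZ, by simpa [it] using hz⟩
    | succ n ih =>
      obtain ⟨h1, h2, h3, h4⟩ := ih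
      have hc := (cn_it_comm hYE n).eq
      simp only [it]
      generalize it Y n = A at *
      generalize it Z n = W at *
      have e1 : A * A * E = F + W * W := by
        calc A * A * E = A * E * (A * E) := by
              rw [mul_assoc A E, ← mul_assoc E, ← hc, mul_assoc A E, hE, mul_assoc]
          _ = _ := by rw [h1, add_mul, mul_add, mul_add, hF, h2, h3, add_zero, zero_add]
      have e2 : A * A * A * E = F + W * W * W := by
        calc A * A * A * E = A * A * E * (A * E) := by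
              rw [mul_assoc (A * A) E, ← mul_assoc E, ← hc, mul_assoc A E, hE, mul_assoc (A * A)]
          _ = _ := by
              rw [h1, e1, add_mul, mul_add, mul_add, hF, h3, mul_assoc W W F, h2, mul_zero,
                add_zero, zero_add]
      refine ⟨?_, ?_, ?_, ?_⟩
      · rw [sub_mul, mul_assoc 3, mul_assoc 2, e1, e2]; noncomm_ring
      · simp only [sub_mul, mul_assoc, h2, mul_zero, sub_zero]
      · have : F * (3 * (W * W) - 2 * (W * W * W)) = F * W * (3 * W - 2 * (W * W)) := by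
          noncomm_ring
        rw [this, h3, zero_mul]
      · have e3 : 3 * (W * W) - 2 * (W * W * W) =
            W * W + W * W + W * W - (W * W * W + W * W * W) := by noncomm_ring
        have a1 := norm_mul_le W W
        have a2 := norm_mul_le (W * W) W
        have a3 := norm_sub_le (W * W + W * W + W * W) (W * W * W + W * W * W)
        have a4 := norm_add₃_le (a := W * W) (b := W * W) (c := W * W)
        have a5 := norm_add_le (W * W * W) (W * W * W)
        have a6 : ‖W‖ ≤ 1 / 10 :=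
          h4.trans (mul_le_of_le_one_right (by norm_num) (pow_le_one₀ (by norm_num) (by norm_num)))
        have a7 := mul_le_mul_of_nonneg_left a6 (norm_nonneg W)
        have a8 := mul_le_mul_of_nonneg_left a6 (norm_nonneg (W * W))
        rw [e3, pow_succ]
        linarith [norm_nonneg W]
  have h1 : Tendsto (it Z) atTop (𝓝 0) := by
    refine squeeze_zero_norm (fun n => (key n).2.2.2) ?_
    have := (tendsto_pow_atTop_nhds_zero_of_lt_one (r := (1 / 2 : ℝ)) (by norm_num)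
      (by norm_num)).const_mul (1 / 10)
    rwa [mul_zero] at this
  have h2 := h1.const_add F
  rw [add_zero] at h2
  exact tendsto_nhds_unique (hT.mul_const E) (h2.congr fun n => (key n).1.symm)

variable {K : ℕ → O} {y : ℝ} {D : ℕ} {N : ℕ → ℕ → O → ℝ}

theorem cn_one (h1 : ‖(1 : O)‖ ≤ 1) (hy : 100 ≤ y) (hN : IsG K y D N) (a : ℕ) :
    N a (a + 1) 1 ≤ y ∧ N (a + 1) a 1 ≤ y :=
  ⟨(hN.mem _ _ _ _ (one_mem_V a).2.1).trans (by nlinarith),
    (hN.mem _ _ _ _ (one_mem_V a).2.2).trans (by nlinarith)⟩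

theorem cn_shift (h1 : ‖(1 : O)‖ ≤ 1) (hy : 100 ≤ y) (hN : IsG K y D N) (a : ℕ) {x : O} {A : ℝ}
    (h : N a a x ≤ A) : N (a + 1) (a + 1) x ≤ y ^ 2 * A := by
  have h2 := hN.mul (a + 1) a (a + 1) 1 (x * 1)
  have h3 := (hN.mul a a (a + 1) x 1).trans (mul_le_mul h (cn_one h1 hy hN a).1 (hN.nonneg _ _ _)
    ((hN.nonneg _ _ _).trans h))
  have h4 := mul_le_mul (cn_one h1 hy hN a).2 h3 (hN.nonneg _ _ _) (by linarith)
  rw [one_mul, mul_one] at h2
  rw [mul_one] at h4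
  linarith

theorem cn_eps (hy : 100 ≤ y) (k : ℕ) : 1 / y ^ (k + 1) ≤ 1 / 100 :=
  one_div_le_one_div_of_le (by norm_num) (hy.trans (le_self_pow₀ (by linarith) k.succ_ne_zero))

theorem cn_QK (hy : 100 ≤ y) (hN : IsG K y D N) (i : ℕ) {Q : O} (hQ : Q * Q = Q)
    (hK : K i * Q = Q ∧ Q * K i = Q ∧ ‖K i - Q‖ ≤ 1 / y ^ 25) : N i i (K i - Q) ≤ 4 / y ^ 23 := by
  have hy0 : 0 < y := by linarith
  obtain ⟨Z, hZ⟩ : ∃ Z, K i = Q + Z := ⟨K i - Q, by abel⟩
  obtain ⟨k1, k2, k3⟩ := hK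
  have hz : ‖Z‖ ≤ 1 / y ^ 25 := by rwa [hZ, add_sub_cancel_left] at k3
  have z1 : Z * Q = 0 := by rwa [hZ, add_mul, hQ, add_eq_left] at k1
  have z2 : Q * Z = 0 := by rwa [hZ, mul_add, hQ, add_eq_left] at k2
  have hp : ∀ n : ℕ, K i ^ (n + 1) = Q + Z ^ (n + 1) ∧ K i ^ (n + 1) ∈ V K i i (n + 1) ∧
      ‖Z ^ (n + 1)‖ ≤ (1 / y ^ 25) ^ (n + 1) := by
    intro n
    refine ⟨?_, ?_, (norm_pow_le' Z n.succ_pos).trans (pow_le_pow_left₀ (norm_nonneg _) hz _)⟩
    · induction n with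
      | zero => simpa using hZ
      | succ n ih =>
        rw [pow_succ, ih, hZ, add_mul, mul_add, mul_add, hQ, z2, pow_succ Z n, mul_assoc, z1,
          mul_zero, add_zero, zero_add, ← pow_succ, ← pow_succ]
    · induction n with
      | zero => simpa using K_mem_V i
      | succ n ih => rw [pow_succ]; exact V_mul ih (K_mem_V i)
  have he := cn_eps hy 24
  have hb : ∀ n : ℕ, N i i (K i - K i ^ (n + 1)) ≤ 4 / y ^ 23 * (1 - (1 / 2) ^ n) := by
    intro n
    induction n with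
    | zero => simp [(hN.isN i).zero]
    | succ n ih =>
      have h1 := hN.mem _ _ (n + 1 + 1) _
        (sub_mem (V_mono i i (n + 1).le_succ (hp n).2.1) (hp (n + 1)).2.1)
      have h2 : ‖K i ^ (n + 1) - K i ^ (n + 1 + 1)‖ ≤ 2 * (1 / y ^ 25) ^ (n + 1) := by
        rw [(hp n).1, (hp (n + 1)).1, add_sub_add_left_eq_sub]
        have h3 : (1 / y ^ 25) ^ (n + 1 + 1) ≤ (1 / y ^ 25) ^ (n + 1) :=
          pow_le_pow_of_le_one (by positivity) (by linarith) (n + 1).le_succ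
        linarith [norm_sub_le (Z ^ (n + 1)) (Z ^ (n + 1 + 1)), (hp n).2.2, (hp (n + 1)).2.2]
      have h3 : (1 / y ^ 24) ^ n ≤ (1 / 2) ^ n :=
        pow_le_pow_left₀ (by positivity) (by linarith [cn_eps hy 23]) n
      have h4 : y ^ (n + 1 + 1) * (2 * (1 / y ^ 25) ^ (n + 1)) = 2 / y ^ 23 * (1 / y ^ 24) ^ n := by
        simp only [one_div, inv_pow, ← pow_mul]
        field_simp
        ring
      have h5 := (hN.isN i).add (K i - K i ^ (n + 1)) (K i ^ (n + 1) - K i ^ (n + 1 + 1))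
      rw [sub_add_sub_cancel] at h5
      have h6 := mul_le_mul_of_nonneg_left h2 (show 0 ≤ y ^ (n + 1 + 1) by positivity)
      have h7 := mul_le_mul_of_nonneg_left h3 (show 0 ≤ 2 / y ^ 23 by positivity)
      have h8 : 4 / y ^ 23 * (1 - (1 / 2) ^ (n + 1)) =
          4 / y ^ 23 * (1 - (1 / 2) ^ n) + 2 / y ^ 23 * (1 / 2) ^ n := by ring
      rw [h8]
      exact h5.trans (add_le_add ih (h1.trans (h6.trans (h4.trans_le h7))))
  have hT : Tendsto (fun n : ℕ => K i - K i ^ (n + 1)) atTop (𝓝 (K i - Q)) := by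
    have h1 : Tendsto (fun n : ℕ => Z ^ (n + 1)) atTop (𝓝 0) :=
      (tendsto_pow_atTop_nhds_zero_of_norm_lt_one (by linarith)).comp (tendsto_add_atTop_nat 1)
    have h2 := (h1.const_add Q).const_sub (K i)
    rw [add_zero] at h2
    exact h2.congr fun n => by rw [(hp n).1]
  refine le_of_tendsto' (((hN.isN i).cont.tendsto _).comp hT) fun n => (hb n).trans ?_
  exact mul_le_of_le_one_right (by positivity) (sub_le_self _ (by positivity))

theorem cn_base (h1 : ‖(1 : O)‖ ≤ 1) (hy : 100 ≤ y) (hN : IsG K y D N) {Q : ℕ → O}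
    (hQ : ∀ i, Q i * Q i = Q i ∧ ‖Q i‖ ≤ 1)
    (hc : ∀ i, ‖Q i * Q (i + 1) - Q (i + 1) * Q i‖ ≤ 1 / y ^ 25)
    (hK : ∀ i, K i * Q i = Q i ∧ Q i * K i = Q i ∧ ‖K i - Q i‖ ≤ 1 / y ^ 25) (i : ℕ) :
    N i i (Q i) ≤ 2 * y ∧ N (i + 1) (i + 1) (Q i * Q (i + 1) - Q (i + 1) * Q i) ≤ 1 / y ^ 19 := by
  have hy0 : 0 < y := by linarith
  have he := cn_eps hy 24
  have a1 := fun i => cn_QK hy hN i (hQ i).1 (hK i)
  have a2 : ∀ i, ‖K i‖ ≤ 3 / 2 := fun i => by
    have := norm_add_le (K i - Q i) (Q i)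
    rw [sub_add_cancel] at this
    linarith [(hK i).2.2, (hQ i).2]
  have a3 : ∀ i, N i i (K i) ≤ 3 / 2 * y := fun i =>
    (hN.mem _ _ _ _ (K_mem_V i)).trans (by nlinarith [a2 i])
  have a4 : ∀ i, N i i (Q i) ≤ 2 * y := fun i => by
    have h2 := cn_sub (hN.isN i) (K i) (K i - Q i)
    rw [sub_sub_cancel] at h2
    have h3 := cn_eps hy 22
    rw [one_div] at h3
    have h4 := a1 i
    rw [div_eq_mul_inv] at h4
    linarith [a3 i]
  refine ⟨a4 i, ?_⟩
  have e1 : K i * K (i + 1) - K (i + 1) * K i = (Q i * Q (i + 1) - Q (i + 1) * Q i) +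
      (K i * (K (i + 1) - Q (i + 1)) - (K (i + 1) - Q (i + 1)) * K i) +
      ((K i - Q i) * Q (i + 1) - Q (i + 1) * (K i - Q i)) := by noncomm_ring
  have b1 : K i ∈ V K (i + 1) (i + 1) 3 := by
    simpa using V_mul (V_mul (one_mem_V i).2.2 (K_mem_V (K := K) i)) (one_mem_V i).2.1
  have v1 := V_mul b1 (K_mem_V (K := K) (i + 1))
  have v2 := V_mul (K_mem_V (K := K) (i + 1)) b1
  rw [add_comm 1 3] at v2
  have b2 := hN.mem _ _ _ _ (sub_mem v1 v2)
  have b3 : ‖K i * K (i + 1) - K (i + 1) * K i‖ ≤ 6 * (1 / y ^ 25) := by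
    have c1 := cn_comm (N := fun x => ‖x‖) (a := K i) (b := K (i + 1) - Q (i + 1)) (cn_isN h1)
      (a2 i) (hK (i + 1)).2.2
    have c2 := cn_comm (N := fun x => ‖x‖) (a := K i - Q i) (b := Q (i + 1)) (cn_isN h1)
      (hK i).2.2 (hQ (i + 1)).2
    rw [e1]
    exact norm_add₃_le.trans (by linarith [hc i])
  have c1 := cn_comm (hN.isN (i + 1)) (cn_shift h1 hy hN i (a3 i)) (a1 (i + 1))
  have c2 := cn_comm (hN.isN (i + 1)) (cn_shift h1 hy hN i (a1 i)) (a4 (i + 1))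
  have b4 : _ ≤ y ^ 4 * _ := b2.trans (mul_le_mul_of_nonneg_left b3 (by positivity))
  have b5 := (cn_sub (hN.isN _) _ _).trans (add_le_add ((cn_sub (hN.isN _) _ _).trans
    (add_le_add b4 c2)) c1)
  rw [e1, add_sub_cancel_right, add_sub_cancel_right] at b5
  refine b5.trans ?_
  field_simp
  nlinarith only [hy]

theorem cn_step (h1 : ‖(1 : O)‖ ≤ 1) (hy : 100 ≤ y) (hN : IsG K y D N) (j : ℕ) {P Q Q' : O}
    (hP : P * P = P) (hQ : Q * Q = Q) (hPQ : Commute P Q') (n1 : N j j P ≤ 6 * y)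
    (n2 : N (j + 1) (j + 1) (P * Q - Q * P) ≤ 1 / y ^ 7) (n3 : N (j + 1) (j + 1) Q ≤ 2 * y)
    (n4 : N (j + 1 + 1) (j + 1 + 1) (Q * Q' - Q' * Q) ≤ 1 / y ^ 19) :
    ∃ P', Tendsto (it (Q - (P * (P * Q - Q * P) - (P * Q - Q * P) * P))) atTop (𝓝 P') ∧
      P' * P' = P' ∧ N (j + 1) (j + 1) P' ≤ 6 * y ∧
      N (j + 1 + 1) (j + 1 + 1) (P' * Q' - Q' * P') ≤ 1 / y ^ 7 := by
  have hy0 : 0 < y := by linarith
  have hP' : ∀ x, P * (P * x) = P * x := fun x => by rw [← mul_assoc, hP]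
  have hQ' : ∀ x, Q * (Q * x) = Q * x := fun x => by rw [← mul_assoc, hQ]
  have hc : ∀ x, Q' * (P * x) = P * (Q' * x) := fun x => by rw [← mul_assoc, ← hPQ.eq, mul_assoc]
  obtain ⟨u, hu⟩ : ∃ u, u = P * Q - Q * P := ⟨_, rfl⟩
  obtain ⟨c, hcc⟩ : ∃ c, c = Q * Q' - Q' * Q := ⟨_, rfl⟩
  obtain ⟨Y, hY⟩ : ∃ Y, Y = Q - (P * u - u * P) := ⟨_, rfl⟩
  have e1 : Y - Y * Y = -(u * u) := by
    simp only [hY, hu, mul_sub, sub_mul, mul_assoc, hP, hP', hQ, hQ']
    abel
  have e2 : u * Q' - Q' * u = P * c - c * P := by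
    simp only [hu, hcc, mul_sub, sub_mul, mul_assoc, hPQ.eq.symm, hc]
    abel
  have e3 : Y * Q' - Q' * Y = c - (P * (P * c - c * P) - (P * c - c * P) * P) := by
    simp only [hY, ← e2]
    simp only [hcc, mul_sub, sub_mul, mul_assoc, hPQ.eq.symm, hc]
    abel
  rw [← hu] at n2 ⊢
  rw [← hcc] at n4
  rw [← hY]
  have m1 := cn_shift h1 hy hN j n1
  have m2 := cn_shift h1 hy hN _ m1
  have m3 : N (j + 1) (j + 1) Y ≤ 3 * y := by
    rw [hY]
    refine (cn_sub (hN.isN _) _ _).trans ((add_le_add n3 (cn_comm (hN.isN _) m1 n2)).trans ?_)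
    field_simp
    nlinarith [pow_le_pow_left₀ (by norm_num) hy 5]
  have sq : ∀ {M : O → ℝ}, IsN M → M u ≤ 1 / 10 → M (Y - Y * Y) ≤ 1 / 10 := fun hM h => by
    rw [e1, hM.neg]
    exact (hM.mul _ _).trans (by nlinarith [cn_nonneg hM u])
  obtain ⟨P', t1, p1, p2⟩ := (hN.isN (j + 1)).iter (b := 3 * y) (by linarith) m3
    (sq (hN.isN _) (by linarith [cn_eps hy 6]))
  have m4 := cn_comm (hN.isN _) m2 n4
  have m5 := (cn_sub (hN.isN _) _ _).trans (add_le_add n4 (cn_comm (hN.isN _) m2 m4))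
  rw [← e3] at m5
  rw [← e2] at m4
  have hκ : 0 ≤ y ^ 11 / 2 := by positivity
  have hM := (hN.isN (j + 1 + 1)).deriv Q' hκ
  obtain ⟨P'', t2, -, p3⟩ := hM.iter (Y := Y) (b := 4 * y ^ 3)
    (by nlinarith [pow_le_pow_left₀ (by norm_num) hy 3])
    ((add_le_add (cn_shift h1 hy hN _ m3) (mul_le_mul_of_nonneg_left m5 hκ)).trans (by
      field_simp
      nlinarith [mul_le_mul_of_nonneg_left hy (show 0 ≤ y ^ 10 by positivity),
        pow_le_pow_left₀ (by norm_num) hy 10]))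
    (sq hM ((add_le_add (cn_shift h1 hy hN _ n2) (mul_le_mul_of_nonneg_left m4 hκ)).trans (by
      field_simp
      nlinarith [mul_le_mul_of_nonneg_left (pow_le_pow_left₀ (by norm_num) hy 3)
        (show 0 ≤ y ^ 2 by positivity), pow_le_pow_left₀ (by norm_num) hy 2])))
  rw [tendsto_nhds_unique t2 t1] at p3
  refine ⟨P', t1, p1, by linarith, ?_⟩
  have p4 : y ^ 11 / 2 * N (j + 1 + 1) (j + 1 + 1) (P' * Q' - Q' * P') ≤ 2 * (4 * y ^ 3) := by
    linarith [hN.nonneg (j + 1 + 1) (j + 1 + 1) P']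
  rw [← le_div_iff₀' (by positivity)] at p4
  refine p4.trans ?_
  field_simp
  linarith

theorem chain (h1 : ‖(1 : O)‖ ≤ 1) (Q K E : ℕ → O) {y : ℝ} (hy : 100 ≤ y)
    (hQ : ∀ i, Q i * Q i = Q i ∧ ‖Q i‖ ≤ 1) (hE : ∀ i, E i * E i = E i ∧ ‖E i‖ ≤ 1)
    (hE0 : E 0 = Q 0) (hQQ : ∀ i j, i + 2 ≤ j → Commute (Q i) (Q j))
    (hEQ : ∀ i j, i + 2 ≤ j → Commute (E i) (Q j))
    (hEE : ∀ i, E (i + 1) * E i = E (i + 1) ∧ E i * E (i + 1) = E (i + 1))
    (hEQ' : ∀ i, E i * Q i = E i ∧ Q i * E i = E i)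
    (hang : ∀ i, ‖Q (i + 1) * E i - E (i + 1)‖ ≤ 1 / y ^ 25)
    (hc : ∀ i, ‖Q i * Q (i + 1) - Q (i + 1) * Q i‖ ≤ 1 / y ^ 25)
    (hK : ∀ i, K i * Q i = Q i ∧ Q i * K i = Q i ∧ ‖K i - Q i‖ ≤ 1 / y ^ 25) (m D : ℕ) :
    ∃ G ∈ V K m 0 D, ‖E m - G‖ ≤ y ^ (3 * m + 3) / y ^ D := by
  have hy0 : 0 < y := by linarith
  obtain ⟨N, hN⟩ := exists_isG h1 K (show 1 ≤ y by linarith) D
  have hb := cn_base h1 hy hN hQ hc hK
  have key : ∀ j, ∃ P E' : O, P * P = P ∧ E' * E' = E' ∧ E j = P * E' ∧ Commute P E' ∧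
      Commute E' (Q (j + 1)) ∧ (∀ i, j + 2 ≤ i → Commute P (Q i)) ∧ N j j P ≤ 6 * y ∧
      N (j + 1) (j + 1) (P * Q (j + 1) - Q (j + 1) * P) ≤ 1 / y ^ 7 ∧
      N j 0 (E j) ≤ 6 * y * (6 * y ^ 2) ^ j := by
    intro j
    induction j with
    | zero =>
      refine ⟨Q 0, 1, (hQ 0).1, one_mul 1, by rw [hE0, mul_one], Commute.one_right _,
        Commute.one_left _, hQQ 0, by linarith [(hb 0).1], (hb 0).2.trans ?_, ?_⟩
      · exact one_div_le_one_div_of_le (by positivity)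
          (pow_le_pow_right₀ (by linarith) (by norm_num))
      · rw [hE0]; linarith [(hb 0).1]
    | succ j ih =>
      obtain ⟨P, E', hP, hE', e1, c1, c2, c3, n1, n2, n3⟩ := ih
      obtain ⟨P', t, p1, p2, p3⟩ := cn_step h1 hy hN j hP (hQ (j + 1)).1 (c3 (j + 2) le_rfl) n1 n2
        (hb (j + 1)).1 (hb (j + 1)).2
      have hP' : ∀ x, P * (P * x) = P * x := fun x => by rw [← mul_assoc, hP]
      have cm : ∀ A, Commute P A → Commute (Q (j + 1)) A → Commute (Q (j + 1) -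
          (P * (P * Q (j + 1) - Q (j + 1) * P) - (P * Q (j + 1) - Q (j + 1) * P) * P)) A :=
        fun A a b => b.sub_left ((a.mul_left ((a.mul_left b).sub_left (b.mul_left a))).sub_left
          (((a.mul_left b).sub_left (b.mul_left a)).mul_left a))
      have cY : Commute (Q (j + 1) - (P * (P * Q (j + 1) - Q (j + 1) * P) -
          (P * Q (j + 1) - Q (j + 1) * P) * P)) (E j) := by
        rw [e1]
        refine Commute.mul_right ?_ (cm _ c1 c2.symm)
        simp only [Commute, SemiconjBy, mul_sub, sub_mul, mul_assoc, hP, hP']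
        abel
      have f1 : P * E j = E j := by rw [e1, hP']
      have f2 : E j * Q (j + 1) * E j = P * (Q (j + 1) * E j) := by
        rw [e1, mul_assoc P, c2.eq, c1.eq, mul_assoc P, mul_assoc (Q _), ← mul_assoc E', hE']
      have e2 : P' * E j = E (j + 1) := by
        refine cn_lim_eq t (hE j).1 (hE (j + 1)).1 cY (Z := E j * Q (j + 1) * E j - E (j + 1))
          ?_ ?_ ?_ ?_
        · simp only [f2, mul_sub, sub_mul, mul_assoc, f1, hP']
          abel
        · rw [sub_mul, mul_assoc, (hEE j).2, mul_assoc, (hEQ' (j + 1)).2, (hEE j).2,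
            (hE (j + 1)).1, sub_self]
        · rw [mul_sub, ← mul_assoc, ← mul_assoc, (hEE j).1, (hEQ' (j + 1)).1, (hEE j).1,
            (hE (j + 1)).1, sub_self]
        · have : E j * Q (j + 1) * E j - E (j + 1) = E j * (Q (j + 1) * E j - E (j + 1)) := by
            rw [mul_sub, (hEE j).2, mul_assoc]
          rw [this]
          refine (norm_mul_le _ _).trans ((mul_le_of_le_one_left (norm_nonneg _) (hE j).2).trans
            ((hang j).trans ((cn_eps hy 24).trans (by norm_num))))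
      refine ⟨P', E j, p1, (hE j).1, e2.symm, cn_lim_comm t cY, hEQ j _ le_rfl, fun i hi =>
        cn_lim_comm t (cm _ (c3 i (by omega)) (hQQ _ _ hi)), p2, p3, ?_⟩
      have g1 := (hN.mul (j + 1) j 0 1 (E j)).trans
        (mul_le_mul (cn_one h1 hy hN j).2 n3 (hN.nonneg _ _ _) hy0.le)
      rw [one_mul] at g1
      rw [← e2]
      exact (hN.mul (j + 1) (j + 1) 0 P' (E j)).trans
        ((mul_le_mul p2 g1 (hN.nonneg _ _ _) (by positivity)).trans (le_of_eq (by ring)))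
  obtain ⟨-, -, -, -, -, -, -, -, -, -, h⟩ := key m
  have h2 : (6 * y ^ 2) ^ m ≤ (y ^ 3) ^ m :=
    pow_le_pow_left₀ (by positivity) (by nlinarith [sq_nonneg y]) m
  obtain ⟨G, hG, h3⟩ := hN.ext m 0 (E m) (y ^ 4 * (y ^ 3) ^ m) (h.trans_lt (mul_lt_mul
    (by nlinarith [mul_le_mul_of_nonneg_left (pow_le_pow_left₀ (by norm_num) hy 3) hy0.le])
    h2 (by positivity) (by positivity)))
  refine ⟨G, hG, h3.trans (le_of_eq ?_)⟩
  field_simp
  ring

end Vale.Agent.P356
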