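import Vale.Agent.P356.DL

/-! Truncated Hamiltonians and Chebyshev approximation of ground space projections. -/

set_option linter.unusedSectionVars false

namespace Vale.Agent.P356

open Finset
open scoped InnerProductSpace

variable {E : Type*} [NormedAddCommGroup E] [InnerProductSpace ℂ E] [FiniteDimensional ℂ E]
  [CompleteSpace E]

theorem ch_le {P : E →L[ℂ] E} (hP : IsStarProjection P) (v : E) : ‖P v‖ ≤ ‖v‖ :=
  (P.le_opNorm v).trans (mul_le_of_le_one_left (norm_nonneg _) hP.norm_le)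

theorem ch_sq_le {P : E →L[ℂ] E} (hP : IsStarProjection P) (v : E) : ‖P v‖ ^ 2 ≤ ‖v‖ ^ 2 :=
  pow_le_pow_left₀ (norm_nonneg _) (ch_le hP v) 2

theorem ch_add_sq (u v : E) : ‖u + v‖ ^ 2 ≤ 2 * ‖u‖ ^ 2 + 2 * ‖v‖ ^ 2 := by
  have h1 := norm_add_le u v
  have h2 : ‖u + v‖ ^ 2 ≤ (‖u‖ + ‖v‖) ^ 2 := pow_le_pow_left₀ (norm_nonneg _) h1 2
  nlinarith [sq_nonneg (‖u‖ - ‖v‖)]

theorem gap_trunc {X : Type*} {p : X → E →L[ℂ] E} (hp : ∀ x, IsStarProjection (p x))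
    {F Fi Fo W B : Finset X} (hF : ∀ x ∈ F, x ∈ Fi ∨ x ∈ Fo ∨ x ∈ W)
    (hc : Commute (gp p Fi) (gp p Fo))
    (hW : ∀ x ∈ W, x ∉ B → Commute (p x) (gp p Fi) ∧ Commute (p x) (gp p Fo)) {γ : ℝ}
    (hγ : 0 ≤ γ) (hγ1 : γ ≤ 1) (hgap : ∀ ψ, γ * ‖ψ - gp p F ψ‖ ^ 2 ≤ ∑ x ∈ F, ‖p x ψ‖ ^ 2)
    (ψ : E) : γ / (8 * B.card + 4) * ‖ψ - gp p F ψ‖ ^ 2 ≤
      ‖(1 - gp p Fi) ψ‖ ^ 2 + ‖(1 - gp p Fo) ψ‖ ^ 2 + ∑ x ∈ W, ‖p x ψ‖ ^ 2 := by
  classical
  set φ : E := gp p Fi (gp p Fo ψ) with hφ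
  set s : ℝ := ‖(1 - gp p Fi) ψ‖ ^ 2 + ‖(1 - gp p Fo) ψ‖ ^ 2 with hs
  set w : ℝ := ∑ x ∈ W, ‖p x ψ‖ ^ 2 with hw
  have hs0 : 0 ≤ s := by positivity
  have hw0 : 0 ≤ w := by positivity
  have hd : ‖ψ - φ‖ ^ 2 ≤ 2 * s := by
    have e : ψ - φ = (1 - gp p Fi) ψ + gp p Fi ((1 - gp p Fo) ψ) := by
      simp [hφ]
    rw [e]
    have h1 := ch_add_sq ((1 - gp p Fi) ψ) (gp p Fi ((1 - gp p Fo) ψ))
    have h2 := ch_sq_le (gp_proj p Fi) ((1 - gp p Fo) ψ)
    linarith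
  have hd' : ‖φ - ψ‖ ^ 2 ≤ 2 * s := by rwa [norm_sub_rev]
  have hi : ∀ x ∈ Fi, p x φ = 0 := fun x hx => by
    have := congrArg (fun T : E →L[ℂ] E => T (gp p Fo ψ)) (mul_gp (p := p) hx)
    simpa using this
  have ho : ∀ x ∈ Fo, p x φ = 0 := fun x hx => by
    have h1 := congrArg (fun T : E →L[ℂ] E => T (gp p Fi ψ)) (mul_gp (p := p) hx)
    have h2 := congrArg (fun T : E →L[ℂ] E => T ψ) hc.eq
    simp only [mul_apply_eq_comp] at h1 h2
    rw [hφ, h2]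
    simpa using h1
  have h1 : ∑ x ∈ F, ‖p x φ‖ ^ 2 ≤ ∑ x ∈ W, ‖p x φ‖ ^ 2 := by
    calc ∑ x ∈ F, ‖p x φ‖ ^ 2 = ∑ x ∈ F.filter (· ∈ W), ‖p x φ‖ ^ 2 := by
          rw [sum_filter]
          refine sum_congr rfl fun x hx => ?_
          split_ifs with h
          · rfl
          · rcases hF x hx with h' | h' | h'
            · simp [hi x h']
            · simp [ho x h']
            · exact absurd h' h
      _ ≤ _ := sum_le_sum_of_subset_of_nonneg (fun x hx => (mem_filter.1 hx).2)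
          fun _ _ _ => by positivity
  have h2 : ∀ x ∈ W, ‖p x φ‖ ^ 2 ≤ 2 * ‖p x ψ‖ ^ 2 + if x ∈ B then 4 * s else 0 := by
    intro x hx
    split_ifs with hB
    · have e : p x φ = p x ψ + p x (φ - ψ) := by simp
      have h3 := ch_add_sq (p x ψ) (p x (φ - ψ))
      have h4 := ch_sq_le (hp x) (φ - ψ)
      rw [e]
      linarith
    · obtain ⟨c1, c2⟩ := hW x hx hB
      have e1 := congrArg (fun T : E →L[ℂ] E => T (gp p Fo ψ)) c1.eq
      have e2 := congrArg (fun T : E →L[ℂ] E => T ψ) c2.eq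
      simp only [mul_apply_eq_comp] at e1 e2
      rw [hφ, e1, e2]
      have h3 := ch_sq_le (gp_proj p Fi) (gp p Fo (p x ψ))
      have h4 := ch_sq_le (gp_proj p Fo) (p x ψ)
      nlinarith [sq_nonneg ‖p x ψ‖]
  have h3 : ∑ x ∈ W, ‖p x φ‖ ^ 2 ≤ 2 * w + 4 * B.card * s := by
    refine (sum_le_sum h2).trans ?_
    rw [sum_add_distrib, ← mul_sum, ← sum_filter, sum_const, nsmul_eq_mul]
    have : ((W.filter (· ∈ B)).card : ℝ) ≤ B.card := by
      exact_mod_cast card_le_card fun x hx => (mem_filter.1 hx).2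
    nlinarith
  have h4 : ‖ψ - gp p F ψ‖ ^ 2 ≤ 2 * ‖φ - gp p F φ‖ ^ 2 + 4 * s := by
    have e : ψ - gp p F ψ = (φ - gp p F φ) + (1 - gp p F) (ψ - φ) := by
      simp only [sub_apply, one_apply_eq_self, map_sub]
      abel
    have h5 := ch_add_sq (φ - gp p F φ) ((1 - gp p F) (ψ - φ))
    have h6 := ch_sq_le (gp_proj p F).one_sub (ψ - φ)
    rw [e]
    linarith
  have h5 := hgap φ
  have hB : (0 : ℝ) ≤ B.card := Nat.cast_nonneg _
  rw [div_mul_eq_mul_div, div_le_iff₀ (by positivity)]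
  have h6 : γ * ‖ψ - gp p F ψ‖ ^ 2 ≤ γ * (2 * ‖φ - gp p F φ‖ ^ 2 + 4 * s) :=
    mul_le_mul_of_nonneg_left h4 hγ
  have h7 : γ * s ≤ s := mul_le_of_le_one_left hs0 hγ1
  have h8 : 0 ≤ (B.card : ℝ) * w := mul_nonneg hB hw0
  nlinarith

open Polynomial Polynomial.Chebyshev in
theorem ch_T_ge {δ : ℝ} (hδ : 0 ≤ δ) (n : ℕ) :
    1 + (n : ℝ) ^ 2 * δ ≤ (T ℝ n).eval (1 + δ) ∧
      (2 * n + 1) * δ ≤ (T ℝ (n + 1)).eval (1 + δ) - (T ℝ n).eval (1 + δ) := by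
  induction n with
  | zero => simp
  | succ n ih =>
    obtain ⟨h1, h2⟩ := ih
    have h3 := congrArg (eval (1 + δ)) (T_add_two ℝ (n : ℤ))
    have h4 := one_le_eval_T_real ((n : ℤ) + 1) (x := 1 + δ) (by linarith)
    simp only [eval_sub, eval_mul, eval_X, eval_ofNat] at h3
    have e : ((n + 1 : ℕ) : ℤ) + 1 = (n : ℤ) + 2 := by push_cast; ring
    rw [e, h3]
    push_cast
    constructor
    · nlinarith
    · nlinarith

open Polynomial Polynomial.Chebyshev in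
theorem ch_poly {γ M : ℝ} (hγ : 0 < γ) (hM : γ < M) (d k : ℕ) (hd : M ≤ γ * d ^ 2) :
    ∃ f : ℝ[X], f.natDegree ≤ d * k ∧ f.eval 0 = 1 ∧
      ∀ x, γ ≤ x → x ≤ M → |f.eval x| ≤ (1 / 2) ^ k := by
  have hMγ : 0 < M - γ := sub_pos.2 hM
  set δ : ℝ := 2 * γ / (M - γ) with hδ
  have hδ0 : 0 ≤ δ := by positivity
  set c : ℝ := (T ℝ d).eval (1 + δ) with hc
  have hc2 : 2 ≤ c := by
    have h1 := (ch_T_ge hδ0 d).1
    have h2 : 1 ≤ (d : ℝ) ^ 2 * δ := by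
      rw [hδ, ← mul_div_assoc, le_div_iff₀ hMγ]
      nlinarith
    linarith
  have hc0 : 0 < c := by linarith
  set l : ℝ[X] := C (-2 / (M - γ)) * X + C (1 + δ) with hl
  refine ⟨(C c⁻¹ * (T ℝ d).comp l) ^ k, ?_, ?_, ?_⟩
  · refine natDegree_pow_le.trans ?_
    rw [mul_comm d k]
    refine Nat.mul_le_mul_left _ ?_
    refine (natDegree_C_mul_le _ _).trans (natDegree_comp_le.trans ?_)
    rw [natDegree_T]
    have : l.natDegree ≤ 1 := natDegree_linear_le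
    simpa using Nat.mul_le_mul_left d this
  · simp only [eval_pow, eval_mul, eval_C, eval_comp, hl, eval_add, eval_X, mul_zero, zero_add]
    rw [← hc, inv_mul_cancel₀ hc0.ne', one_pow]
  · intro x h1 h2
    simp only [eval_pow, eval_mul, eval_C, eval_comp, hl, eval_add, eval_X, abs_pow]
    refine pow_le_pow_left₀ (abs_nonneg _) ?_ k
    have h3 : |-2 / (M - γ) * x + (1 + δ)| ≤ 1 := by
      have e : -2 / (M - γ) * x + (1 + δ) = (M + γ - 2 * x) / (M - γ) := by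
        rw [hδ]; field_simp; ring
      rw [e, abs_le, le_div_iff₀ hMγ, div_le_iff₀ hMγ]
      constructor <;> linarith
    have h4 := abs_eval_T_real_le_one (d : ℤ) h3
    rw [abs_mul, abs_of_pos (inv_pos.2 hc0)]
    have h5 : c⁻¹ ≤ 1 / 2 := by
      rw [inv_eq_one_div]
      exact one_div_le_one_div_of_le (by norm_num) hc2
    calc _ ≤ c⁻¹ * 1 := mul_le_mul_of_nonneg_left h4 (inv_pos.2 hc0).le
      _ ≤ 1 / 2 := by linarith

theorem ch_inner {P : E →L[ℂ] E} (hP : IsStarProjection P) (v : E) :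
    (⟪v, P v⟫_ℂ).re = ‖P v‖ ^ 2 := by
  have h1 : P v = P (P v) := by
    have := congrArg (fun T : E →L[ℂ] E => T v) hP.isIdempotentElem.eq
    simpa using this.symm
  have h2 : ⟪v, P v⟫_ℂ = ⟪P v, P v⟫_ℂ := by
    conv_lhs => rw [h1]
    have := hP.isSelfAdjoint.isSymmetric v (P v)
    simpa using this.symm
  rw [h2]
  exact inner_self_eq_norm_sq (𝕜 := ℂ) (P v)

theorem ch_pyth {P : E →L[ℂ] E} (hP : IsStarProjection P) (v : E) :
    ‖v‖ ^ 2 = ‖v - P v‖ ^ 2 + ‖P v‖ ^ 2 := by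
  have h1 := ch_inner hP v
  have h2 := norm_sub_sq (𝕜 := ℂ) v (P v)
  have h3 : RCLike.re (⟪v, P v⟫_ℂ) = (⟪v, P v⟫_ℂ).re := rfl
  rw [h3, h1] at h2
  linarith

theorem ch_spec {H : E →L[ℂ] E} {a b : ℝ}
    (h : ∀ v, a * ‖v‖ ^ 2 ≤ (⟪v, H v⟫_ℂ).re ∧ (⟪v, H v⟫_ℂ).re ≤ b * ‖v‖ ^ 2) {x : ℝ}
    (hx : x ∈ spectrum ℝ H) : a ≤ x ∧ x ≤ b := by
  rw [spectrum.mem_iff, ContinuousLinearMap.isUnit_iff_bijective] at hx
  have h1 : ¬ Function.Injective (algebraMap ℝ (E →L[ℂ] E) x - H) := fun hi =>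
    hx ⟨hi, (LinearMap.injective_iff_surjective
      (f := (algebraMap ℝ (E →L[ℂ] E) x - H).toLinearMap)).1 hi⟩
  rw [injective_iff_map_eq_zero] at h1
  push Not at h1
  obtain ⟨v, hv, hv0⟩ := h1
  have h2 : H v = (x : ℂ) • v := by
    rw [Algebra.algebraMap_eq_smul_one] at hv
    simp only [sub_apply, smul_apply,
      one_apply_eq_self] at hv
    rw [Complex.coe_smul]
    exact (sub_eq_zero.1 hv).symm
  have h3 : (⟪v, H v⟫_ℂ).re = x * ‖v‖ ^ 2 := by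
    rw [h2, inner_smul_right, Complex.re_ofReal_mul]
    congr 1
    exact inner_self_eq_norm_sq (𝕜 := ℂ) v
  have h4 : 0 < ‖v‖ ^ 2 := by positivity
  obtain ⟨h5, h6⟩ := h v
  rw [h3] at h5 h6
  exact ⟨le_of_mul_le_mul_right h5 h4, le_of_mul_le_mul_right h6 h4⟩

theorem exists_cheb {A : Type*} (T : Finset A) (p : A → E →L[ℂ] E)
    (hp : ∀ a ∈ T, IsStarProjection (p a)) {Q : E →L[ℂ] E} (hQ : IsStarProjection Q)
    (hpQ : ∀ a ∈ T, p a * Q = 0) {γ M : ℝ} (hγ : 0 < γ) (hM : γ < M) (hT : (T.card : ℝ) ≤ M)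
    (hgap : ∀ ψ, γ * ‖ψ - Q ψ‖ ^ 2 ≤ ∑ a ∈ T, ‖p a ψ‖ ^ 2) (d k : ℕ) (hd : M ≤ γ * d ^ 2)
    (hk : 1 ≤ k) :
    ∃ K ∈ Submodule.span ℂ {z | ∃ j ≤ d * k, z = (∑ a ∈ T, p a) ^ j},
      star K = K ∧ K * Q = Q ∧ Q * K = Q ∧ ‖K - Q‖ ≤ (1 / 2) ^ k := by
  obtain ⟨f, hf1, hf0, hf⟩ := ch_poly hγ hM d k hd
  set H : E →L[ℂ] E := ∑ a ∈ T, p a with hH
  have hHs : IsSelfAdjoint H := isSelfAdjoint_sum _ fun a ha => (hp a ha).isSelfAdjoint
  have hHQ : H * Q = 0 := by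
    rw [hH, sum_mul]
    exact sum_eq_zero hpQ
  set G : E →L[ℂ] E := H + γ • Q with hG
  have hGs : IsSelfAdjoint G :=
    hHs.add ((IsSelfAdjoint.all γ).smul hQ.isSelfAdjoint)
  have hQQ : Q * Q = Q := hQ.isIdempotentElem.eq
  have hQH : Q * H = 0 := by
    have := congrArg star hHQ
    rwa [star_mul, hHs.star_eq, hQ.isSelfAdjoint.star_eq, star_zero] at this
  have hspec : ∀ x ∈ spectrum ℝ G, γ ≤ x ∧ x ≤ M := by
    intro x hx
    refine ch_spec (fun v => ?_) hx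
    have e : (⟪v, G v⟫_ℂ).re = ∑ a ∈ T, ‖p a v‖ ^ 2 + γ * ‖Q v‖ ^ 2 := by
      have e1 : G v = ∑ a ∈ T, p a v + (γ : ℂ) • Q v := by
        rw [Complex.coe_smul, hG, hH]
        simp
      rw [e1, inner_add_right, inner_smul_right, Complex.add_re, Complex.re_ofReal_mul,
        ch_inner hQ, inner_sum, Complex.re_sum]
      congr 1
      exact sum_congr rfl fun a ha => ch_inner (hp a ha) v
    have h1 := ch_pyth hQ v
    have h2 := hgap v
    have h3 : ∑ a ∈ T, ‖p a v‖ ^ 2 ≤ M * ‖v - Q v‖ ^ 2 := by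
      have h4 : ∀ a ∈ T, ‖p a v‖ ^ 2 ≤ ‖v - Q v‖ ^ 2 := fun a ha => by
        have h5 := congrArg (fun S : E →L[ℂ] E => S v) (hpQ a ha)
        have h6 : p a v = p a (v - Q v) := by
          simp only [mul_apply_eq_comp, zero_apply] at h5
          rw [map_sub, h5, sub_zero]
        rw [h6]
        exact ch_sq_le (hp a ha) _
      refine (sum_le_sum h4).trans ?_
      rw [sum_const, nsmul_eq_mul]
      exact mul_le_mul_of_nonneg_right hT (by positivity)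
    rw [e, h1]
    have h4 : γ * ‖Q v‖ ^ 2 ≤ M * ‖Q v‖ ^ 2 := mul_le_mul_of_nonneg_right hM.le (by positivity)
    constructor <;> nlinarith
  have hn : ‖Polynomial.aeval G f‖ ≤ (1 / 2) ^ k := by
    rw [← cfc_polynomial f G hGs]
    refine norm_cfc_le (by positivity) fun x hx => ?_
    exact hf x (hspec x hx).1 (hspec x hx).2
  have hpow : ∀ n : ℕ, H ^ n * (1 - Q) = G ^ n * (1 - Q) := by
    intro n
    induction n with
    | zero => simp
    | succ n ih =>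
      have e1 : G * (1 - Q) = (1 - Q) * H := by
        rw [hG, add_mul, smul_mul_assoc, mul_sub, mul_sub, hQQ, hHQ, sub_mul, hQH]
        simp
      have e2 : H * (1 - Q) = (1 - Q) * H := by
        rw [mul_sub, hHQ, sub_mul, hQH]
        simp
      rw [pow_succ, pow_succ, mul_assoc, mul_assoc, e1, e2, ← mul_assoc, ← mul_assoc, ih]
  have hKQ : Polynomial.aeval H f * Q = Q := by
    rw [Polynomial.aeval_eq_sum_range, sum_range_succ', add_mul, sum_mul, sum_eq_zero]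
    · rw [Polynomial.coeff_zero_eq_eval_zero, hf0]
      simp
    · intro i _
      rw [smul_mul_assoc, pow_succ, mul_assoc, hHQ]
      simp
  have hKs : IsSelfAdjoint (Polynomial.aeval H f) := by
    rw [← cfc_polynomial f H hHs]
    exact cfc_predicate _ _
  refine ⟨Polynomial.aeval H f, ?_, hKs.star_eq, hKQ, ?_, ?_⟩
  · rw [Polynomial.aeval_eq_sum_range]
    refine Submodule.sum_mem _ fun i hi => Submodule.smul_of_tower_mem _ _ ?_
    refine Submodule.subset_span ⟨i, ?_, rfl⟩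
    exact (Nat.lt_succ_iff.1 (mem_range.1 hi)).trans hf1
  · have := congrArg star hKQ
    rwa [star_mul, hKs.star_eq, hQ.isSelfAdjoint.star_eq] at this
  · have e : Polynomial.aeval H f - Q = Polynomial.aeval G f * (1 - Q) := by
      have e1 : Polynomial.aeval H f - Q = Polynomial.aeval H f * (1 - Q) := by
        rw [mul_sub, mul_one, hKQ]
      rw [e1, Polynomial.aeval_eq_sum_range, Polynomial.aeval_eq_sum_range, sum_mul, sum_mul]
      refine sum_congr rfl fun i _ => ?_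
      rw [smul_mul_assoc, smul_mul_assoc, hpow]
    rw [e]
    refine (norm_mul_le _ _).trans ?_
    exact (mul_le_of_le_one_right (norm_nonneg _) hQ.one_sub.norm_le).trans hn

end Vale.Agent.P356
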