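import Vale.Agent.P356.Base

/-! The detectability lemma and overlapping ground space projections. -/

set_option linter.unusedSectionVars false

namespace Vale.Agent.P356

open Finset
open scoped InnerProductSpace

variable {E : Type*} [NormedAddCommGroup E] [InnerProductSpace ℂ E] [FiniteDimensional ℂ E]
  [CompleteSpace E] {X : Type*} {p : X → E →L[ℂ] E}

theorem gp_proj (p : X → E →L[ℂ] E) (F : Finset X) : IsStarProjection (gp p F) :=
  isStarProjection_starProjection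

theorem gp_apply_eq_iff {F : Finset X} {ψ : E} : gp p F ψ = ψ ↔ ∀ x ∈ F, p x ψ = 0 := by
  unfold gp
  rw [Submodule.starProjection_eq_self_iff]
  simp [Submodule.mem_iInf]

theorem dl_gp_idem (F : Finset X) (ψ : E) : gp p F (gp p F ψ) = gp p F ψ := by
  have := (gp_proj p F).isIdempotentElem
  exact congrArg (fun T : E →L[ℂ] E => T ψ) this

theorem mul_gp {F : Finset X} {x : X} (hx : x ∈ F) : p x * gp p F = 0 := by
  ext ψ
  exact gp_apply_eq_iff.1 (dl_gp_idem F ψ) x hx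

theorem gp_mul {F : Finset X} {x : X} (hx : x ∈ F) (hp : star (p x) = p x) :
    gp p F * p x = 0 := by
  have h := congrArg star (mul_gp (p := p) hx)
  rwa [star_mul, hp, (gp_proj p F).isSelfAdjoint.star_eq, star_zero] at h

theorem gp_mul_gp {F F' : Finset X} (h : F ⊆ F') :
    gp p F * gp p F' = gp p F' ∧ gp p F' * gp p F = gp p F' := by
  have h1 : gp p F * gp p F' = gp p F' := by
    ext ψ
    exact gp_apply_eq_iff.2 fun x hx => gp_apply_eq_iff.1 (dl_gp_idem F' ψ) x (h hx)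
  refine ⟨h1, ?_⟩
  have h2 := congrArg star h1
  rwa [star_mul, (gp_proj p F).isSelfAdjoint.star_eq, (gp_proj p F').isSelfAdjoint.star_eq] at h2

theorem dl_gp_inv {F : Finset X} {b : E →L[ℂ] E} (h : ∀ x ∈ F, Commute b (p x)) :
    gp p F * (b * gp p F) = b * gp p F := by
  ext ψ
  refine gp_apply_eq_iff.2 fun x hx => ?_
  have h1 : p x * (b * gp p F) = 0 := by
    rw [← mul_assoc, ← (h x hx).eq, mul_assoc, mul_gp hx, mul_zero]
  exact congrArg (fun T : E →L[ℂ] E => T ψ) h1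

theorem commute_gp {F : Finset X} (hp : ∀ x ∈ F, star (p x) = p x) {b : E →L[ℂ] E}
    (h : ∀ x ∈ F, Commute b (p x)) : Commute b (gp p F) := by
  have h1 := dl_gp_inv h
  have h2 : gp p F * (star b * gp p F) = star b * gp p F := dl_gp_inv fun x hx => by
    have := (h x hx).star_star
    rwa [hp x hx] at this
  have h3 := congrArg star h2
  simp only [star_mul, star_star, (gp_proj p F).isSelfAdjoint.star_eq] at h3
  rw [mul_assoc] at h3
  exact h1.symm.trans h3

theorem dl_norm_le {P : E →L[ℂ] E} (hP : IsStarProjection P) (ψ : E) : ‖P ψ‖ ≤ ‖ψ‖ := by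
  have := P.le_opNorm ψ
  have h2 := mul_le_mul_of_nonneg_right (hP.norm_le P) (norm_nonneg ψ)
  linarith

theorem dl_pyth {P : E →L[ℂ] E} (hP : IsStarProjection P) (ψ : E) :
    ‖(1 - P) ψ‖ ^ 2 = ‖ψ‖ ^ 2 - ‖P ψ‖ ^ 2 := by
  have h1 : ⟪P ψ, (1 - P) ψ⟫_ℂ = 0 := by
    have h2 := hP.isSelfAdjoint.isSymmetric ψ ((1 - P) ψ)
    have h3 : P ((1 - P) ψ) = 0 := congrArg (fun T : E →L[ℂ] E => T ψ) hP.mul_one_sub_self
    simp only [ContinuousLinearMap.coe_coe] at h2
    rw [h2, h3, inner_zero_right]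
  have h4 := norm_add_sq_eq_norm_sq_add_norm_sq_of_inner_eq_zero _ _ h1
  have h5 : P ψ + (1 - P) ψ = ψ := by simp
  rw [h5] at h4
  nlinarith

/-- The ordered product of the complementary projections. -/
noncomputable def dlT (p : X → E →L[ℂ] E) (l : List X) : E →L[ℂ] E :=
  (l.map fun x => 1 - p x).prod

theorem dlT_cons (y : X) (l : List X) : dlT p (y :: l) = (1 - p y) * dlT p l := by
  simp [dlT]

theorem dlT_append (l l' : List X) : dlT p (l ++ l') = dlT p l * dlT p l' := by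
  simp [dlT]

theorem dl_key [DecidableEq X] (hp : ∀ x, IsStarProjection (p x)) {F : Finset X}
    (adj : X → X → Prop) [DecidableRel adj]
    (hc : ∀ x ∈ F, ∀ y ∈ F, ¬ adj x y → Commute (p x) (p y)) (ψ : E) (l : List X)
    (hn : l.Nodup) (hl : ∀ x ∈ l, x ∈ F) :
    ∃ d : X → ℝ, (∀ y, 0 ≤ d y) ∧ ∑ y ∈ l.toFinset, d y ^ 2 = ‖ψ‖ ^ 2 - ‖dlT p l ψ‖ ^ 2 ∧
      ∀ x ∈ l, ‖p x (dlT p l ψ)‖ ≤ ∑ y ∈ l.toFinset, if adj x y then d y else 0 := by
  induction l with
  | nil => exact ⟨fun _ => 0, fun _ => le_rfl, by simp [dlT], by simp⟩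
  | cons y l ih =>
    obtain ⟨hy, hn'⟩ := List.nodup_cons.1 hn
    obtain ⟨d, hd0, hd1, hd2⟩ := ih hn' fun x hx => hl x (List.mem_cons_of_mem _ hx)
    have hy' : y ∉ l.toFinset := by simpa using hy
    set φ := dlT p l ψ with hφ
    have hT : dlT p (y :: l) ψ = (1 - p y) φ := by rw [dlT_cons]; rfl
    have hu : ∀ z ∈ l.toFinset, Function.update d y ‖p y φ‖ z = d z := fun z hz =>
      Function.update_of_ne (fun h : z = y => hy' (h ▸ hz)) _ _
    have hd0' : ∀ z, 0 ≤ Function.update d y ‖p y φ‖ z := fun z => by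
      by_cases h : z = y
      · subst h; simp
      · rw [Function.update_of_ne h]; exact hd0 z
    refine ⟨Function.update d y ‖p y φ‖, hd0', ?_, fun x hx => ?_⟩
    · rw [List.toFinset_cons, Finset.sum_insert hy', Function.update_self, hT, dl_pyth (hp y),
        Finset.sum_congr rfl (fun z hz => by rw [hu z hz]), hd1]
      ring
    · rw [hT]
      rcases List.mem_cons.1 hx with rfl | hx'
      · have h3 : p x ((1 - p x) φ) = 0 :=
          congrArg (fun T : E →L[ℂ] E => T φ) (hp x).mul_one_sub_self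
        rw [h3, norm_zero]
        exact Finset.sum_nonneg fun z _ => by split_ifs; exacts [hd0' z, le_rfl]
      · rw [List.toFinset_cons, Finset.sum_insert hy', Function.update_self,
          Finset.sum_congr rfl (fun z hz => by rw [hu z hz])]
        have h1 := hd2 x hx'
        by_cases ha : adj x y
        · rw [if_pos ha]
          have h2 : p x ((1 - p y) φ) = p x φ - p x (p y φ) := by simp
          rw [h2]
          have h3 := norm_sub_le (p x φ) (p x (p y φ))
          have h4 := dl_norm_le (hp x) (p y φ)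
          linarith
        · rw [if_neg ha]
          have h2 : Commute (p x) (1 - p y) :=
            (Commute.one_right _).sub_right (hc x (hl x hx) y (hl y List.mem_cons_self) ha)
          have h3 : p x ((1 - p y) φ) = (1 - p y) (p x φ) :=
            congrArg (fun T : E →L[ℂ] E => T φ) h2.eq
          rw [h3]
          have h4 := dl_norm_le (hp y).one_sub (p x φ)
          linarith

theorem dl_energy [DecidableEq X] (hp : ∀ x, IsStarProjection (p x)) {F : Finset X}
    (adj : X → X → Prop) [DecidableRel adj] (hs : ∀ x y, adj x y → adj y x)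
    (hc : ∀ x ∈ F, ∀ y ∈ F, ¬ adj x y → Commute (p x) (p y)) {g : ℕ}
    (hg : ∀ x ∈ F, (F.filter (adj x)).card ≤ g) (ψ : E) (l : List X)
    (hn : l.Nodup) (hl : l.toFinset = F) :
    ∑ x ∈ F, ‖p x (dlT p l ψ)‖ ^ 2 ≤ g ^ 2 * (‖ψ‖ ^ 2 - ‖dlT p l ψ‖ ^ 2) := by
  obtain ⟨d, hd0, hd1, hd2⟩ := dl_key hp adj hc ψ l hn fun x hx => hl ▸ List.mem_toFinset.2 hx
  rw [hl] at hd1 hd2
  rw [← hd1]
  have h1 : ∀ x ∈ F, ‖p x (dlT p l ψ)‖ ^ 2 ≤ g * ∑ y ∈ F, if adj x y then d y ^ 2 else 0 := by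
    intro x hx
    have h2 := hd2 x (List.mem_toFinset.1 (hl ▸ hx))
    rw [← Finset.sum_filter] at h2 ⊢
    have h3 := sq_sum_le_card_mul_sum_sq (s := F.filter (adj x)) (f := d)
    have h4 : ((F.filter (adj x)).card : ℝ) ≤ g := by exact_mod_cast hg x hx
    have h5 : 0 ≤ ∑ y ∈ F.filter (adj x), d y ^ 2 := Finset.sum_nonneg fun _ _ => sq_nonneg _
    have h6 := pow_le_pow_left₀ (norm_nonneg _) h2 2
    nlinarith
  refine (Finset.sum_le_sum h1).trans ?_
  rw [← Finset.mul_sum, Finset.sum_comm, pow_two (g : ℝ), mul_assoc]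
  refine mul_le_mul_of_nonneg_left ?_ (by positivity)
  rw [Finset.mul_sum]
  refine Finset.sum_le_sum fun y hy => ?_
  rw [← Finset.sum_filter, Finset.sum_const, nsmul_eq_mul]
  refine mul_le_mul_of_nonneg_right ?_ (sq_nonneg _)
  have : (F.filter fun x => adj x y).card ≤ g :=
    (card_le_card (monotone_filter_right F fun x _ h => hs x y h)).trans (hg y hy)
  exact_mod_cast this

theorem dlT_mul_gp {F : Finset X} (l : List X) (hl : ∀ x ∈ l, x ∈ F) :
    dlT p l * gp p F = gp p F := by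
  induction l with
  | nil => simp [dlT]
  | cons y l ih =>
    rw [dlT_cons, mul_assoc, ih fun x hx => hl x (List.mem_cons_of_mem _ hx), sub_mul, one_mul,
      mul_gp (hl y List.mem_cons_self), sub_zero]

theorem gp_mul_dlT (hp : ∀ x, IsStarProjection (p x)) {F : Finset X} (l : List X)
    (hl : ∀ x ∈ l, x ∈ F) : gp p F * dlT p l = gp p F := by
  induction l with
  | nil => simp [dlT]
  | cons y l ih =>
    rw [dlT_cons, ← mul_assoc, mul_sub, mul_one,
      gp_mul (hl y List.mem_cons_self) (hp y).isSelfAdjoint.star_eq, sub_zero,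
      ih fun x hx => hl x (List.mem_cons_of_mem _ hx)]

theorem dl_norm_T [DecidableEq X] (hp : ∀ x, IsStarProjection (p x)) {F : Finset X}
    (adj : X → X → Prop) [DecidableRel adj] (hs : ∀ x y, adj x y → adj y x)
    (hc : ∀ x ∈ F, ∀ y ∈ F, ¬ adj x y → Commute (p x) (p y)) {g : ℕ}
    (hg : ∀ x ∈ F, (F.filter (adj x)).card ≤ g) {γ : ℝ} (hγ : 0 < γ)
    (hgap : ∀ ψ, γ * ‖ψ - gp p F ψ‖ ^ 2 ≤ ∑ x ∈ F, ‖p x ψ‖ ^ 2) (l : List X)
    (hn : l.Nodup) (hl : l.toFinset = F) :
    ‖dlT p l - gp p F‖ ≤ √(g ^ 2 / (g ^ 2 + γ)) := by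
  have hl' : ∀ x ∈ l, x ∈ F := fun x hx => hl ▸ List.mem_toFinset.2 hx
  refine ContinuousLinearMap.opNorm_le_bound _ (Real.sqrt_nonneg _) fun ψ => ?_
  set φ := (1 - gp p F) ψ with hφ
  have h1 : (dlT p l - gp p F) ψ = dlT p l φ := by
    have : dlT p l - gp p F = dlT p l * (1 - gp p F) := by
      rw [mul_sub, mul_one, dlT_mul_gp l hl']
    rw [this]; rfl
  have h2 : gp p F (dlT p l φ) = 0 := by
    have : gp p F * (dlT p l * (1 - gp p F)) = 0 := by
      rw [← mul_assoc, gp_mul_dlT hp l hl', (gp_proj p F).mul_one_sub_self]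
    exact congrArg (fun T : E →L[ℂ] E => T ψ) this
  have h3 := (hgap (dlT p l φ)).trans (dl_energy hp adj hs hc hg φ l hn hl)
  rw [h2, sub_zero] at h3
  have h4 := pow_le_pow_left₀ (norm_nonneg _) (dl_norm_le (gp_proj p F).one_sub ψ) 2
  rw [h1]
  refine le_of_pow_le_pow_left₀ (n := 2) (by norm_num) (by positivity) ?_
  rw [mul_pow, Real.sq_sqrt (by positivity), div_mul_eq_mul_div, le_div_iff₀ (by positivity)]
  have h5 := mul_le_mul_of_nonneg_left h4 (show (0 : ℝ) ≤ g ^ 2 by positivity)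
  rw [← hφ] at h5
  nlinarith

theorem dl_pow_sub {T P : E →L[ℂ] E} (h1 : T * P = P) (h2 : P * T = P) (h3 : P * P = P) (k : ℕ) :
    T ^ k - P = (T - P) ^ k * (1 - P) ∧ P * T ^ k = P := by
  induction k with
  | zero => simp
  | succ k ih =>
    refine ⟨?_, by rw [pow_succ', ← mul_assoc, h2, ih.2]⟩
    rw [pow_succ' (T - P), mul_assoc, ← ih.1, sub_mul, mul_sub, mul_sub, h1, ih.2, h3, pow_succ']
    simp

/-- The monoid generated by the complementary projections of level at least `t`. -/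
def dlC (p : X → E →L[ℂ] E) (F : Finset X) (b : X → ℕ) (t : ℕ) : Submonoid (E →L[ℂ] E) :=
  Submonoid.closure {z | ∃ x ∈ F, t ≤ b x ∧ z = 1 - p x}

theorem dlC_mono {F : Finset X} {b : X → ℕ} {t t' : ℕ} (h : t ≤ t') :
    dlC p F b t' ≤ dlC p F b t :=
  Submonoid.closure_mono fun _ ⟨x, hx, h1, h2⟩ => ⟨x, hx, h.trans h1, h2⟩

theorem dl_layer {F I : Finset X} {b : X → ℕ}
    (hb : ∀ x ∈ F, ∀ y ∈ F, b x + 2 ≤ b y → Commute (p x) (p y)) {t : ℕ}
    (hI' : ∀ x ∈ F, b x + 2 ≤ t → x ∈ I) (l : List X)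
    (hl : ∀ x ∈ l, x ∈ F ∧ b x % 2 = t % 2) {U : E →L[ℂ] E} (hU : U ∈ dlC p F b t) :
    ∃ U' ∈ dlC p F b t, dlT p l * (U * gp p I) = U' * gp p I := by
  induction l with
  | nil => exact ⟨U, hU, by simp [dlT]⟩
  | cons y l ih =>
    obtain ⟨U', hU', h1⟩ := ih fun x hx => hl x (List.mem_cons_of_mem _ hx)
    obtain ⟨hy, hy2⟩ := hl y List.mem_cons_self
    rw [dlT_cons, mul_assoc, h1]
    by_cases h : t ≤ b y
    · exact ⟨(1 - p y) * U', Submonoid.mul_mem _ (Submonoid.subset_closure ⟨y, hy, h, rfl⟩) hU',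
        (mul_assoc _ _ _).symm⟩
    · have h2 : b y + 2 ≤ t := by omega
      have h3 : Commute (p y) U' := by
        refine Submonoid.closure_induction (motive := fun z _ => Commute (p y) z) ?_ ?_ ?_ hU'
        · rintro z ⟨x, hx, h4, rfl⟩
          exact (Commute.one_right _).sub_right (hb y hy x hx (h2.trans h4))
        · exact Commute.one_right _
        · exact fun _ _ _ _ h4 h5 => h4.mul_right h5
      refine ⟨U', hU', ?_⟩
      rw [sub_mul, one_mul, ← mul_assoc, h3.eq, mul_assoc, mul_gp (hI' y hy h2), mul_zero, sub_zero]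

theorem norm_gp_mul_gp_sub [DecidableEq X] (hp : ∀ x, IsStarProjection (p x)) {F I J : Finset X}
    (hI : I ⊆ F) (hJ : J ⊆ F) (adj : X → X → Prop) [DecidableRel adj]
    (hs : ∀ x y, adj x y → adj y x)
    (hc : ∀ x ∈ F, ∀ y ∈ F, ¬ adj x y → Commute (p x) (p y)) {g : ℕ}
    (hg : ∀ x ∈ F, (F.filter (adj x)).card ≤ g) {γ : ℝ} (hγ : 0 < γ)
    (hgap : ∀ ψ, γ * ‖ψ - gp p F ψ‖ ^ 2 ≤ ∑ x ∈ F, ‖p x ψ‖ ^ 2) (b : X → ℕ)
    (hb : ∀ x ∈ F, ∀ y ∈ F, b x + 2 ≤ b y → Commute (p x) (p y)) (b₀ k : ℕ)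
    (hI' : ∀ x ∈ F, b x ≤ b₀ + 2 * k → x ∈ I) (hJ' : ∀ x ∈ F, b₀ ≤ b x → x ∈ J) :
    ‖gp p J * gp p I - gp p F‖ ≤ √(g ^ 2 / (g ^ 2 + γ)) ^ k := by
  set lA := (F.filter fun x => ¬ b x % 2 = b₀ % 2).toList with hA
  set lB := (F.filter fun x => b x % 2 = b₀ % 2).toList with hB
  have hn : (lA ++ lB).Nodup := by
    refine List.Nodup.append (Finset.nodup_toList _) (Finset.nodup_toList _) fun x h1 h2 => ?_
    exact (mem_filter.1 (Finset.mem_toList.1 h1)).2 (mem_filter.1 (Finset.mem_toList.1 h2)).2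
  have hl : (lA ++ lB).toFinset = F := by
    rw [List.toFinset_append, hA, hB, Finset.toList_toFinset, Finset.toList_toFinset, union_comm,
      filter_union_filter_not_eq]
  have hl' : ∀ x ∈ lA ++ lB, x ∈ F := fun x hx => hl ▸ List.mem_toFinset.2 hx
  set T := dlT p (lA ++ lB) with hT
  have habs : ∀ j t : ℕ, t + 2 * j = b₀ + 2 * k + 2 →
      ∃ U ∈ dlC p F b t, T ^ j * gp p I = U * gp p I := by
    intro j
    induction j with
    | zero => exact fun t _ => ⟨1, Submonoid.one_mem _, by simp⟩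
    | succ j ih =>
      intro t ht
      obtain ⟨U, hU, h1⟩ := ih (t + 2) (by omega)
      obtain ⟨U1, hU1, h2⟩ := dl_layer (I := I) hb (t := t + 2)
        (fun x hx h => hI' x hx (by omega)) lB (fun x hx => by
          have := mem_filter.1 (Finset.mem_toList.1 hx)
          exact ⟨this.1, by omega⟩) hU
      obtain ⟨U2, hU2, h3⟩ := dl_layer (I := I) hb (t := t + 1)
        (fun x hx h => hI' x hx (by omega)) lA (fun x hx => by
          have := mem_filter.1 (Finset.mem_toList.1 hx)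
          exact ⟨this.1, by omega⟩) (dlC_mono (by omega) hU1)
      refine ⟨U2, dlC_mono (by omega) hU2, ?_⟩
      rw [pow_succ', mul_assoc, h1, hT, dlT_append, mul_assoc, h2, h3]
  obtain ⟨U, hU, h1⟩ := habs k (b₀ + 2) (by omega)
  have h2 : gp p J * U = gp p J := by
    refine Submonoid.closure_induction (motive := fun z _ => gp p J * z = gp p J) ?_ ?_ ?_ hU
    · rintro z ⟨x, hx, h4, rfl⟩
      rw [mul_sub, mul_one, gp_mul (hJ' x hx (by omega)) (hp x).isSelfAdjoint.star_eq, sub_zero]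
    · exact mul_one _
    · exact fun _ _ _ _ h4 h5 => by rw [← mul_assoc, h4, h5]
  have h3 : gp p J * gp p I - gp p F
      = gp p J * ((T - gp p F) ^ k * (1 - gp p F)) * gp p I := by
    rw [← (dl_pow_sub (dlT_mul_gp _ hl') (gp_mul_dlT hp _ hl') (gp_proj p F).isIdempotentElem k).1,
      mul_sub, sub_mul, (gp_mul_gp hJ).1, (gp_mul_gp hI).2, mul_assoc, h1, ← mul_assoc, h2]
  have h4 : ‖(T - gp p F) ^ k‖ ≤ √(g ^ 2 / (g ^ 2 + γ)) ^ k := by
    have h5 := dl_norm_T hp adj hs hc hg hγ hgap _ hn hl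
    rcases Nat.eq_zero_or_pos k with rfl | hk
    · simpa using (IsStarProjection.one (E →L[ℂ] E)).norm_le
    · exact (norm_pow_le' _ hk).trans (pow_le_pow_left₀ (norm_nonneg _) h5 k)
  rw [h3]
  have h5 := (gp_proj p J).norm_le
  have h6 := (gp_proj p I).norm_le
  have h7 := (gp_proj p F).one_sub.norm_le
  calc _ ≤ ‖gp p J‖ * (‖(T - gp p F) ^ k‖ * ‖1 - gp p F‖) * ‖gp p I‖ := by
        refine (norm_mul_le _ _).trans (mul_le_mul_of_nonneg_right ((norm_mul_le _ _).trans
          (mul_le_mul_of_nonneg_left (norm_mul_le _ _) (norm_nonneg _))) (norm_nonneg _))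
    _ ≤ 1 * (√(g ^ 2 / (g ^ 2 + γ)) ^ k * 1) * 1 := by gcongr
    _ = _ := by ring

end Vale.Agent.P356
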