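import Vale.Agent.P356.Defs

/-! From rectangles to arbitrary regions. -/

namespace Vale.Agent.P356

open Finset

section
variable {L : ℕ}

/-- An interval of rows. -/
def dy_I (L a s : ℕ) : Finset (Fin L) := univ.filter fun x => a ≤ x.val ∧ x.val < a + s

theorem dy_mem_I {a s : ℕ} {x : Fin L} : x ∈ dy_I L a s ↔ a ≤ x.val ∧ x.val < a + s := by
  simp [dy_I]

theorem dy_card_I {a s : ℕ} (h : a + s ≤ L) : (dy_I L a s).card = s := by
  have : (dy_I L a s).map Fin.valEmbedding = Ico a (a + s) := by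
    ext n
    simp only [mem_map, dy_mem_I, Fin.valEmbedding_apply, mem_Ico]
    exact ⟨by rintro ⟨x, hx, rfl⟩; exact hx, fun hn => ⟨⟨n, by omega⟩, hn, rfl⟩⟩
  rw [← card_map Fin.valEmbedding, this, Nat.card_Ico]
  omega

/-- A rectangle. -/
def dy_R (L a s c t : ℕ) : Finset (Site L) := dy_I L a s ×ˢ dy_I L c t

theorem dy_mem_R {a s c t : ℕ} {x : Site L} : x ∈ dy_R L a s c t ↔
    (a ≤ x.1.val ∧ x.1.val < a + s) ∧ c ≤ x.2.val ∧ x.2.val < c + t := by
  simp [dy_R, dy_mem_I]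

theorem dy_card_R {a s c t : ℕ} (h : a + s ≤ L) (h' : c + t ≤ L) :
    (dy_R L a s c t).card = s * t := by
  rw [dy_R, card_product, dy_card_I h, dy_card_I h']

/-- Edges from `M` to `Q \ M`. -/
def dy_E (M Q : Finset (Site L)) : Finset (Site L × Site L) :=
  univ.filter fun p => p.1 ∈ M ∧ p.2 ∈ Q ∧ p.2 ∉ M ∧ dist1 p.1 p.2 = 1

theorem dy_mem_E {M Q : Finset (Site L)} {p : Site L × Site L} :
    p ∈ dy_E M Q ↔ p.1 ∈ M ∧ p.2 ∈ Q ∧ p.2 ∉ M ∧ dist1 p.1 p.2 = 1 := by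
  simp [dy_E]

theorem dy_dist_comm (x y : Site L) : dist1 x y = dist1 y x := by
  unfold dist1
  omega

theorem dy_E_sdiff {M Q : Finset (Site L)} (h : M ⊆ Q) :
    (dy_E (Q \ M) Q).card = (dy_E M Q).card := by
  refine card_bijective Prod.swap Prod.swap_bijective fun p => ?_
  simp only [dy_mem_E, mem_sdiff, Prod.fst_swap, Prod.snd_swap, dy_dist_comm p.2 p.1]
  have := @h p.2
  tauto

theorem dy_E_univ (A : Finset (Site L)) : (dy_E A univ).card = bdry A := by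
  simp [dy_E, bdry]

theorem dy_E_split {M Q Q₁ Q₂ : Finset (Site L)} (h : Disjoint Q₁ Q₂) (h₁ : Q₁ ⊆ Q)
    (h₂ : Q₂ ⊆ Q) : (dy_E (M ∩ Q₁) Q₁).card + (dy_E (M ∩ Q₂) Q₂).card ≤ (dy_E M Q).card := by
  rw [← card_union_of_disjoint]
  · refine card_le_card fun p hp => ?_
    simp only [mem_union, dy_mem_E, mem_inter] at hp ⊢
    have := @h₁ p.2
    have := @h₂ p.2
    tauto
  · refine disjoint_left.2 fun p hp hp' => ?_
    exact disjoint_left.1 h (dy_mem_E.1 hp).2.1 (dy_mem_E.1 hp').2.1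

theorem dy_side1 (u v : ℕ) (J : Finset (Fin L)) :
    (univ.filter fun p : Site L × Site L =>
      p.1.1.val = u ∧ p.2.1.val = v ∧ p.1.2 = p.2.2 ∧ p.1.2 ∈ J).card ≤ J.card := by
  refine card_le_card_of_injOn (fun p => p.1.2) (fun p hp => ?_) fun p hp p' hp' e => ?_
  · exact (mem_filter.1 hp).2.2.2.2
  · obtain ⟨h1, h2, h3, -⟩ := (mem_filter.1 hp).2
    obtain ⟨h4, h5, h6, -⟩ := (mem_filter.1 hp').2
    exact Prod.ext (Prod.ext (Fin.ext (h1.trans h4.symm)) e)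
      (Prod.ext (Fin.ext (h2.trans h5.symm)) (h3.symm.trans (e.trans h6)))

theorem dy_side2 (u v : ℕ) (J : Finset (Fin L)) :
    (univ.filter fun p : Site L × Site L =>
      p.1.2.val = u ∧ p.2.2.val = v ∧ p.1.1 = p.2.1 ∧ p.1.1 ∈ J).card ≤ J.card := by
  refine card_le_card_of_injOn (fun p => p.1.1) (fun p hp => ?_) fun p hp p' hp' e => ?_
  · exact (mem_filter.1 hp).2.2.2.2
  · obtain ⟨h1, h2, h3, -⟩ := (mem_filter.1 hp).2
    obtain ⟨h4, h5, h6, -⟩ := (mem_filter.1 hp').2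
    exact Prod.ext (Prod.ext e (Fin.ext (h1.trans h4.symm)))
      (Prod.ext (h3.symm.trans (e.trans h6)) (Fin.ext (h2.trans h5.symm)))

theorem dy_cases {a s c t x x' y y' : ℕ} (h1 : (a ≤ x ∧ x < a + s) ∧ c ≤ x' ∧ x' < c + t)
    (h2 : ¬ ((a ≤ y ∧ y < a + s) ∧ c ≤ y' ∧ y' < c + t))
    (h3 : ((x : ℤ) - (y : ℤ)).natAbs + ((x' : ℤ) - (y' : ℤ)).natAbs = 1) :
    ((x = a ∧ y = a - 1 ∧ x' = y' ∧ c ≤ x' ∧ x' < c + t) ∨
      (x = a + s - 1 ∧ y = a + s ∧ x' = y' ∧ c ≤ x' ∧ x' < c + t)) ∨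
    ((x' = c ∧ y' = c - 1 ∧ x = y ∧ a ≤ x ∧ x < a + s) ∨
      (x' = c + t - 1 ∧ y' = c + t ∧ x = y ∧ a ≤ x ∧ x < a + s)) := by
  have h4 : (y + 1 = x ∧ x' = y') ∨ (x + 1 = y ∧ x' = y') ∨ (y' + 1 = x' ∧ x = y) ∨
      (x' + 1 = y' ∧ x = y) := by omega
  clear h3
  rcases h4 with h | h | h | h
  · exact Or.inl (Or.inl (by omega))
  · exact Or.inl (Or.inr (by omega))
  · exact Or.inr (Or.inl (by omega))
  · exact Or.inr (Or.inr (by omega))

theorem dy_bdry_R {a s c t : ℕ} (h : a + s ≤ L) (h' : c + t ≤ L) :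
    bdry (dy_R L a s c t) ≤ 2 * (s + t) := by
  have h1 := dy_side1 a (a - 1) (dy_I L c t)
  have h2 := dy_side1 (a + s - 1) (a + s) (dy_I L c t)
  have h3 := dy_side2 c (c - 1) (dy_I L a s)
  have h4 := dy_side2 (c + t - 1) (c + t) (dy_I L a s)
  rw [dy_card_I h'] at h1 h2
  rw [dy_card_I h] at h3 h4
  refine le_trans (card_le_card ?_) (((card_union_le _ _).trans
    (add_le_add ((card_union_le _ _).trans (add_le_add h1 h2))
      ((card_union_le _ _).trans (add_le_add h3 h4)))).trans (by omega))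
  intro p hp
  simp only [mem_filter, mem_univ, true_and, dy_mem_R, dist1, mem_union, dy_mem_I,
    Fin.ext_iff] at hp ⊢
  exact dy_cases hp.1 hp.2.1 hp.2.2

theorem dy_ivt (P : ℕ → Prop) {u v : ℕ} (huv : u ≤ v) (hu : P u) (hv : ¬ P v) :
    ∃ w, u ≤ w ∧ w + 1 ≤ v ∧ P w ∧ ¬ P (w + 1) := by
  induction v, huv using Nat.le_induction with
  | base => exact absurd hu hv
  | succ v huv ih =>
    by_cases h : P v
    · exact ⟨v, huv, le_rfl, h, hv⟩
    · obtain ⟨w, h1, h2, h3⟩ := ih h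
      exact ⟨w, h1, by omega, h3⟩

theorem dy_ivt' (P : Fin L → Prop) {a s : ℕ} {u v : Fin L} (hu' : u ∈ dy_I L a s)
    (hv' : v ∈ dy_I L a s) (hu : P u) (hv : ¬ P v) :
    ∃ w w' : Fin L, w' ∈ dy_I L a s ∧ P w ∧ ¬ P w' ∧ ((w : ℤ) - (w' : ℤ)).natAbs = 1 := by
  rw [dy_mem_I] at hu' hv'
  have := u.2
  have := v.2
  rcases le_total u.val v.val with h | h
  · obtain ⟨w, h1, h2, ⟨h3, h4⟩, h5⟩ := dy_ivt (fun n => ∃ h : n < L, P ⟨n, h⟩) h ⟨u.2, hu⟩
      (fun ⟨_, h⟩ => hv h)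
    exact ⟨⟨w, h3⟩, ⟨w + 1, by omega⟩, dy_mem_I.2 (by simp only; omega), h4,
      fun h => h5 ⟨_, h⟩, by simp only; omega⟩
  · obtain ⟨w, h1, h2, ⟨h3, h4⟩, h5⟩ := dy_ivt (fun n => ∃ h : n < L, ¬ P ⟨n, h⟩) h ⟨v.2, hv⟩
      (fun ⟨_, h⟩ => h hu)
    exact ⟨⟨w + 1, by omega⟩, ⟨w, h3⟩, dy_mem_I.2 (by simp only; omega),
      by_contra fun h => h5 ⟨_, h⟩, h4, by simp only; omega⟩

theorem dy_row {a s c t : ℕ} {M : Finset (Site L)} (hM : M ⊆ dy_R L a s c t) {x y : Site L}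
    (hx : x ∈ M) (hy : y ∈ dy_R L a s c t) (hy' : y ∉ M) (e : y.1 = x.1) :
    x.1 ∈ (dy_E M (dy_R L a s c t)).image fun p => p.1.1 := by
  obtain ⟨w, w', h1, h2, h3, h4⟩ := dy_ivt' (fun j => (x.1, j) ∈ M) (mem_product.1 (hM hx)).2
    (mem_product.1 hy).2 hx (by rw [← e]; exact hy')
  refine mem_image.2 ⟨((x.1, w), (x.1, w')), dy_mem_E.2
    ⟨h2, mem_product.2 ⟨(mem_product.1 (hM hx)).1, h1⟩, h3, ?_⟩, rfl⟩
  simpa [dist1] using h4

theorem dy_col {a s c t : ℕ} {M : Finset (Site L)} (hM : M ⊆ dy_R L a s c t) {x y : Site L}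
    (hx : x ∈ M) (hy : y ∈ dy_R L a s c t) (hy' : y ∉ M) (e : y.2 = x.2) :
    x.2 ∈ (dy_E M (dy_R L a s c t)).image fun p => p.1.2 := by
  obtain ⟨w, w', h1, h2, h3, h4⟩ := dy_ivt' (fun j => (j, x.2) ∈ M) (mem_product.1 (hM hx)).1
    (mem_product.1 hy).1 hx (by rw [← e]; exact hy')
  refine mem_image.2 ⟨((w, x.2), (w', x.2)), dy_mem_E.2
    ⟨h2, mem_product.2 ⟨h1, (mem_product.1 (hM hx)).2⟩, h3, ?_⟩, rfl⟩
  simpa [dist1] using h4

/-- Isoperimetry in a rectangle. -/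
theorem dy_iso {a s c t : ℕ} (h : a + s ≤ L) (h' : c + t ≤ L) {M : Finset (Site L)}
    (hM : M ⊆ dy_R L a s c t) (h2 : 2 * M.card ≤ s * t) :
    t ≤ (dy_E M (dy_R L a s c t)).card ∨ M.card ≤ (dy_E M (dy_R L a s c t)).card * t := by
  have key : ∀ N ⊆ dy_R L a s c t,
      (∀ x ∈ N, x.1 ∈ (dy_E M (dy_R L a s c t)).image fun p => p.1.1) →
      N.card ≤ (dy_E M (dy_R L a s c t)).card * t := fun N hN hN' => by
    have : N ⊆ ((dy_E M (dy_R L a s c t)).image fun p => p.1.1) ×ˢ dy_I L c t := fun x hx =>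
      mem_product.2 ⟨hN' x hx, (mem_product.1 (hN hx)).2⟩
    refine (card_le_card this).trans ?_
    rw [card_product, dy_card_I h']
    exact Nat.mul_le_mul_right _ card_image_le
  by_cases h3 : ∀ x ∈ M, ∃ y ∈ dy_R L a s c t, y ∉ M ∧ y.1 = x.1
  · refine Or.inr (key M hM fun x hx => ?_)
    obtain ⟨y, hy, hy', e⟩ := h3 x hx
    exact dy_row hM hx hy hy' e
  by_cases h4 : ∀ y ∈ dy_R L a s c t \ M, ∃ x ∈ M, y.1 = x.1
  · refine Or.inr (le_trans ?_ (key (_ \ M) sdiff_subset fun y hy => ?_))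
    · rw [card_sdiff_of_subset hM, dy_card_R h h']
      omega
    · obtain ⟨x, hx, e⟩ := h4 y hy
      rw [e]
      exact dy_row hM hx (mem_sdiff.1 hy).1 (mem_sdiff.1 hy).2 e
  push Not at h3 h4
  obtain ⟨x, hx, h3⟩ := h3
  obtain ⟨y, hy, h4⟩ := h4
  left
  refine le_trans ?_ (card_image_le (f := fun p : Site L × Site L => p.1.2))
  refine le_trans (dy_card_I h').ge (card_le_card fun j hj => ?_)
  have h5 : (x.1, j) ∈ M := by_contra fun h5 =>
    h3 (x.1, j) (mem_product.2 ⟨(mem_product.1 (hM hx)).1, hj⟩) h5 rfl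
  exact dy_col hM h5 (y := (y.1, j)) (mem_product.2 ⟨(mem_product.1 (mem_sdiff.1 hy).1).1, hj⟩)
    (fun h6 => h4 _ h6 rfl) rfl

theorem dy_arith {m e n t : ℕ} (ht : t ≤ m + 1) (h1 : m / 2 * (m / 2) < 2 * n) (h2 : n ≤ e * t) :
    m ≤ 12 * e := by
  by_contra h
  have h3 : e * t ≤ e * (m + 1) := Nat.mul_le_mul_left _ ht
  have h4 : m ≤ 2 * (m / 2) + 1 := by omega
  have h5 : 6 * e ≤ m / 2 := by omega
  generalize m / 2 = k at *
  rcases Nat.eq_zero_or_pos e with rfl | he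
  · omega
  · nlinarith

/-- The number of scales that can cost something. -/
def dy_g (B m : ℕ) : ℕ := Nat.log 2 (min m (12 * B) * 2)

theorem dy_g_mono (B m : ℕ) : dy_g B (m / 2) ≤ dy_g B m :=
  Nat.log_mono_right (by omega)

theorem dy_g_succ {B m : ℕ} (h0 : 0 < m) (h : m ≤ 12 * B) : dy_g B (m / 2) + 1 ≤ dy_g B m := by
  unfold dy_g
  rw [min_eq_left h, min_eq_left (by omega), Nat.log_mul_base (by norm_num) h0.ne']
  exact Nat.succ_le_succ (Nat.log_mono_right (by omega))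

theorem dy_g_le (B m : ℕ) : (dy_g B m : ℝ) ≤ 12 * Real.log (2 + B) := by
  have hB : (0 : ℝ) ≤ B := Nat.cast_nonneg _
  have h1 : 2 ^ dy_g B m ≤ (2 + B) ^ 6 := by
    rcases Nat.eq_zero_or_pos (min m (12 * B) * 2) with h | h
    · rw [dy_g, h]
      exact Nat.one_le_pow _ _ (by omega)
    · refine (Nat.pow_log_le_self 2 h.ne').trans ?_
      have : 2 ^ 5 ≤ (2 + B) ^ 5 := Nat.pow_le_pow_left (by omega) _
      calc min m (12 * B) * 2 ≤ 2 ^ 5 * (2 + B) := by omega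
        _ ≤ (2 + B) ^ 5 * (2 + B) := Nat.mul_le_mul_right _ this
  have h2 : (2 : ℝ) ^ dy_g B m ≤ (2 + B) ^ 6 := by exact_mod_cast h1
  have h3 := Real.log_le_log (by positivity) h2
  rw [Real.log_pow, Real.log_pow] at h3
  have h4 := Real.log_two_gt_d9
  have h5 : (0 : ℝ) ≤ dy_g B m := Nat.cast_nonneg _
  push_cast at h3
  nlinarith

variable {f : Finset (Site L) → ℝ} {C : ℝ}

theorem dy_f_split (hf : ∀ A B, Disjoint A B → f (A ∪ B) ≤ f A + f B)
    {M Q₁ Q₂ : Finset (Site L)} (h : Disjoint Q₁ Q₂) (hM : M ⊆ Q₁ ∪ Q₂) :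
    f M ≤ f (M ∩ Q₁) + f (M ∩ Q₂) := by
  have := hf (M ∩ Q₁) (M ∩ Q₂) (h.mono inter_subset_right inter_subset_right)
  rwa [← inter_union_distrib_left, inter_eq_left.2 hM] at this

theorem dy_f_sdiff (hf : ∀ A B, Disjoint A B → f (A ∪ B) ≤ f A + f B) (hc : ∀ A, f Aᶜ = f A)
    {M Q : Finset (Site L)} (h : M ⊆ Q) : f M ≤ f Q + f (Q \ M) := by
  have h1 := hf Qᶜ (Q \ M) (disjoint_compl_left.mono_right sdiff_subset)
  have h2 : Qᶜ ∪ Q \ M = Mᶜ := by
    ext x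
    have := @h x
    simp only [mem_union, mem_compl, mem_sdiff]
    tauto
  rwa [h2, hc, hc] at h1

theorem dy_main (hC : 0 ≤ C) (hf : ∀ A B, Disjoint A B → f (A ∪ B) ≤ f A + f B)
    (hc : ∀ A, f Aᶜ = f A)
    (hR : ∀ a s c t, a + s ≤ L → c + t ≤ L → f (dy_R L a s c t) ≤ C * (2 * (s + t)))
    (B m : ℕ) : ∀ a s c t, a + s ≤ L → c + t ≤ L → m ≤ s → s ≤ m + 1 → m ≤ t → t ≤ m + 1 →
      ∀ M ⊆ dy_R L a s c t, 2 * M.card ≤ s * t → (dy_E M (dy_R L a s c t)).card ≤ B →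
        f M ≤ 192 * C * (dy_E M (dy_R L a s c t)).card * dy_g B m := by
  induction m using Nat.strong_induction_on with
  | _ m ih =>
  intro a s c t h h' hs hs' ht ht' M hM h2 hB
  rcases Nat.eq_zero_or_pos m with rfl | hm
  · have h3 : s * t ≤ 1 * 1 := Nat.mul_le_mul hs' ht'
    obtain rfl : M = ∅ := card_eq_zero.1 (by omega)
    have h4 := hR 0 0 0 0 (by omega) (by omega)
    have h5 : dy_R L 0 0 0 0 = ∅ := card_eq_zero.1 (dy_card_R (by omega) (by omega))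
    rw [h5] at h4
    refine h4.trans (le_of_eq_of_le (by simp) (by positivity : (0 : ℝ) ≤ _))
  -- one child
  have child : ∀ a' s' c' t', a' + s' ≤ L → c' + t' ≤ L → m / 2 ≤ s' → s' ≤ m / 2 + 1 →
      m / 2 ≤ t' → t' ≤ m / 2 + 1 → ∀ N ⊆ dy_R L a' s' c' t', N ⊆ M →
      (dy_E N (dy_R L a' s' c' t')).card ≤ B →
      f N ≤ 192 * C * (dy_E N (dy_R L a' s' c' t')).card * dy_g B (m / 2) +
        if m / 2 * (m / 2) < 2 * M.card then C * (2 * (s' + t')) else 0 := by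
    intro a' s' c' t' k k' ks ks' kt kt' N hN hNM hB'
    by_cases h3 : 2 * N.card ≤ s' * t'
    · refine (ih _ (by omega) a' s' c' t' k k' ks ks' kt kt' N hN h3 hB').trans
        (le_add_of_nonneg_right ?_)
      split_ifs <;> positivity
    · have h4 := ih _ (by omega) a' s' c' t' k k' ks ks' kt kt' _ (sdiff_subset (t := N))
        (by rw [card_sdiff_of_subset hN, dy_card_R k k']; omega) (by rwa [dy_E_sdiff hN])
      rw [dy_E_sdiff hN] at h4
      have h5 : m / 2 * (m / 2) ≤ s' * t' := Nat.mul_le_mul ks kt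
      have h6 := card_le_card hNM
      rw [if_pos (by omega)]
      have h7 := dy_f_sdiff hf hc hN
      have h8 := hR a' s' c' t' k k'
      linarith
  -- splitting
  have d1 : Disjoint (dy_R L a (s / 2) c t) (dy_R L (a + s / 2) (s - s / 2) c t) :=
    disjoint_left.2 fun x h1 h2 => by rw [dy_mem_R] at h1 h2; omega
  have d2 : ∀ a' s', Disjoint (dy_R L a' s' c (t / 2)) (dy_R L a' s' (c + t / 2) (t - t / 2)) :=
    fun a' s' => disjoint_left.2 fun x h1 h2 => by rw [dy_mem_R] at h1 h2; omega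
  have half : ∀ a' s', a' + s' ≤ L → m / 2 ≤ s' → s' ≤ m / 2 + 1 →
      ∀ N ⊆ dy_R L a' s' c t, N ⊆ M → (dy_E N (dy_R L a' s' c t)).card ≤ B →
      f N ≤ 192 * C * (dy_E N (dy_R L a' s' c t)).card * dy_g B (m / 2) +
        if m / 2 * (m / 2) < 2 * M.card then C * (2 * (2 * s' + t)) else 0 := by
    intro a' s' k ks ks' N hN hNM hB'
    have e1 := dy_f_split hf (d2 a' s') (M := N) fun x hx => by
      have := dy_mem_R.1 (hN hx)
      simp only [mem_union, dy_mem_R]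
      omega
    have e2 := dy_E_split (M := N) (Q := dy_R L a' s' c t) (d2 a' s')
      (fun x hx => by rw [dy_mem_R] at hx ⊢; omega) (fun x hx => by rw [dy_mem_R] at hx ⊢; omega)
    have e3 := child a' s' c (t / 2) k (by omega) ks ks' (by omega) (by omega) _
      (inter_subset_right (s₁ := N)) (inter_subset_left.trans hNM) (by omega)
    have e4 := child a' s' (c + t / 2) (t - t / 2) k (by omega) ks ks' (by omega) (by omega) _
      (inter_subset_right (s₁ := N)) (inter_subset_left.trans hNM) (by omega)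
    have e5 := mul_le_mul_of_nonneg_left (Nat.cast_le (α := ℝ).2 e2)
      (by positivity : 0 ≤ 192 * C * dy_g B (m / 2))
    have e6 : ((t / 2 : ℕ) : ℝ) + (t - t / 2 : ℕ) = t := by
      exact_mod_cast (by omega : t / 2 + (t - t / 2) = t)
    rw [Nat.cast_add] at e5
    split_ifs at e3 e4 ⊢
    · rw [← e6]
      linarith
    · linarith
  have e1 := dy_f_split hf d1 (M := M) fun x hx => by
    have := dy_mem_R.1 (hM hx)
    simp only [mem_union, dy_mem_R]
    omega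
  have e2 := dy_E_split (M := M) (Q := dy_R L a s c t) d1
    (fun x hx => by rw [dy_mem_R] at hx ⊢; omega) (fun x hx => by rw [dy_mem_R] at hx ⊢; omega)
  have e3 := half a (s / 2) (by omega) (by omega) (by omega) _
    (inter_subset_right (s₁ := M)) inter_subset_left (by omega)
  have e4 := half (a + s / 2) (s - s / 2) (by omega) (by omega) (by omega) _
    (inter_subset_right (s₁ := M)) inter_subset_left (by omega)
  have e5 := mul_le_mul_of_nonneg_left (Nat.cast_le (α := ℝ).2 e2)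
    (by positivity : 0 ≤ 192 * C * dy_g B (m / 2))
  have e6 : ((s / 2 : ℕ) : ℝ) + (s - s / 2 : ℕ) = s := by
    exact_mod_cast (by omega : s / 2 + (s - s / 2) = s)
  rw [Nat.cast_add] at e5
  have hiso := dy_iso h h' hM h2
  generalize (dy_E M (dy_R L a s c t)).card = e at *
  split_ifs at e3 e4 with hbad
  · have k1 : m ≤ 12 * e := by
      rcases hiso with h3 | h3
      · omega
      · exact dy_arith ht' hbad h3
    have k2 : (dy_g B (m / 2) : ℝ) + 1 ≤ dy_g B m := by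
      exact_mod_cast dy_g_succ hm (by omega : m ≤ 12 * B)
    have k3 : (s : ℝ) + t ≤ 48 * e := by exact_mod_cast (by omega : s + t ≤ 48 * e)
    have k4 := mul_le_mul_of_nonneg_left k2 (by positivity : 0 ≤ 192 * C * e)
    have k5 := mul_le_mul_of_nonneg_left k3 hC
    rw [← e6] at k5
    linarith
  · have k2 : (dy_g B (m / 2) : ℝ) ≤ dy_g B m := by exact_mod_cast dy_g_mono B m
    have k4 := mul_le_mul_of_nonneg_left k2 (by positivity : 0 ≤ 192 * C * e)
    linarith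

end

theorem dyadic : ∃ c : ℝ, 0 ≤ c ∧ ∀ (L : ℕ) (f : Finset (Site L) → ℝ) (C : ℝ), 0 ≤ C →
    (∀ A B, Disjoint A B → f (A ∪ B) ≤ f A + f B) → (∀ A, f Aᶜ = f A) →
    (∀ a b c d : ℕ, f (univ.filter fun x : Site L =>
        a ≤ x.1.val ∧ x.1.val < b ∧ c ≤ x.2.val ∧ x.2.val < d) ≤
      C * bdry (univ.filter fun x : Site L =>
        a ≤ x.1.val ∧ x.1.val < b ∧ c ≤ x.2.val ∧ x.2.val < d)) →
    ∀ A, f A ≤ c * C * bdry A * Real.log (2 + bdry A) := by
  refine ⟨192 * 12, by norm_num, fun L f C hC hf hc hR A => ?_⟩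
  have hR' : ∀ a s c t, a + s ≤ L → c + t ≤ L → f (dy_R L a s c t) ≤ C * (2 * (s + t)) := by
    intro a s c t h h'
    have e : (univ.filter fun x : Site L =>
        a ≤ x.1.val ∧ x.1.val < a + s ∧ c ≤ x.2.val ∧ x.2.val < c + t) = dy_R L a s c t := by
      ext x
      simp [dy_mem_R, and_assoc]
    have := hR a (a + s) c (c + t)
    rw [e] at this
    refine this.trans (mul_le_mul_of_nonneg_left ?_ hC)
    exact_mod_cast dy_bdry_R h h'
  have hU : dy_R L 0 L 0 L = univ := by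
    ext x
    simp [dy_mem_R]
  have hcard : (univ : Finset (Site L)).card = L * L := by simp
  have key : ∀ M : Finset (Site L), 2 * M.card ≤ L * L → (dy_E M univ).card = bdry A →
      f M ≤ 192 * 12 * C * bdry A * Real.log (2 + bdry A) := fun M h1 h2 => by
    have h3 := dy_main hC hf hc hR' (bdry A) L 0 L 0 L (by omega) (by omega) le_rfl (by omega)
      le_rfl (by omega) M (by rw [hU]; exact subset_univ _) h1 (by rw [hU, h2])
    rw [hU, h2] at h3
    have h4 := mul_le_mul_of_nonneg_left (dy_g_le (bdry A) L)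
      (by positivity : 0 ≤ 192 * C * bdry A)
    linarith
  by_cases h : 2 * A.card ≤ L * L
  · exact key A h (dy_E_univ A)
  · rw [← hc]
    refine key Aᶜ ?_ ?_
    · rw [card_compl, Fintype.card, hcard]
      omega
    · rw [compl_eq_univ_sdiff, dy_E_sdiff (subset_univ _), dy_E_univ]

end Vale.Agent.P356
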