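import Vale.Agent.P356.Loc

/-! From low rank approximations to entropy. -/

set_option linter.unusedSectionVars false

namespace Vale.Agent.P356

open Finset
open scoped InnerProductSpace

variable {ι : Type} [Fintype ι] [DecidableEq ι] {q : ℕ}

theorem en_sum {M : Type*} [AddCommMonoid M] (A : Finset ι) (f : (ι → Fin q) → M) :
    ∑ σ, f σ = ∑ β, ∑ α, f (glue A α β) := by
  rw [Finset.sum_comm, ← Fintype.sum_prod_type']
  exact ((Equiv.piEquivPiSubtypeProd (fun x => x ∈ A) fun _ => Fin q).symm.sum_comp f).symm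

theorem en_inner (A : Finset ι) (φ ψ : Hs ι q) :
    ⟪φ, ψ⟫_ℂ = ∑ β, ⟪col A φ β, col A ψ β⟫_ℂ := by
  simp only [PiLp.inner_apply]
  exact en_sum A _

theorem en_norm (A : Finset ι) (ψ : Hs ι q) : ‖ψ‖ ^ 2 = ∑ β, ‖col A ψ β‖ ^ 2 := by
  simp only [EuclideanSpace.norm_sq_eq]
  exact en_sum A _

/-- Eigenvalues of the reduced density matrix. -/
noncomputable def enL (A : Finset ι) (Ω : Hs ι q) : (A → Fin q) → ℝ :=
  (redDens_isHermitian A Ω).eigenvalues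
/-- Eigenvectors of the reduced density matrix. -/
noncomputable def enV (A : Finset ι) (Ω : Hs ι q) :
    OrthonormalBasis (A → Fin q) ℂ (EuclideanSpace ℂ (A → Fin q)) :=
  (redDens_isHermitian A Ω).eigenvectorBasis

theorem en_eig (A : Finset ι) (Ω : Hs ι q) (j : A → Fin q) :
    ∑ β, ⟪col A Ω β, enV A Ω j⟫_ℂ • col A Ω β = (enL A Ω j : ℂ) • enV A Ω j := by
  ext α
  have h := congrFun ((redDens_isHermitian A Ω).mulVec_eigenvectorBasis j) α
  simp only [Matrix.mulVec, dotProduct, redDens, Finset.sum_mul, Pi.smul_apply,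
    Complex.real_smul] at h
  rw [Finset.sum_comm] at h
  simp only [WithLp.ofLp_sum, Finset.sum_apply, PiLp.smul_apply, smul_eq_mul, PiLp.inner_apply,
    Finset.sum_mul]
  refine Eq.trans (Finset.sum_congr rfl fun β _ => Finset.sum_congr rfl fun α' _ => ?_) h
  simp only [col, RCLike.inner_apply, enV]
  ring

theorem en_sq {E : Type*} [NormedAddCommGroup E] [InnerProductSpace ℂ E] (x y : E) :
    ⟪x, y⟫_ℂ * ⟪y, x⟫_ℂ = ((‖⟪x, y⟫_ℂ‖ ^ 2 : ℝ) : ℂ) := by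
  rw [← inner_conj_symm y x, Complex.mul_conj, Complex.normSq_eq_norm_sq]

theorem en_quad (A : Finset ι) (Ω : Hs ι q) (e : EuclideanSpace ℂ (A → Fin q)) :
    ∑ β, ‖⟪e, col A Ω β⟫_ℂ‖ ^ 2 = ∑ j, enL A Ω j * ‖⟪e, enV A Ω j⟫_ℂ‖ ^ 2 := by
  have h1 : ∀ j, ∑ β, ⟪col A Ω β, enV A Ω j⟫_ℂ * ⟪e, col A Ω β⟫_ℂ
      = (enL A Ω j : ℂ) * ⟪e, enV A Ω j⟫_ℂ := fun j => by
    have := congrArg (fun x => ⟪e, x⟫_ℂ) (en_eig A Ω j)
    simpa only [inner_sum, inner_smul_right] using this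
  apply Complex.ofReal_injective
  simp only [Complex.ofReal_sum, Complex.ofReal_mul, ← en_sq, ← mul_assoc, ← h1, Finset.sum_mul]
  rw [Finset.sum_comm]
  refine Finset.sum_congr rfl fun β _ => ?_
  rw [← (enV A Ω).sum_inner_mul_inner (col A Ω β) e, Finset.mul_sum]
  exact Finset.sum_congr rfl fun j _ => by ring

theorem en_L_eq (A : Finset ι) (Ω : Hs ι q) (j : A → Fin q) :
    enL A Ω j = ∑ β, ‖⟪enV A Ω j, col A Ω β⟫_ℂ‖ ^ 2 := by
  rw [en_quad, Finset.sum_eq_single j]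
  · rw [inner_self_eq_norm_sq_to_K, (enV A Ω).orthonormal.1 j]; simp
  · intro i _ hi
    rw [(enV A Ω).orthonormal.2 hi.symm]; simp
  · simp

theorem en_L_nonneg (A : Finset ι) (Ω : Hs ι q) (j : A → Fin q) : 0 ≤ enL A Ω j := by
  rw [en_L_eq]; positivity

theorem en_L_sum (A : Finset ι) (Ω : Hs ι q) : ∑ j, enL A Ω j = ‖Ω‖ ^ 2 := by
  simp only [en_L_eq]
  rw [Finset.sum_comm, en_norm A]
  exact Finset.sum_congr rfl fun β _ => (enV A Ω).sum_sq_norm_inner_right _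

theorem en_proj {E : Type*} [NormedAddCommGroup E] [InnerProductSpace ℂ E] [FiniteDimensional ℂ E]
    (U : Submodule ℂ E) (x : E) :
    ‖U.starProjection x‖ ^ 2 = ∑ k, ‖⟪(stdOrthonormalBasis ℂ U k : E), x⟫_ℂ‖ ^ 2 := by
  simp only [← U.inner_orthogonalProjectionOnto_eq_of_mem_left]
  rw [(stdOrthonormalBasis ℂ U).sum_sq_norm_inner_right]
  rfl

theorem en_dist {E : Type*} [NormedAddCommGroup E] [InnerProductSpace ℂ E] [FiniteDimensional ℂ E]
    (U : Submodule ℂ E) (x : E) {u : E} (hu : u ∈ U) :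
    ‖x‖ ^ 2 - ‖U.starProjection x‖ ^ 2 ≤ ‖x - u‖ ^ 2 := by
  rw [U.norm_sq_eq_add_norm_sq_starProjection (x - u), U.norm_sq_eq_add_norm_sq_starProjection x,
    map_sub Uᗮ.starProjection, Submodule.starProjection_orthogonal_apply_eq_zero hu, sub_zero]
  nlinarith [sq_nonneg ‖U.starProjection (x - u)‖]

theorem en_key {A : Finset ι} (Ω : Hs ι q) {r : ℝ} {ψ : Hs ι q} (h : RankLe A r ψ) :
    ∃ π : (A → Fin q) → ℝ, (∀ j, 0 ≤ π j) ∧ (∀ j, π j ≤ 1) ∧ ∑ j, π j ≤ r ∧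
      ‖⟪Ω, ψ⟫_ℂ‖ ^ 2 ≤ (∑ j, enL A Ω j * π j) * ‖ψ‖ ^ 2 ∧
      ‖Ω‖ ^ 2 - ∑ j, enL A Ω j * π j ≤ ‖Ω - ψ‖ ^ 2 := by
  obtain ⟨U, hU, hψ⟩ := h
  have hs : ∑ j, enL A Ω j * ‖U.starProjection (enV A Ω j)‖ ^ 2
      = ∑ β, ‖U.starProjection (col A Ω β)‖ ^ 2 := by
    simp only [en_proj, Finset.mul_sum]
    rw [Finset.sum_comm, Finset.sum_comm (s := Finset.univ (α := {x // x ∉ A} → Fin q))]
    exact Finset.sum_congr rfl fun k _ => (en_quad A Ω _).symm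
  refine ⟨fun j => ‖U.starProjection (enV A Ω j)‖ ^ 2, fun j => by positivity, fun j => ?_,
    le_trans (le_of_eq ?_) hU, ?_, ?_⟩
  · have := U.norm_starProjection_apply_le (enV A Ω j)
    rw [(enV A Ω).orthonormal.1 j] at this
    exact pow_le_one₀ (norm_nonneg _) this
  · simp only [en_proj]
    rw [Finset.sum_comm]
    have : ∀ k, ∑ j, ‖⟪(stdOrthonormalBasis ℂ U k : EuclideanSpace ℂ (A → Fin q)), enV A Ω j⟫_ℂ‖ ^ 2
        = 1 := fun k => by
      rw [(enV A Ω).sum_sq_norm_inner_left, ← Submodule.coe_norm,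
        (stdOrthonormalBasis ℂ U).orthonormal.1 k, one_pow]
    simp [this]
  · rw [hs, en_norm A ψ, en_inner A]
    refine le_trans ?_ (Finset.sum_mul_sq_le_sq_mul_sq _ _ _)
    refine pow_le_pow_left₀ (norm_nonneg _) ((norm_sum_le _ _).trans
      (Finset.sum_le_sum fun β _ => ?_)) 2
    rw [← Submodule.starProjection_eq_self_iff.mpr (hψ β),
      ← Submodule.inner_starProjection_left_eq_right, Submodule.starProjection_eq_self_iff.mpr (hψ β)]
    exact norm_inner_le_norm _ _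
  · rw [hs, en_norm A Ω, en_norm A (Ω - ψ), ← Finset.sum_sub_distrib]
    refine Finset.sum_le_sum fun β _ => ?_
    rw [show col A (Ω - ψ) β = col A Ω β - col A ψ β from by ext α; simp [col]]
    exact en_dist U _ (hψ β)

theorem en_max (A : Finset ι) {Ω : Hs ι q} (hΩ : ‖Ω‖ = 1) :
    ∃ i, 0 < enL A Ω i ∧ ∀ j, enL A Ω j ≤ enL A Ω i := by
  have hs := en_L_sum A Ω
  rw [hΩ, one_pow] at hs
  obtain ⟨j, -, hj⟩ := Finset.exists_ne_zero_of_sum_ne_zero (hs ▸ one_ne_zero)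
  obtain ⟨i, -, hi⟩ := Finset.exists_max_image Finset.univ (enL A Ω) ⟨j, Finset.mem_univ j⟩
  exact ⟨i, ((en_L_nonneg A Ω j).lt_of_ne' hj).trans_le (hi j (Finset.mem_univ j)),
    fun k => hi k (Finset.mem_univ k)⟩

theorem en_over {A : Finset ι} (Ω : Hs ι q) {r l : ℝ} {ψ : Hs ι q} (h : RankLe A r ψ)
    (hl0 : 0 ≤ l) (hl : ∀ j, enL A Ω j ≤ l) : ‖⟪Ω, ψ⟫_ℂ‖ ^ 2 ≤ l * r * ‖ψ‖ ^ 2 := by
  obtain ⟨π, h0, -, h2, h3, -⟩ := en_key Ω h
  refine h3.trans (mul_le_mul_of_nonneg_right ?_ (sq_nonneg _))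
  calc _ ≤ ∑ j, l * π j := Finset.sum_le_sum fun j _ => mul_le_mul_of_nonneg_right (hl j) (h0 j)
    _ = l * ∑ j, π j := (Finset.mul_sum _ _ _).symm
    _ ≤ l * r := mul_le_mul_of_nonneg_left h2 hl0

theorem en_mass {A : Finset ι} (Ω : Hs ι q) {r θ : ℝ} {ψ : Hs ι q} (h : RankLe A r ψ)
    (hθ : 0 ≤ θ) :
    ∑ j, (if enL A Ω j < θ then enL A Ω j else 0) ≤ ‖Ω - ψ‖ ^ 2 + θ * r := by
  obtain ⟨π, h0, h1, h2, -, h4⟩ := en_key Ω h
  have : ∀ j, (if enL A Ω j < θ then enL A Ω j else 0)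
      ≤ (enL A Ω j - enL A Ω j * π j) + θ * π j := fun j => by
    have a0 := en_L_nonneg A Ω j
    split_ifs with hj
    · nlinarith [mul_le_mul_of_nonneg_right hj.le (h0 j)]
    · nlinarith [mul_nonneg hθ (h0 j), mul_nonneg a0 (sub_nonneg.mpr (h1 j))]
  refine (Finset.sum_le_sum fun j _ => this j).trans ?_
  rw [Finset.sum_add_distrib, Finset.sum_sub_distrib, en_L_sum, ← Finset.mul_sum]
  exact add_le_add h4 (mul_le_mul_of_nonneg_left h2 hθ)

theorem entropy_le_zero (A : Finset ι) (Ω : Hs ι q) (hΩ : ‖Ω‖ = 1) (h : RankLe A 1 Ω) :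
    entropy A Ω ≤ 0 := by
  obtain ⟨i, hi, hm⟩ := en_max A hΩ
  have h1 := en_over Ω h hi.le hm
  rw [inner_self_eq_norm_sq_to_K, hΩ] at h1
  have h2 : 1 ≤ enL A Ω i := by simpa using h1
  have hs := en_L_sum A Ω
  rw [hΩ, one_pow, ← Finset.add_sum_erase _ _ (Finset.mem_univ i)] at hs
  have h3 : 0 ≤ ∑ j ∈ Finset.univ.erase i, enL A Ω j :=
    Finset.sum_nonneg fun j _ => en_L_nonneg A Ω j
  refine Finset.sum_nonpos fun j _ => le_of_eq ?_
  change Real.negMulLog (enL A Ω j) = 0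
  by_cases hj : j = i
  · rw [hj, show enL A Ω i = 1 by linarith, Real.negMulLog_one]
  · rw [(Finset.sum_eq_zero_iff_of_nonneg fun j _ => en_L_nonneg A Ω j).mp
      (by linarith : ∑ j ∈ Finset.univ.erase i, enL A Ω j = 0) j (by simp [hj]),
      Real.negMulLog_zero]

theorem en_log {y l : ℝ} (hy : 2 ≤ y) (m N : ℕ) (h : (y ^ (m + 2 * N))⁻¹ ≤ l) :
    -Real.log l ≤ (m + 2 * ∑ k ∈ Finset.range N, if l < (y ^ (m + 2 * k))⁻¹ then (1 : ℝ) else 0)
      * Real.log y := by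
  have hy0 : 0 < y := by linarith
  have hl : 0 ≤ Real.log y := Real.log_nonneg (by linarith)
  have base : ∀ n : ℕ, (y ^ n)⁻¹ ≤ l → -Real.log l ≤ n * Real.log y := fun n hn => by
    have := Real.log_le_log (by positivity) hn
    rw [Real.log_inv, Real.log_pow] at this
    linarith
  induction N with
  | zero => simpa using base m (by simpa using h)
  | succ N ih =>
    by_cases hN : (y ^ (m + 2 * N))⁻¹ ≤ l
    · rw [Finset.sum_range_succ, if_neg (not_lt.mpr hN), add_zero]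
      exact ih hN
    · have : ∀ k ∈ Finset.range (N + 1), (if l < (y ^ (m + 2 * k))⁻¹ then (1 : ℝ) else 0) = 1 := by
        intro k hk
        refine if_pos ((not_le.mp hN).trans_le (inv_anti₀ (by positivity) ?_))
        exact pow_le_pow_right₀ (by linarith) (by have := Finset.mem_range.mp hk; omega)
      rw [Finset.sum_congr rfl this]
      simpa using base _ h

theorem en_real {J : Type*} [Fintype J] (l : J → ℝ) (h0 : ∀ j, 0 ≤ l j) (h1 : ∑ j, l j = 1)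
    {y : ℝ} (hy : 2 ≤ y) (m : ℕ)
    (hm : ∀ k : ℕ, ∑ j, (if l j < (y ^ (m + 2 * k))⁻¹ then l j else 0) ≤ 2 * (1 / 2) ^ k) :
    ∑ j, Real.negMulLog (l j) ≤ (m + 8) * Real.log y := by
  have hl : 0 ≤ Real.log y := Real.log_nonneg (by linarith)
  choose n hn using fun j => pow_unbounded_of_one_lt (l j)⁻¹ (show 1 < y by linarith)
  obtain ⟨N, hN⟩ : ∃ N, ∀ j, n j ≤ N :=
    ⟨Finset.univ.sup n, fun j => Finset.le_sup (f := n) (Finset.mem_univ j)⟩
  have h2 : ∀ j, Real.negMulLog (l j) ≤ (m * l j + 2 * ∑ k ∈ Finset.range N,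
      if l j < (y ^ (m + 2 * k))⁻¹ then l j else 0) * Real.log y := fun j => by
    rcases (h0 j).eq_or_lt with hj | hj
    · simp [← hj]
    · have h3 : (y ^ (m + 2 * N))⁻¹ ≤ l j :=
        inv_le_of_inv_le₀ hj ((hn j).le.trans
          (pow_le_pow_right₀ (by linarith) (by have := hN j; omega)))
      have h4 := mul_le_mul_of_nonneg_left (en_log hy m N h3) hj.le
      have h5 : ∑ k ∈ Finset.range N, (if l j < (y ^ (m + 2 * k))⁻¹ then l j else 0)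
          = l j * ∑ k ∈ Finset.range N, (if l j < (y ^ (m + 2 * k))⁻¹ then (1 : ℝ) else 0) := by
        rw [Finset.mul_sum]; simp
      rw [h5, Real.negMulLog]
      linarith
  refine (Finset.sum_le_sum fun j _ => h2 j).trans ?_
  rw [← Finset.sum_mul, Finset.sum_add_distrib, ← Finset.mul_sum, ← Finset.mul_sum, h1,
    Finset.sum_comm]
  refine mul_le_mul_of_nonneg_right ?_ hl
  have h6 : ∑ k ∈ Finset.range N, (2 : ℝ) * (1 / 2) ^ k ≤ 4 := by
    rw [← Finset.mul_sum]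
    linarith [sum_geometric_two_le N]
  linarith [(Finset.sum_le_sum fun k (_ : k ∈ Finset.range N) => hm k).trans h6]

theorem en_phi (A : Finset ι) (Ω : Hs ι q) (i : A → Fin q) : ∃ φ : Hs ι q,
    ‖φ‖ ^ 2 = enL A Ω i ∧ ⟪Ω, φ⟫_ℂ = enL A Ω i ∧
      ∀ (r : ℝ) (K : Op ι q), Cov A r {K} → RankLe A r (K φ) := by
  obtain ⟨φ, hφ⟩ : ∃ φ : Hs ι q, ∀ α β,
      φ (glue A α β) = enV A Ω i α * ⟪enV A Ω i, col A Ω β⟫_ℂ := by
    refine ⟨WithLp.toLp 2 fun σ => enV A Ω i (fun x => σ x)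
      * ⟪enV A Ω i, col A Ω fun x => σ x⟫_ℂ, fun α β => ?_⟩
    have e1 : (fun x : A => glue A α β x) = α := funext fun x => by simp [glue]
    have e2 : (fun x : {x // x ∉ A} => glue A α β x) = β := funext fun x => by simp [glue, x.2]
    simp only [e1, e2]
  have hc : ∀ β, col A φ β = ⟪enV A Ω i, col A Ω β⟫_ℂ • enV A Ω i := fun β => by
    ext α
    simp only [col, hφ, PiLp.smul_apply, smul_eq_mul, mul_comm]
  refine ⟨φ, ?_, ?_, fun r K hK => rankLe_of_cov hK _ _ hφ⟩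
  · rw [en_norm A, en_L_eq]
    simp only [hc, norm_smul, (enV A Ω).orthonormal.1 i, mul_one]
  · rw [en_inner A, en_L_eq]
    simp only [hc, inner_smul_right, en_sq, Complex.ofReal_sum]

theorem en_arith {δ r l μ c t : ℝ} (hl : 0 < l) (hμ : μ ^ 2 = l)
    (hδ : δ ≤ 1 / 4) (hr0 : 0 ≤ r) (hr : δ ^ 2 * r ≤ 1 / 16) (hc : 1 - δ ≤ c) (ht0 : 0 ≤ t)
    (ht : t ≤ l + δ * μ) (h : (c * l) ^ 2 ≤ l * r * t ^ 2) : 1 ≤ 8 * (l * r) := by
  have h1 : t ^ 2 ≤ 2 * l * (l + δ ^ 2) := by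
    have : t ^ 2 ≤ (l + δ * μ) ^ 2 := pow_le_pow_left₀ ht0 ht 2
    nlinarith [sq_nonneg (l - δ * μ)]
  have h2 : 9 / 16 ≤ c ^ 2 := by nlinarith
  have h3 : l ^ 2 * (9 / 16) ≤ l ^ 2 * (2 * (l * r) + 2 * (δ ^ 2 * r)) :=
    calc l ^ 2 * (9 / 16) ≤ l ^ 2 * c ^ 2 := mul_le_mul_of_nonneg_left h2 (sq_nonneg l)
      _ = (c * l) ^ 2 := by ring
      _ ≤ l * r * t ^ 2 := h
      _ ≤ l * r * (2 * l * (l + δ ^ 2)) := mul_le_mul_of_nonneg_left h1 (by positivity)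
      _ = _ := by ring
  have h4 := le_of_mul_le_mul_left h3 (by positivity)
  linarith

theorem en_pow {y : ℝ} (hy : 2 ≤ y) (u v k : ℕ) :
    (y ^ v / y ^ (u + 2 * v + 4 + k)) ^ 2 * y ^ (u + (u + 2 * v + 4)) ≤ 1 / 16 * (1 / 2) ^ k := by
  have hy0 : 0 < y := by linarith
  have e : (y ^ v / y ^ (u + 2 * v + 4 + k)) ^ 2 * y ^ (u + (u + 2 * v + 4))
      = (1 / y) ^ 4 * (1 / y) ^ (k + k) := by
    simp only [one_div, inv_pow]
    field_simp
    ring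
  have h2 : 1 / y ≤ 1 / 2 := one_div_le_one_div_of_le two_pos hy
  have h3 : (1 / y) ^ (k + k) ≤ (1 / 2) ^ k :=
    (pow_le_pow_of_le_one (by positivity) (by linarith) (by omega)).trans
      (pow_le_pow_left₀ (by positivity) h2 k)
  have h4 : (1 / y) ^ 4 ≤ (1 / 2) ^ 4 := pow_le_pow_left₀ (by positivity) h2 4
  rw [e]
  exact mul_le_mul (by linarith) h3 (by positivity) (by norm_num)

theorem entropy_le (A : Finset ι) (Ω : Hs ι q) (hΩ : ‖Ω‖ = 1) (P : Op ι q)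
    (hP : ∀ ψ, P ψ = ⟪Ω, ψ⟫_ℂ • Ω) {y : ℝ} (hy : 2 ≤ y) (u v : ℕ)
    (h : ∀ D : ℕ, ∃ K : Op ι q, Cov A (y ^ (u + D)) {K} ∧ (∃ c : ℂ, star K Ω = c • Ω) ∧
      ‖P - K‖ ≤ y ^ v / y ^ D) :
    entropy A Ω ≤ (2 * u + 2 * v + 12) * Real.log y := by
  have hy0 : 0 < y := by linarith
  obtain ⟨i, hi, hm⟩ := en_max A hΩ
  obtain ⟨φ, hφ1, hφ2, hφ3⟩ := en_phi A Ω i
  generalize enL A Ω i = l at hi hm hφ1 hφ2
  have hΩ2 : ⟪Ω, Ω⟫_ℂ = 1 := by rw [inner_self_eq_norm_sq_to_K, hΩ]; simp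
  have hPφ : P φ = (l : ℂ) • Ω := by rw [hP, hφ2]
  have hlow : 1 ≤ 8 * (l * y ^ (u + (u + 2 * v + 4))) := by
    obtain ⟨K, hK, ⟨c, hc⟩, hd⟩ := h (u + 2 * v + 4)
    have hadj : ∀ ψ, ⟪Ω, K ψ⟫_ℂ = (starRingEnd ℂ) c * ⟪Ω, ψ⟫_ℂ := fun ψ => by
      rw [← ContinuousLinearMap.adjoint_inner_left, ← ContinuousLinearMap.star_eq_adjoint, hc,
        inner_smul_left]
    have hp := en_pow hy u v 0
    rw [add_zero, pow_zero, mul_one] at hp
    have hδ0 : 0 ≤ y ^ v / y ^ (u + 2 * v + 4) := by positivity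
    have hr1 : 1 ≤ y ^ (u + (u + 2 * v + 4)) := one_le_pow₀ (by linarith)
    generalize y ^ v / y ^ (u + 2 * v + 4) = δ at hd hp hδ0
    have hδ : δ ≤ 1 / 4 := by
      by_contra hlt
      have : 1 / 4 < δ := not_le.mp hlt
      nlinarith [mul_le_mul_of_nonneg_left hr1 (sq_nonneg δ)]
    refine en_arith hi hφ1 hδ (by linarith) hp (c := ‖c‖) ?_
      (norm_nonneg (K φ)) ?_ ?_
    · have h1 : ‖⟪Ω, (P - K) Ω⟫_ℂ‖ ≤ δ := by
        refine (norm_inner_le_norm _ _).trans ?_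
        rw [hΩ, one_mul]
        simpa [hΩ] using ((P - K).le_opNorm Ω).trans
          (mul_le_mul_of_nonneg_right hd (norm_nonneg Ω))
      rw [sub_apply, inner_sub_right, hadj, hP, inner_smul_right, hΩ2,
        mul_one, mul_one] at h1
      have h2 := norm_sub_norm_le (1 : ℂ) ((starRingEnd ℂ) c)
      rw [norm_one, Complex.norm_conj] at h2
      linarith
    · have e : K φ = P φ - (P - K) φ := by simp
      have h1 := ((P - K).le_opNorm φ).trans (mul_le_mul_of_nonneg_right hd (norm_nonneg φ))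
      rw [e]
      refine (norm_sub_le _ _).trans (add_le_add (le_of_eq ?_) h1)
      rw [hPφ, norm_smul, hΩ, mul_one, Complex.norm_real, Real.norm_of_nonneg hi.le]
    · have h1 := en_over Ω (hφ3 _ K hK) hi.le hm
      rwa [hadj, hφ2, norm_mul, Complex.norm_conj, Complex.norm_real,
        Real.norm_of_nonneg hi.le] at h1
  have hs := en_L_sum A Ω
  rw [hΩ, one_pow] at hs
  refine (en_real (enL A Ω) (en_L_nonneg A Ω) hs hy (u + (u + 2 * v + 4)) fun k => ?_).trans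
    (le_of_eq (by push_cast; ring))
  obtain ⟨K, ⟨G, hG1, hG2, hG3⟩, -, hd⟩ := h (u + 2 * v + 4 + k)
  have hK : Cov A (y ^ (u + (u + 2 * v + 4 + k))) {((l : ℂ)⁻¹) • K} :=
    ⟨G, hG1, hG2, Set.singleton_subset_iff.mpr
      (Submodule.smul_mem _ _ (hG3 (Set.mem_singleton K)))⟩
  refine (en_mass Ω (hφ3 _ _ hK) (by positivity)).trans ?_
  have e : Ω - (((l : ℂ)⁻¹) • K) φ = ((l : ℂ)⁻¹) • (P - K) φ := by
    rw [sub_apply, hPφ, smul_sub, smul_smul,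
      inv_mul_cancel₀ (Complex.ofReal_ne_zero.mpr hi.ne'), one_smul,
      smul_apply]
  have hp := en_pow hy u v k
  have h1 := ((P - K).le_opNorm φ).trans (mul_le_mul_of_nonneg_right hd (norm_nonneg φ))
  generalize y ^ v / y ^ (u + 2 * v + 4 + k) = δ at hd hp h1
  have h2 : ‖Ω - (((l : ℂ)⁻¹) • K) φ‖ ^ 2 ≤ (1 / 2) ^ k := by
    rw [e, norm_smul, norm_inv, Complex.norm_real, Real.norm_of_nonneg hi.le, mul_pow]
    have h3 : ‖(P - K) φ‖ ^ 2 ≤ δ ^ 2 * l := by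
      rw [← hφ1, ← mul_pow]; exact pow_le_pow_left₀ (norm_nonneg _) h1 2
    calc l⁻¹ ^ 2 * ‖(P - K) φ‖ ^ 2 ≤ l⁻¹ ^ 2 * (δ ^ 2 * l) :=
          mul_le_mul_of_nonneg_left h3 (sq_nonneg _)
      _ = l⁻¹ * δ ^ 2 * 1 := by field_simp
      _ ≤ l⁻¹ * δ ^ 2 * (8 * (l * y ^ (u + (u + 2 * v + 4)))) :=
          mul_le_mul_of_nonneg_left hlow (by positivity)
      _ = 8 * (δ ^ 2 * y ^ (u + (u + 2 * v + 4))) := by field_simp
      _ ≤ (1 / 2) ^ k := by
          have : (0 : ℝ) ≤ (1 / 2) ^ k := by positivity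
          linarith
  have h4 : (y ^ (u + (u + 2 * v + 4) + 2 * k))⁻¹ * y ^ (u + (u + 2 * v + 4 + k)) ≤ (1 / 2) ^ k := by
    have e2 : (y ^ (u + (u + 2 * v + 4) + 2 * k))⁻¹ * y ^ (u + (u + 2 * v + 4 + k))
        = (1 / y) ^ k := by
      simp only [one_div, inv_pow]
      field_simp
      ring
    rw [e2]
    exact pow_le_pow_left₀ (by positivity) (one_div_le_one_div_of_le two_pos hy) k
  linarith

end Vale.Agent.P356
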