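import Vale.Agent.P356.Latt

/-! Vertical cuts and rectangles. -/

namespace Vale.Agent.P356

open Finset Matrix
open scoped InnerProductSpace ComplexOrder

theorem ge_triv {ι : Type} [Fintype ι] [DecidableEq ι] {q : ℕ} {A : Finset ι}
    (hA : A = ∅ ∨ A = univ) {Ω : (ι → Fin q) → ℂ} (h : star Ω ⬝ᵥ Ω = 1) : entropy A Ω ≤ 0 := by
  have h1 : ‖(WithLp.toLp 2 Ω : Hs ι q)‖ = 1 := by
    have h2 : ⟪(WithLp.toLp 2 Ω : Hs ι q), (WithLp.toLp 2 Ω : Hs ι q)⟫_ℂ = 1 := by
      rw [EuclideanSpace.inner_toLp_toLp, dotProduct_comm, h]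
    have h3 : ‖(WithLp.toLp 2 Ω : Hs ι q)‖ ^ 2 = 1 := by
      rw [← inner_self_eq_norm_sq (𝕜 := ℂ), h2, RCLike.one_re]
    exact (pow_eq_one_iff_of_nonneg (norm_nonneg _) two_ne_zero).1 h3
  refine entropy_le_zero A (WithLp.toLp 2 Ω) h1 ?_
  rcases hA with rfl | rfl
  · exact ⟨⊤, by simp, fun _ => trivial⟩
  · refine ⟨Submodule.span ℂ {col univ (WithLp.toLp 2 Ω) fun x => absurd (mem_univ _) x.2}, ?_,
      fun β => Submodule.subset_span ?_⟩
    · exact_mod_cast (finrank_span_le_card _).trans (by simp)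
    · rw [Set.mem_singleton_iff]
      congr 1
      funext x
      exact absurd (mem_univ _) x.2

theorem ge_bd1 {L : ℕ} {A : Finset (Site L)} {i i' c d : ℕ} (hi : i < L) (hi' : i' < L)
    (h1 : i + 1 = i' ∨ i' + 1 = i) (hd : d ≤ L)
    (h : ∀ j : Fin L, c ≤ j → j < d → (⟨i, hi⟩, j) ∈ A ∧ (⟨i', hi'⟩, j) ∉ A) : d - c ≤ bdry A := by
  rw [← Nat.card_Ico, ← card_attachFin (Ico c d) fun m hm => (mem_Ico.1 hm).2.trans_le hd]
  refine card_le_card_of_injOn (fun j => ((⟨i, hi⟩, j), (⟨i', hi'⟩, j))) (fun j hj => ?_)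
    fun j _ j' _ e => congrArg (fun p => p.1.2) e
  obtain ⟨h2, h3⟩ := mem_Ico.1 ((mem_attachFin _).1 hj)
  refine mem_coe.2 (mem_filter.2 ⟨mem_univ _, (h j h2 h3).1, (h j h2 h3).2, ?_⟩)
  simp only [dist1]
  omega

theorem ge_bd2 {L : ℕ} {A : Finset (Site L)} {i i' c d : ℕ} (hi : i < L) (hi' : i' < L)
    (h1 : i + 1 = i' ∨ i' + 1 = i) (hd : d ≤ L)
    (h : ∀ j : Fin L, c ≤ j → j < d → (j, ⟨i, hi⟩) ∈ A ∧ (j, ⟨i', hi'⟩) ∉ A) : d - c ≤ bdry A := by
  rw [← Nat.card_Ico, ← card_attachFin (Ico c d) fun m hm => (mem_Ico.1 hm).2.trans_le hd]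
  refine card_le_card_of_injOn (fun j => ((j, ⟨i, hi⟩), (j, ⟨i', hi'⟩))) (fun j hj => ?_)
    fun j _ j' _ e => congrArg (fun p => p.1.1) e
  obtain ⟨h2, h3⟩ := mem_Ico.1 ((mem_attachFin _).1 hj)
  refine mem_coe.2 (mem_filter.2 ⟨mem_univ _, (h j h2 h3).1, (h j h2 h3).2, ?_⟩)
  simp only [dist1]
  omega

theorem ge_rect {L a b c d : ℕ} (hab : a < b) (hb : b ≤ L) (hcd : c < d) (hd : d ≤ L)
    {A : Finset (Site L)}
    (hA : ∀ x, x ∈ A ↔ a ≤ x.1.val ∧ x.1.val < b ∧ c ≤ x.2.val ∧ x.2.val < d) :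
    A = univ ∨ (b - a + (d - c) ≤ 2 * bdry A ∧ 1 ≤ bdry A) := by
  have h1 : 0 < a → d - c ≤ bdry A := fun h =>
    ge_bd1 (i := a) (i' := a - 1) (by omega) (by omega) (by omega) hd fun j h1 h2 => by
      simp only [hA]; omega
  have h2 : b < L → d - c ≤ bdry A := fun h =>
    ge_bd1 (i := b - 1) (i' := b) (by omega) (by omega) (by omega) hd fun j h1 h2 => by
      simp only [hA]; omega
  have h3 : 0 < c → b - a ≤ bdry A := fun h =>
    ge_bd2 (i := c) (i' := c - 1) (by omega) (by omega) (by omega) hb fun j h1 h2 => by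
      simp only [hA]; omega
  have h4 : d < L → b - a ≤ bdry A := fun h =>
    ge_bd2 (i := d - 1) (i' := d) (by omega) (by omega) (by omega) hb fun j h1 h2 => by
      simp only [hA]; omega
  by_cases h : a = 0 ∧ b = L ∧ c = 0 ∧ d = L
  · refine Or.inl (eq_univ_of_forall fun x => (hA x).2 ?_)
    have := x.1.2
    have := x.2.2
    omega
  · right
    omega

theorem ge_mono {f : ℕ → ℕ} (hf : Monotone f) (M a : ℕ) : ∃ a', ∀ u < M, (a ≤ f u ↔ a' ≤ u) := by
  by_cases h : ∃ u, a ≤ f u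
  · exact ⟨Nat.find h, fun u _ =>
      ⟨fun hu => Nat.find_min' h hu, fun hu => (Nat.find_spec h).trans (hf hu)⟩⟩
  · exact ⟨M, fun u hu => iff_of_false (fun h' => h ⟨u, h'⟩) hu.not_ge⟩

theorem ge_dist {L : ℕ} (x y : Site L) :
    x.1.val + x.2.val ≤ y.1.val + y.2.val + dist1 x y ∧ x.1.val ≤ y.1.val + dist1 x y ∧
      y.1.val ≤ x.1.val + dist1 x y ∧ x.2.val ≤ y.2.val + dist1 x y ∧
      y.2.val ≤ x.2.val + dist1 x y := by
  simp only [dist1]
  omega

theorem ge_lip {a b c d x x' y y' D : ℕ} (h1 : x ≤ y + D) (h2 : y ≤ x + D) (h3 : x' ≤ y' + D)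
    (h4 : y' ≤ x' + D) : max (max (a - x) (x + 1 - b)) (max (c - x') (x' + 1 - d)) ≤
      max (max (a - y) (y + 1 - b)) (max (c - y') (y' + 1 - d)) + D := by
  rw [← max_add_add_right, ← max_add_add_right, ← max_add_add_right]
  exact max_le_max (max_le_max (by omega) (by omega)) (max_le_max (by omega) (by omega))

theorem ge_lev {a b c d x x' t : ℕ} (ht : 1 ≤ t)
    (h : max (max (a - x) (x + 1 - b)) (max (c - x') (x' + 1 - d)) = t) :
    a ≤ x + t ∧ x + 1 ≤ b + t ∧ c ≤ x' + t ∧ x' + 1 ≤ d + t ∧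
      (x + t = a ∨ x + 1 = b + t ∨ x' + t = c ∨ x' + 1 = d + t) := by
  omega

theorem area_law (q R : ℕ) (J Δ : ℝ) (hΔ : 0 < Δ) :
    ∃ C : ℝ, ∀ (L : ℕ) (h : Finset (Site L) → Matrix (Site L → Fin q) (Site L → Fin q) ℂ)
      (m : Finset (Site L) → ℝ) (Ω : (Site L → Fin q) → ℂ), Admissible R J h →
      GroundGap (∑ X ∈ terms L R, h X) Ω Δ → FrustrationFree R h m Ω →
      ((∀ a b : ℕ, GapAboveKernel
          (restr R h m (univ.filter fun x => a ≤ x.2.val ∧ x.2.val < b)) Δ) →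
        ∀ c : ℕ, entropy (univ.filter fun x : Site L => x.1.val < c) Ω ≤
          C * bdry (univ.filter fun x : Site L => x.1.val < c)) ∧
      ((∀ a b : ℕ, GapAboveKernel
          (restr R h m (univ.filter fun x => a ≤ x.1.val + x.2.val ∧ x.1.val + x.2.val < b)) Δ) →
        ∀ a b c d : ℕ,
          entropy (univ.filter fun x : Site L =>
            a ≤ x.1.val ∧ x.1.val < b ∧ c ≤ x.2.val ∧ x.2.val < d) Ω ≤
          C * bdry (univ.filter fun x : Site L =>
            a ≤ x.1.val ∧ x.1.val < b ∧ c ≤ x.2.val ∧ x.2.val < d)) := by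
  obtain ⟨T, C, hC, H⟩ := lattice_area q R 2 J Δ hΔ
  refine ⟨C * (4 * T + 3), fun L h m Ω h1 h2 h3 => ?_⟩
  have triv : ∀ A : Finset (Site L), A = ∅ ∨ A = univ → entropy A Ω ≤ C * (4 * T + 3) * bdry A :=
    fun A hA => (ge_triv hA h2.1).trans (by positivity)
  have fin : ∀ (A : Finset (Site L)) (n : ℕ), n + 1 ≤ (4 * T + 3) * bdry A →
      C * (n + 1) ≤ C * (4 * T + 3) * bdry A := fun A n hn => by
    rw [mul_assoc]
    exact mul_le_mul_of_nonneg_left (by exact_mod_cast hn) hC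
  refine ⟨fun hg c => ?_, fun hg a b c d => ?_⟩
  · set A := univ.filter fun x : Site L => x.1.val < c with hA
    by_cases hc : c = 0
    · exact triv A (Or.inl (filter_eq_empty_iff.2 fun x _ => by omega))
    by_cases hL : L ≤ c
    · exact triv A (Or.inr (filter_eq_self.2 fun x _ => x.1.2.trans_le hL))
    have e : A = univ.filter fun x : Site L => x.1.val + 1 - c = 0 :=
      filter_congr fun x _ => by omega
    have k1 := H L h m Ω h1 h2 h3 (fun x => x.2.val) (fun x => x.1.val + 1 - c) L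
      (fun x y => by simp only [dist1]; omega) (fun x => x.2.2.le) (fun s t ht _ => by
        refine (card_le_one.2 fun x hx y hy => ?_).trans one_le_two
        simp only [mem_filter, mem_univ, true_and] at hx hy
        exact Prod.ext (Fin.ext (by omega)) (Fin.ext (by omega))) hg
    rw [← e] at k1
    refine k1.trans (fin A L ?_)
    have k2 : L - 0 ≤ bdry A :=
      ge_bd1 (i := c - 1) (i' := c) (by omega) (by omega) (by omega) le_rfl fun j _ _ => by
        simp only [hA, mem_filter, mem_univ, true_and]; omega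
    nlinarith [Nat.zero_le (T * bdry A), Nat.sub_zero L, not_le.1 hL]
  · set A := univ.filter fun x : Site L =>
      a ≤ x.1.val ∧ x.1.val < b ∧ c ≤ x.2.val ∧ x.2.val < d with hA
    rcases A.eq_empty_or_nonempty with h0 | ⟨z, hz⟩
    · exact triv A (Or.inl h0)
    obtain ⟨b', hb, hb'⟩ : ∃ b', b' ≤ L ∧ ∀ i : Fin L, i.val < b ↔ i.val < b' :=
      ⟨min b L, min_le_right _ _, fun i => by have := i.2; omega⟩
    obtain ⟨d', hd, hd'⟩ : ∃ d', d' ≤ L ∧ ∀ i : Fin L, i.val < d ↔ i.val < d' :=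
      ⟨min d L, min_le_right _ _, fun i => by have := i.2; omega⟩
    have hm : ∀ x, x ∈ A ↔ a ≤ x.1.val ∧ x.1.val < b' ∧ c ≤ x.2.val ∧ x.2.val < d' := fun x => by
      simp only [hA, mem_filter, mem_univ, true_and, hb', hd']
    have hz' := (hm z).1 hz
    have hab : a < b' := by omega
    have hcd : c < d' := by omega
    rcases ge_rect hab hb hcd hd hm with h0 | h0
    · exact triv A (Or.inr h0)
    obtain ⟨n, hn⟩ : ∃ n, n = b' - a + (d' - c) + 4 * T := ⟨_, rfl⟩
    have e : A = univ.filter fun x : Site L =>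
        max (max (a - x.1.val) (x.1.val + 1 - b')) (max (c - x.2.val) (x.2.val + 1 - d')) = 0 := by
      ext x
      rw [hm, mem_filter]
      simp only [mem_univ, true_and]
      omega
    have k1 := H L h m Ω h1 h2 h3 (fun x => min n (x.1.val + x.2.val + 2 * T - (a + c)))
      (fun x => max (max (a - x.1.val) (x.1.val + 1 - b')) (max (c - x.2.val) (x.2.val + 1 - d')))
      n (fun x y => by
        obtain ⟨d1, d2, d3, d4, d5⟩ := ge_dist x y
        exact ⟨by omega, ge_lip d2 d3 d4 d5⟩) (fun x => min_le_left _ _) (fun s t ht hT => by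
        refine (card_le_card_of_injOn (t := (univ : Finset Bool))
          (fun x => decide (x.1.val + t = a ∨ x.2.val + 1 = d' + t)) (fun _ _ => mem_univ _)
          fun x hx y hy e => ?_).trans (by simp)
        simp only [coe_filter, mem_univ, true_and, Set.mem_ofPred_eq, decide_eq_decide] at hx hy e
        obtain ⟨x1, x2, x3, x4, x5⟩ := ge_lev ht hx.2
        obtain ⟨y1, y2, y3, y4, y5⟩ := ge_lev ht hy.2
        have e2 : x.1.val + x.2.val = y.1.val + y.2.val := by
          have := hx.1.trans hy.1.symm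
          clear x5 y5 e hx hy
          omega
        clear hx hy
        have : x.1.val = y.1.val ∧ x.2.val = y.2.val := by omega
        exact Prod.ext (Fin.ext this.1) (Fin.ext this.2)) fun a' b'' => by
        have hf : Monotone fun u => min n (u + 2 * T - (a + c)) := fun u v huv => by
          simp only; omega
        obtain ⟨a1, k1⟩ := ge_mono hf (2 * L) a'
        obtain ⟨b1, k2⟩ := ge_mono hf (2 * L) b''
        have k3 := hg a1 b1
        rw [filter_congr (q := fun x : Site L => a' ≤ min n (x.1.val + x.2.val + 2 * T - (a + c)) ∧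
          min n (x.1.val + x.2.val + 2 * T - (a + c)) < b'') fun x _ => by
            have hx : x.1.val + x.2.val < 2 * L := by have := x.1.2; have := x.2.2; omega
            rw [k1 _ hx, ← not_le, ← not_le (a := b''), k2 _ hx]] at k3
        exact k3
    rw [← e] at k1
    refine k1.trans (fin A n ?_)
    nlinarith [Nat.mul_le_mul_left (4 * T + 1) h0.2, h0.1]

end Vale.Agent.P356
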