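import Vale.Agent.P356.Base

/-! Graded norms and the projection iteration. -/

set_option linter.unusedSectionVars false

namespace Vale.Agent.P356

open Finset Filter Topology

variable {O : Type*} [NormedRing O]

theorem IsN.gr_nonneg {N : O → ℝ} (hN : IsN N) (x : O) : 0 ≤ N x :=
  (norm_nonneg x).trans (hN.norm_le x)

theorem IsN.gr_step {N : O → ℝ} (hN : IsN N) (Y : O) :
    N (3 * (Y * Y) - 2 * (Y * Y * Y) - Y) ≤ (2 * N Y + 1) * N (Y - Y * Y) ∧
    N (3 * (Y * Y) - 2 * (Y * Y * Y) -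
        (3 * (Y * Y) - 2 * (Y * Y * Y)) * (3 * (Y * Y) - 2 * (Y * Y * Y)))
      ≤ N (Y - Y * Y) * N (Y - Y * Y) * (3 + 4 * N (Y - Y * Y)) := by
  constructor
  · have e : 3 * (Y * Y) - 2 * (Y * Y * Y) - Y
        = Y * (Y - Y * Y) + Y * (Y - Y * Y) + -(Y - Y * Y) := by noncomm_ring
    rw [e]
    have h1 := hN.add (Y * (Y - Y * Y) + Y * (Y - Y * Y)) (-(Y - Y * Y))
    have h2 := hN.add (Y * (Y - Y * Y)) (Y * (Y - Y * Y))
    have h3 := hN.mul Y (Y - Y * Y)
    rw [hN.neg] at h1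
    linarith
  · have e : 3 * (Y * Y) - 2 * (Y * Y * Y) -
        (3 * (Y * Y) - 2 * (Y * Y * Y)) * (3 * (Y * Y) - 2 * (Y * Y * Y))
        = (Y - Y * Y) * (Y - Y * Y) * (1 + 1 + 1 +
          ((Y - Y * Y) + (Y - Y * Y) + ((Y - Y * Y) + (Y - Y * Y)))) := by noncomm_ring
    rw [e]
    generalize Y - Y * Y = E
    have h1 := hN.mul (E * E) (1 + 1 + 1 + (E + E + (E + E)))
    have h2 := hN.mul E E
    have h3 := hN.add (1 + 1 + 1) (E + E + (E + E))
    have h4 := hN.add (1 + 1) 1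
    have h5 := hN.add 1 1
    have h6 := hN.add (E + E) (E + E)
    have h7 := hN.add E E
    have h8 := hN.one
    exact h1.trans (mul_le_mul h2 (by linarith) (hN.gr_nonneg _)
      (mul_nonneg (hN.gr_nonneg _) (hN.gr_nonneg _)))

theorem IsN.iter [CompleteSpace O] {N : O → ℝ} (hN : IsN N) {Y : O} {b : ℝ} (hb : 1 ≤ b)
    (hY : N Y ≤ b) (he : N (Y - Y * Y) ≤ 1 / 10) :
    ∃ P, Tendsto (it Y) atTop (𝓝 P) ∧ P * P = P ∧ N P ≤ 2 * b := by
  have hstep : ∀ n, N (it Y n - it Y n * it Y n) ≤ 1 / 10 * (1 / 2) ^ n →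
      N (it Y n) ≤ b * (2 - (1 / 2) ^ n) → N (it Y (n + 1) - it Y n) ≤ b / 2 * (1 / 2) ^ n := by
    intro n h1 h2
    have hp : (0 : ℝ) < (1 / 2) ^ n := by positivity
    have h3 : 2 * N (it Y n) + 1 ≤ 5 * b := by nlinarith
    refine (hN.gr_step (it Y n)).1.trans ?_
    have := mul_le_mul h3 h1 (hN.gr_nonneg _) (by linarith)
    linarith
  have inv : ∀ n, N (it Y n - it Y n * it Y n) ≤ 1 / 10 * (1 / 2) ^ n ∧
      N (it Y n) ≤ b * (2 - (1 / 2) ^ n) := by
    intro n
    induction n with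
    | zero => exact ⟨by simpa [it] using he, by norm_num [it]; exact hY⟩
    | succ n ih =>
      have hp1 : ((1 : ℝ) / 2) ^ n ≤ 1 := pow_le_one₀ (by norm_num) (by norm_num)
      constructor
      · refine (hN.gr_step (it Y n)).2.trans ?_
        have h0 := hN.gr_nonneg (it Y n - it Y n * it Y n)
        have h1 := ih.1
        generalize N (it Y n - it Y n * it Y n) = ε at *
        have h2 : ε ≤ 1 / 10 := by linarith
        have h3 : ε * (3 + 4 * ε) ≤ 1 / 2 := by nlinarith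
        have h4 := mul_le_mul_of_nonneg_left h3 h0
        rw [pow_succ]
        linarith
      · have h1 := hstep n ih.1 ih.2
        have h2 := hN.add (it Y n) (it Y (n + 1) - it Y n)
        rw [add_sub_cancel] at h2
        rw [pow_succ]
        linarith [ih.2]
  have hc : CauchySeq (it Y) := by
    refine cauchySeq_of_le_geometric (1 / 2) (b / 2) (by norm_num) fun n => ?_
    rw [dist_comm, dist_eq_norm]
    exact (hN.norm_le _).trans (hstep n (inv n).1 (inv n).2)
  obtain ⟨P, hP⟩ := cauchySeq_tendsto_of_complete hc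
  refine ⟨P, hP, ?_, ?_⟩
  · have h1 : Tendsto (fun n => it Y n - it Y n * it Y n) atTop (𝓝 (P - P * P)) :=
      hP.sub (hP.mul hP)
    have h2 : Tendsto (fun n => it Y n - it Y n * it Y n) atTop (𝓝 0) := by
      refine squeeze_zero_norm (fun n => (hN.norm_le _).trans (inv n).1) ?_
      have := (tendsto_pow_atTop_nhds_zero_of_lt_one (r := (1 / 2 : ℝ)) (by norm_num)
        (by norm_num)).const_mul (1 / 10 : ℝ)
      rwa [mul_zero] at this
    exact (sub_eq_zero.1 (tendsto_nhds_unique h1 h2)).symm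
  · refine le_of_tendsto' ((hN.cont.tendsto P).comp hP) fun n => (inv n).2.trans ?_
    have hp : (0 : ℝ) < (1 / 2) ^ n := by positivity
    nlinarith

theorem IsN.deriv {N : O → ℝ} (hN : IsN N) (Q : O) {κ : ℝ} (hκ : 0 ≤ κ) :
    IsN fun x => N x + κ * N (x * Q - Q * x) where
  cont := hN.cont.add (continuous_const.mul (hN.cont.comp
    ((continuous_id.mul continuous_const).sub (continuous_const.mul continuous_id))))
  zero := by simp [hN.zero]
  add := fun x y => by
    have h1 := hN.add x y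
    have h2 := hN.add (x * Q - Q * x) (y * Q - Q * y)
    rw [show x * Q - Q * x + (y * Q - Q * y) = (x + y) * Q - Q * (x + y) by noncomm_ring] at h2
    have := mul_le_mul_of_nonneg_left h2 hκ
    linarith
  mul := fun x y => by
    have h1 := hN.mul x y
    have h2 := hN.add (x * (y * Q - Q * y)) ((x * Q - Q * x) * y)
    rw [show x * (y * Q - Q * y) + (x * Q - Q * x) * y = x * y * Q - Q * (x * y) by
      noncomm_ring] at h2
    have h3 := hN.mul x (y * Q - Q * y)
    have h4 := hN.mul (x * Q - Q * x) y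
    have h5 := mul_le_mul_of_nonneg_left (h2.trans (add_le_add h3 h4)) hκ
    have h6 := mul_nonneg (mul_nonneg hκ (hN.gr_nonneg (x * Q - Q * x)))
      (mul_nonneg hκ (hN.gr_nonneg (y * Q - Q * y)))
    linarith
  neg := fun x => by
    rw [show -x * Q - Q * -x = -(x * Q - Q * x) by noncomm_ring, hN.neg, hN.neg]
  one := by simpa [hN.zero] using hN.one
  norm_le := fun x => by
    have := mul_nonneg hκ (hN.gr_nonneg (x * Q - Q * x))
    linarith [hN.norm_le x]

theorem gr_pend (a : ℕ) (p p' : List (Fin 3)) : pend a (p ++ p') = pend (pend a p) p' := by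
  induction p generalizing a with
  | nil => rfl
  | cons s p ih => exact ih _

theorem gr_plist (a : ℕ) (p p' : List (Fin 3)) :
    plist a (p ++ p') = plist a p ++ plist (pend a p) p' := by
  induction p generalizing a with
  | nil => rfl
  | cons s p ih =>
    simp only [List.cons_append, plist, pend]
    split_ifs with h
    · rw [ih, List.cons_append, stp, if_pos h]
    · exact ih _

variable [NormedAlgebra ℂ O] {K : ℕ → O}

theorem V_mono (a b : ℕ) {D D' : ℕ} (h : D ≤ D') : V K a b D ≤ V K a b D' :=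
  Submodule.span_mono fun _ ⟨p, h1, h2⟩ => ⟨p, h1.trans h, h2⟩

theorem V_mul {a b c D D' : ℕ} {x z : O} (hx : x ∈ V K a b D) (hz : z ∈ V K b c D') :
    x * z ∈ V K a c (D + D') := by
  have h := Submodule.mul_mem_mul hx hz
  rw [V, V, Submodule.span_mul_span] at h
  refine Submodule.span_mono ?_ h
  rintro _ ⟨_, ⟨p, h1, h2, rfl⟩, _, ⟨p', h1', h2', rfl⟩, rfl⟩
  refine ⟨p ++ p', ?_, ?_, ?_⟩
  · rw [List.length_append]; omega
  · rw [gr_pend, h2, h2']
  · rw [gr_plist, h2, List.map_append, List.prod_append]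

theorem one_mem_V (a : ℕ) :
    (1 : O) ∈ V K a a 0 ∧ (1 : O) ∈ V K a (a + 1) 1 ∧ (1 : O) ∈ V K (a + 1) a 1 :=
  ⟨Submodule.subset_span ⟨[], le_rfl, rfl, rfl⟩, Submodule.subset_span ⟨[1], le_rfl, rfl, rfl⟩,
    Submodule.subset_span ⟨[2], le_rfl, rfl, rfl⟩⟩

theorem K_mem_V (a : ℕ) : K a ∈ V K a a 1 :=
  Submodule.subset_span ⟨[0], le_rfl, rfl, by simp [plist]⟩

/-- The generators of the unit balls. -/
def grGen (K : ℕ → O) (y : ℝ) (D₀ a b : ℕ) : Set O :=
  {x | ∃ D, (D ≤ D₀ → x ∈ V K a b D) ∧ ‖x‖ ≤ (y ^ D)⁻¹}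

open Pointwise in
theorem exists_isG (h1 : ‖(1 : O)‖ ≤ 1) (K : ℕ → O) {y : ℝ} (hy : 1 ≤ y) (D₀ : ℕ) :
    ∃ N, IsG K y D₀ N := by
  have hy0 : 0 < y := by linarith
  have hnh : ∀ a b, convexHull ℝ (grGen K y D₀ a b) ∈ 𝓝 (0 : O) := fun a b =>
    mem_of_superset (Metric.closedBall_mem_nhds 0 (show 0 < (y ^ (D₀ + 1))⁻¹ by positivity))
      fun x hx => subset_convexHull ℝ _ ⟨D₀ + 1, fun h => absurd h (by omega), by simpa using hx⟩
  have hab : ∀ a b, Absorbent ℝ (convexHull ℝ (grGen K y D₀ a b)) := fun a b =>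
    absorbent_nhds_zero (hnh a b)
  have hmul0 : ∀ a b c, ∀ x ∈ grGen K y D₀ a b, ∀ z ∈ grGen K y D₀ b c,
      x * z ∈ grGen K y D₀ a c := by
    rintro a b c x ⟨D, hx1, hx2⟩ z ⟨D', hz1, hz2⟩
    refine ⟨D + D', fun h => V_mul (hx1 (by omega)) (hz1 (by omega)), (norm_mul_le x z).trans ?_⟩
    rw [pow_add, mul_inv]
    exact mul_le_mul hx2 hz2 (norm_nonneg _) (by positivity)
  have hmul : ∀ a b c, ∀ x ∈ convexHull ℝ (grGen K y D₀ a b),
      ∀ z ∈ convexHull ℝ (grGen K y D₀ b c), x * z ∈ convexHull ℝ (grGen K y D₀ a c) := by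
    intro a b c x hx z hz
    refine convexHull_min (t := LinearMap.mulRight ℝ z ⁻¹' convexHull ℝ (grGen K y D₀ a c))
      (fun x hx => ?_) ((convex_convexHull ℝ _).linear_preimage _) hx
    exact convexHull_min (t := LinearMap.mulLeft ℝ x ⁻¹' convexHull ℝ (grGen K y D₀ a c))
      (fun z hz => subset_convexHull ℝ _ (hmul0 a b c x hx z hz))
      ((convex_convexHull ℝ _).linear_preimage _) hz
  have hgm : ∀ a b c x z, gauge (convexHull ℝ (grGen K y D₀ a c)) (x * z) ≤
      gauge (convexHull ℝ (grGen K y D₀ a b)) x * gauge (convexHull ℝ (grGen K y D₀ b c)) z := by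
    intro a b c x z
    refine le_mul_of_forall_lt₀ fun s hs t ht => ?_
    obtain ⟨s', hs0, hs1, x', hx', rfl⟩ := exists_lt_of_gauge_lt (hab a b) hs
    obtain ⟨t', ht0, ht1, z', hz', rfl⟩ := exists_lt_of_gauge_lt (hab b c) ht
    refine (gauge_le_of_mem (a := s' * t') (by positivity) ?_).trans
      (mul_le_mul hs1.le ht1.le ht0.le (by linarith))
    exact ⟨x' * z', hmul a b c x' hx' z' hz', (smul_mul_smul_comm s' x' t' z').symm⟩
  have hmem : ∀ a b D x, x ∈ V K a b D →
      gauge (convexHull ℝ (grGen K y D₀ a b)) x ≤ y ^ D * ‖x‖ := by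
    intro a b D x hx
    by_cases h0 : x = 0
    · simp [h0]
    have hp : 0 < y ^ D * ‖x‖ := mul_pos (by positivity) (norm_pos_iff.2 h0)
    refine gauge_le_of_mem hp.le ⟨(y ^ D * ‖x‖)⁻¹ • x, subset_convexHull ℝ _ ⟨D, fun _ => ?_, ?_⟩,
      smul_inv_smul₀ hp.ne' x⟩
    · exact (V K a b D).smul_of_tower_mem _ hx
    · rw [norm_smul, Real.norm_eq_abs, abs_of_pos (inv_pos.2 hp), mul_inv, mul_assoc,
        inv_mul_cancel₀ (norm_pos_iff.2 h0).ne', mul_one]
  refine ⟨fun a b => gauge (convexHull ℝ (grGen K y D₀ a b)), fun a => ?_,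
    fun a b x => gauge_nonneg x, hgm, hmem, fun a b x t ht => ?_⟩
  · refine ⟨continuous_gauge (convex_convexHull ℝ _) (hnh a a), gauge_zero,
      gauge_add_le (convex_convexHull ℝ _) (hab a a), hgm a a a, gauge_neg fun x hx => ?_, ?_,
      fun x => ?_⟩
    · refine convexHull_min (t := (-LinearMap.id : O →ₗ[ℝ] O) ⁻¹' convexHull ℝ (grGen K y D₀ a a))
        (fun z hz => subset_convexHull ℝ _ ?_) ((convex_convexHull ℝ _).linear_preimage _) hx
      obtain ⟨D, hz1, hz2⟩ := hz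
      exact ⟨D, fun h => (V K a a D).neg_mem (hz1 h), (norm_neg z).trans_le hz2⟩
    · have := hmem a a 0 1 (one_mem_V a).1
      rw [pow_zero, one_mul] at this
      exact this.trans h1
    · have hs : convexHull ℝ (grGen K y D₀ a a) ⊆ Metric.closedBall 0 1 := by
        refine convexHull_min ?_ (convex_closedBall 0 1)
        rintro z ⟨D, _, hz2⟩
        rw [mem_closedBall_zero_iff]
        exact hz2.trans (inv_le_one_of_one_le₀ (one_le_pow₀ hy))
      have := gauge_mono (hab a a) hs x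
      rwa [gauge_closedBall zero_le_one, div_one] at this
  · obtain ⟨s, hs0, hs1, z, hz, rfl⟩ := exists_lt_of_gauge_lt (hab a b) ht
    have hc : Convex ℝ {z : O | ∃ G ∈ V K a b D₀, ‖z - G‖ ≤ (y ^ (D₀ + 1))⁻¹} := by
      rintro u ⟨G, hG, hu⟩ v ⟨G', hG', hv⟩ c d hc hd hcd
      refine ⟨c • G + d • G', (V K a b D₀).add_mem ((V K a b D₀).smul_of_tower_mem _ hG)
        ((V K a b D₀).smul_of_tower_mem _ hG'), ?_⟩
      rw [show c • u + d • v - (c • G + d • G') = c • (u - G) + d • (v - G') by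
        rw [smul_sub, smul_sub]; abel]
      refine (norm_add_le _ _).trans ?_
      rw [norm_smul, norm_smul, Real.norm_of_nonneg hc, Real.norm_of_nonneg hd]
      have e1 := mul_le_mul_of_nonneg_left hu hc
      have e2 := mul_le_mul_of_nonneg_left hv hd
      have e3 : c * (y ^ (D₀ + 1))⁻¹ + d * (y ^ (D₀ + 1))⁻¹ = (y ^ (D₀ + 1))⁻¹ := by
        rw [← add_mul, hcd, one_mul]
      linarith
    have hsub : grGen K y D₀ a b ⊆ {z : O | ∃ G ∈ V K a b D₀, ‖z - G‖ ≤ (y ^ (D₀ + 1))⁻¹} := by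
      rintro u ⟨D, hu1, hu2⟩
      by_cases hD : D ≤ D₀
      · exact ⟨u, V_mono a b hD (hu1 hD), by rw [sub_self, norm_zero]; positivity⟩
      · refine ⟨0, zero_mem _, ?_⟩
        rw [sub_zero]
        exact hu2.trans (inv_anti₀ (by positivity) (pow_le_pow_right₀ hy (by omega)))
    obtain ⟨G, hG, hzG⟩ := convexHull_min hsub hc hz
    refine ⟨s • G, (V K a b D₀).smul_of_tower_mem _ hG, ?_⟩
    show ‖s • z - s • G‖ ≤ _
    rw [← smul_sub, norm_smul, Real.norm_of_nonneg hs0.le, div_eq_mul_inv]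
    exact mul_le_mul hs1.le hzG (norm_nonneg _) (by linarith)

end Vale.Agent.P356
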