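import Vale.Agent.P356.Main

/-! The lattice setting. -/

namespace Vale.Agent.P356

open Finset Matrix
open scoped InnerProductSpace ComplexOrder

section Abs
variable {E : Type} [NormedAddCommGroup E] [InnerProductSpace ℂ E] [FiniteDimensional ℂ E]
  {X : Type} (k : X → E →L[ℂ] E)

theorem lt_ker (x : X) (ψ : E) : (1 - gp k {x}) ψ = 0 ↔ k x ψ = 0 := by
  rw [_root_.sub_apply, one_apply_eq_self, sub_eq_zero, eq_comm,
    gp_apply_eq_iff]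
  simp

theorem lt_sa {a : E →L[ℂ] E} (ha : star a = a) (φ ψ : E) : ⟪a φ, ψ⟫_ℂ = ⟪φ, a ψ⟫_ℂ := by
  conv_lhs => rw [← ha, ContinuousLinearMap.star_eq_adjoint, ContinuousLinearMap.adjoint_inner_left]

theorem lt_form {x : X} (hk : star (k x) = k x) {M : ℝ} (hM : ‖k x‖ ≤ M) (ψ : E) :
    (⟪ψ, k x ψ⟫_ℂ).re ≤ M * ‖(1 - gp k {x}) ψ‖ ^ 2 := by
  have h1 : k x ((1 - gp k {x}) ψ) = k x ψ := by
    rw [← mul_apply_eq_comp, mul_sub, mul_one, mul_gp (mem_singleton_self x), sub_zero]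
  have h2 : ⟪ψ, k x ψ⟫_ℂ = ⟪(1 - gp k {x}) ψ, k x ((1 - gp k {x}) ψ)⟫_ℂ := by
    rw [← lt_sa hk ((1 - gp k {x}) ψ), h1, lt_sa hk, h1]
  rw [h2]
  generalize (1 - gp k {x}) ψ = φ
  have h3 := (Complex.re_le_norm _).trans (norm_inner_le_norm (𝕜 := ℂ) φ (k x φ))
  have h4 := (k x).le_of_opNorm_le hM φ
  nlinarith [norm_nonneg φ]

end Abs

section Mat
variable {n : Type} [Fintype n] [DecidableEq n]

theorem lt_inner (A : Matrix n n ℂ) (φ ψ : EuclideanSpace ℂ n) :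
    ⟪φ, toEuclideanCLM (n := n) (𝕜 := ℂ) A ψ⟫_ℂ = star φ.ofLp ⬝ᵥ A *ᵥ ψ.ofLp := by
  rw [EuclideanSpace.inner_eq_star_dotProduct, ofLp_toEuclideanCLM, dotProduct_comm]

omit [DecidableEq n] in
theorem lt_norm (φ : EuclideanSpace ℂ n) : (star φ.ofLp ⬝ᵥ φ.ofLp).re = ‖φ‖ ^ 2 := by
  rw [dotProduct_comm, ← EuclideanSpace.inner_eq_star_dotProduct, ← inner_self_eq_norm_sq (𝕜 := ℂ)]
  rfl

theorem lt_zero (A : Matrix n n ℂ) (ψ : EuclideanSpace ℂ n) :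
    toEuclideanCLM (n := n) (𝕜 := ℂ) A ψ = 0 ↔ A *ᵥ ψ.ofLp = 0 := by
  rw [← ofLp_toEuclideanCLM]
  exact (WithLp.ofLp_eq_zero 2).symm

omit [DecidableEq n] in
theorem lt_sum_ker {X : Type} {F : Finset X} {A : X → Matrix n n ℂ} (hA : ∀ x ∈ F, (A x).PosSemidef)
    {φ : n → ℂ} (h : (∑ x ∈ F, A x) *ᵥ φ = 0) : ∀ x ∈ F, A x *ᵥ φ = 0 := by
  classical
  have h1 : ∑ x ∈ F, star φ ⬝ᵥ A x *ᵥ φ = 0 := by
    rw [← dotProduct_sum, ← sum_mulVec, h, dotProduct_zero]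
  intro x hx
  exact (hA x hx).dotProduct_mulVec_zero_iff φ |>.1
    ((sum_eq_zero_iff_of_nonneg fun y hy => (hA y hy).dotProduct_mulVec_nonneg φ).1 h1 x hx)

theorem lt_star {A : Matrix n n ℂ} (hA : A.IsHermitian) :
    star (toEuclideanCLM (n := n) (𝕜 := ℂ) A) = toEuclideanCLM (n := n) (𝕜 := ℂ) A := by
  rw [← map_star, star_eq_conjTranspose, hA.eq]

theorem lt_gap {X : Type} {F : Finset X} {A : X → Matrix n n ℂ} (hA : ∀ x ∈ F, (A x).PosSemidef)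
    {M Δ : ℝ} (hM0 : 0 < M) (hM : ∀ x ∈ F, ‖toEuclideanCLM (n := n) (𝕜 := ℂ) (A x)‖ ≤ M)
    (hg : ∀ ψ : n → ℂ, (∀ φ, (∑ x ∈ F, A x) *ᵥ φ = 0 → star φ ⬝ᵥ ψ = 0) →
      Δ * (star ψ ⬝ᵥ ψ).re ≤ (star ψ ⬝ᵥ (∑ x ∈ F, A x) *ᵥ ψ).re)
    (p : X → EuclideanSpace ℂ n →L[ℂ] EuclideanSpace ℂ n)
    (hp : ∀ x, p x = 1 - gp (fun x => toEuclideanCLM (n := n) (𝕜 := ℂ) (A x)) {x})
    (ψ : EuclideanSpace ℂ n) : Δ / M * ‖ψ - gp p F ψ‖ ^ 2 ≤ ∑ x ∈ F, ‖p x ψ‖ ^ 2 := by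
  have h1 := hg (ψ - gp p F ψ).ofLp fun φ hφ => by
    have h2 : gp p F (WithLp.toLp 2 φ) = WithLp.toLp 2 φ := gp_apply_eq_iff.2 fun x hx => by
      rw [hp, lt_ker, lt_zero]
      exact lt_sum_ker hA hφ x hx
    have h3 : ⟪WithLp.toLp 2 φ, ψ - gp p F ψ⟫_ℂ = 0 := by
      rw [inner_sub_right, ← lt_sa (gp_proj p F).isSelfAdjoint.star_eq, h2, sub_self]
    rwa [EuclideanSpace.inner_eq_star_dotProduct, dotProduct_comm] at h3
  rw [lt_norm, sum_mulVec, dotProduct_sum, Complex.re_sum] at h1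
  rw [div_mul_eq_mul_div, div_le_iff₀ hM0, mul_comm _ M, mul_sum]
  refine h1.trans (sum_le_sum fun x hx => ?_)
  rw [← lt_inner]
  refine (lt_form (fun x => toEuclideanCLM (n := n) (𝕜 := ℂ) (A x)) (lt_star (hA x hx).1)
    (hM x hx) _).trans (le_of_eq ?_)
  rw [← hp, map_sub, ← mul_apply_eq_comp, mul_gp hx, _root_.zero_apply,
    sub_zero]

theorem lt_ground {X : Type} {F : Finset X} {h : X → Matrix n n ℂ} {m : X → ℝ} {Ω : n → ℂ} {Δ E₀ : ℝ}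
    (hΔ : 0 < Δ) (h1 : star Ω ⬝ᵥ Ω = 1) (h2 : (∑ x ∈ F, h x) *ᵥ Ω = (E₀ : ℂ) • Ω)
    (h3 : ((∑ x ∈ F, h x) - (E₀ : ℂ) • 1 - (Δ : ℂ) • (1 - vecMulVec Ω (star Ω))).PosSemidef)
    (h4 : ∀ x ∈ F, h x *ᵥ Ω = (m x : ℂ) • Ω) {φ : n → ℂ}
    (h5 : ∀ x ∈ F, h x *ᵥ φ = (m x : ℂ) • φ) : φ = (star Ω ⬝ᵥ φ) • Ω := by
  have hs : ∀ χ : n → ℂ, (∀ x ∈ F, h x *ᵥ χ = (m x : ℂ) • χ) →
      (∑ x ∈ F, h x) *ᵥ χ = (∑ x ∈ F, (m x : ℂ)) • χ := fun χ hχ => by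
    rw [sum_mulVec, sum_smul]
    exact sum_congr rfl hχ
  have hE : (E₀ : ℂ) = ∑ x ∈ F, (m x : ℂ) := by
    have := congrArg (star Ω ⬝ᵥ ·) (h2.symm.trans (hs Ω h4))
    simpa only [dotProduct_smul, h1, smul_eq_mul, mul_one] using this
  set χ := φ - (star Ω ⬝ᵥ φ) • Ω with hχ
  have e1 : star Ω ⬝ᵥ χ = 0 := by
    rw [hχ, dotProduct_sub, dotProduct_smul, h1, smul_eq_mul, mul_one, sub_self]
  have e2 := hs χ fun x hx => by
    rw [hχ, mulVec_sub, mulVec_smul, h4 x hx, h5 x hx, smul_sub, smul_comm]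
  have e3 := h3.dotProduct_mulVec_nonneg χ
  rw [sub_mulVec, sub_mulVec, e2, hE, smul_mulVec, one_mulVec, sub_self, smul_mulVec, sub_mulVec,
    one_mulVec, vecMulVec_mulVec, e1] at e3
  simp only [MulOpposite.op_zero, zero_smul, sub_zero, zero_sub, dotProduct_neg, dotProduct_smul,
    smul_eq_mul] at e3
  have e4 := (Complex.nonneg_iff.1 e3).1
  have e5 := lt_norm (WithLp.toLp 2 χ)
  rw [Complex.neg_re, Complex.re_ofReal_mul, e5] at e4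
  have e6 : ‖(WithLp.toLp 2 χ : EuclideanSpace ℂ n)‖ = 0 := by
    by_contra h0
    have := mul_pos hΔ (sq_pos_of_ne_zero h0)
    linarith
  rw [norm_eq_zero, WithLp.toLp_eq_zero, hχ, sub_eq_zero] at e6
  exact e6

end Mat

theorem lt_ball {L : ℕ} (R : ℕ) (x : Site L) :
    (univ.filter fun y => dist1 x y ≤ R).card ≤ (2 * R + 1) ^ 2 := by
  have h := card_le_card_of_injOn (s := univ.filter fun y : Site L => dist1 x y ≤ R)
    (t := Icc (-(R : ℤ)) R ×ˢ Icc (-(R : ℤ)) R)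
    (fun y => (((x.1 : ℕ) : ℤ) - (y.1 : ℕ), ((x.2 : ℕ) : ℤ) - (y.2 : ℕ))) (fun y hy => by
      have hy' := (mem_filter.1 (mem_coe.1 hy)).2
      rw [dist1] at hy'
      simp only [coe_product, coe_Icc, Set.mem_prod, Set.mem_Icc]
      omega) (fun y _ z _ hyz => by
      simp only [Prod.mk.injEq] at hyz
      exact Prod.ext (Fin.ext (by omega)) (Fin.ext (by omega)))
  rw [card_product, Int.card_Icc, show ((R : ℤ) + 1 - -(R : ℤ)).toNat = 2 * R + 1 by omega] at h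
  rwa [sq]

theorem lattice_area (q R C₀ : ℕ) (J Δ : ℝ) (hΔ : 0 < Δ) :
    ∃ (T : ℕ) (C : ℝ), 0 ≤ C ∧ ∀ (L : ℕ)
      (h : Finset (Site L) → Matrix (Site L → Fin q) (Site L → Fin q) ℂ)
      (m : Finset (Site L) → ℝ) (Ω : (Site L → Fin q) → ℂ), Admissible R J h →
      GroundGap (∑ X ∈ terms L R, h X) Ω Δ → FrustrationFree R h m Ω →
      ∀ (σ τ : Site L → ℕ) (n : ℕ),
      (∀ x y, σ x ≤ σ y + dist1 x y ∧ τ x ≤ τ y + dist1 x y) → (∀ x, σ x ≤ n) →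
      (∀ s t, 1 ≤ t → t ≤ T → (univ.filter fun x => σ x = s ∧ τ x = t).card ≤ C₀) →
      (∀ a b, GapAboveKernel (restr R h m (univ.filter fun x => a ≤ σ x ∧ σ x < b)) Δ) →
      entropy (univ.filter fun x => τ x = 0) Ω ≤ C * (n + 1) := by
  have hn : ∀ (L : ℕ) (Ω : (Site L → Fin q) → ℂ), star Ω ⬝ᵥ Ω = 1 →
      ‖(WithLp.toLp 2 Ω : Hs (Site L) q)‖ = 1 := by
    intro L Ω h1
    have := lt_norm (WithLp.toLp 2 Ω : Hs (Site L) q)
    rw [h1, Complex.one_re] at this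
    exact (pow_eq_one_iff_of_nonneg (norm_nonneg _) two_ne_zero).1 this.symm
  rcases Nat.eq_zero_or_pos q with rfl | hq
  · refine ⟨0, 0, le_rfl, fun L h m Ω _ hG _ σ τ n _ _ _ _ => ?_⟩
    rw [zero_mul]
    refine entropy_le_zero _ (WithLp.toLp 2 Ω) (hn L Ω hG.1) ⟨⊤, ?_, fun _ => Submodule.mem_top⟩
    rw [finrank_top, finrank_euclideanSpace]
    exact_mod_cast Fintype.card_le_one_iff_subsingleton.2 inferInstance
  have hM0 : 0 < 2 * |J| + 1 := by positivity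
  obtain ⟨T, C, hC, H⟩ := abstract_area q R ((2 * R + 1) ^ 2) (2 ^ (2 * R + 1) ^ 2) C₀ hq
    (div_pos hΔ hM0)
  refine ⟨T, C, hC, fun L h m Ω hA hG hF σ τ n h1 h2 h3 h4 => ?_⟩
  obtain ⟨g1, E₀, g2, g3⟩ := hG
  have hΩ := hn L Ω g1
  let A : Finset (Site L) → Matrix (Site L → Fin q) (Site L → Fin q) ℂ := fun X => h X - (m X : ℂ) • 1
  let k : Finset (Site L) → Op (Site L) q := fun X => toEuclideanCLM (n := Site L → Fin q) (𝕜 := ℂ) (A X)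
  have hk : ∀ X, k X = toEuclideanCLM (n := Site L → Fin q) (𝕜 := ℂ) (h X) - (m X : ℂ) • 1 := by
    intro X
    simp only [k, A, map_sub, map_smul, map_one]
  have hk0 : ∀ X (ψ : Hs (Site L) q), (1 - gp k {X}) ψ = 0 ↔ h X *ᵥ ψ.ofLp = (m X : ℂ) • ψ.ofLp := by
    intro X ψ
    rw [lt_ker, lt_zero, sub_mulVec, smul_mulVec, one_mulVec, sub_eq_zero]
  have hM : ∀ X ∈ terms L R, ‖k X‖ ≤ 2 * |J| + 1 := by
    intro X hX
    have e1 := (hA X hX).2.2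
    have e2 := (toEuclideanCLM (n := Site L → Fin q) (𝕜 := ℂ) (h X)).le_of_opNorm_le e1
      (WithLp.toLp 2 Ω)
    rw [toEuclideanCLM_toLp, (hF X hX).2, WithLp.toLp_smul, norm_smul, hΩ] at e2
    have e3 : ‖((m X : ℂ) • 1 : Op (Site L) q)‖ ≤ ‖(m X : ℂ)‖ * 1 := by
      rw [norm_smul]
      exact mul_le_mul_of_nonneg_left ContinuousLinearMap.norm_id_le (norm_nonneg _)
    rw [hk]
    have := le_abs_self J
    linarith [norm_sub_le (toEuclideanCLM (n := Site L → Fin q) (𝕜 := ℂ) (h X))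
      ((m X : ℂ) • 1 : Op (Site L) q)]
  have hsub : ∀ x, ∀ X ∈ terms L R, x ∈ X → X ⊆ univ.filter fun y => dist1 x y ≤ R :=
    fun x X hX hx y hy => mem_filter.2 ⟨mem_univ _, (mem_filter.1 hX).2.2 x hx y hy⟩
  refine H (Site L) (terms L R) (fun X => 1 - gp k {X}) σ τ n (WithLp.toLp 2 Ω)
    (fun X => (gp_proj k {X}).one_sub) (fun X hX => ⟨?_, ?_, (mem_filter.1 hX).2.1, ?_⟩)
    (fun x => ?_) h2 h3 (fun a b ψ => ?_) hΩ fun ψ => ?_
  · have e1 : k X ∈ loc X := by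
      rw [hk]
      exact sub_mem (hA X hX).2.1.mem_loc (SMulMemClass.smul_mem _ (one_mem _))
    refine sub_mem (one_mem _) (mem_loc.2 fun y hy i j => commute_gp (fun Y hY => ?_) fun Y hY => ?_)
    · rw [mem_singleton.1 hY]
      exact lt_star (hF X hX).1.1
    · rw [mem_singleton.1 hY]
      exact mem_loc.1 e1 y hy i j
  · obtain ⟨x, hx⟩ := (mem_filter.1 hX).2.1
    exact (card_le_card (hsub x X hX hx)).trans (lt_ball R x)
  · intro x hx y hy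
    have e1 := (mem_filter.1 hX).2.2 x hx y hy
    have e2 := h1 x y
    omega
  · refine (card_le_card (t := (univ.filter fun y => dist1 x y ≤ R).powerset) fun X hX => ?_).trans ?_
    · exact mem_powerset.2 (hsub x X (mem_filter.1 hX).1 (mem_filter.1 hX).2)
    · rw [card_powerset]
      exact Nat.pow_le_pow_right two_pos (lt_ball R x)
  · have e1 : (terms L R).filter (· ⊆ univ.filter fun x => a ≤ σ x ∧ σ x < b) =
        (terms L R).filter fun X => ∀ x ∈ X, a ≤ σ x ∧ σ x < b := by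
      refine filter_congr fun X _ => ?_
      simp [subset_iff]
    have e2 := h4 a b
    rw [restr, e1] at e2
    exact lt_gap (A := A) (fun X hX => (hF X (mem_filter.1 hX).1).1) hM0
      (fun X hX => hM X (mem_filter.1 hX).1) e2 _ (fun _ => rfl) ψ
  · have e1 : gp (fun X => 1 - gp k {X}) (terms L R) (WithLp.toLp 2 Ω) = WithLp.toLp 2 Ω :=
      gp_apply_eq_iff.2 fun X hX => (hk0 X _).2 (hF X hX).2
    have e2 := lt_ground hΔ g1 g2 g3 (fun X hX => (hF X hX).2)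
      (φ := (gp (fun X => 1 - gp k {X}) (terms L R) ψ).ofLp) fun X hX => (hk0 X _).1 (by
        rw [← mul_apply_eq_comp, mul_gp (p := fun X => 1 - gp k {X}) hX,
          _root_.zero_apply])
    rw [← e1, lt_sa (gp_proj _ _).isSelfAdjoint.star_eq, e1, EuclideanSpace.inner_eq_star_dotProduct,
      dotProduct_comm]
    exact WithLp.ofLp_injective 2 e2

end Vale.Agent.P356
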