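import Vale.Agent.P356.Base

/-! Local operators. -/

set_option linter.unusedSectionVars false

namespace Vale.Agent.P356

open Finset
open scoped InnerProductSpace

variable {ι : Type} [Fintype ι] [DecidableEq ι] {q : ℕ}

theorem lc_clm_apply (M : Matrix (ι → Fin q) (ι → Fin q) ℂ) (ψ : Hs ι q) (σ : ι → Fin q) :
    Matrix.toEuclideanCLM (n := ι → Fin q) (𝕜 := ℂ) M ψ σ = ∑ τ, M σ τ * ψ τ := by
  simp [Matrix.mulVec, dotProduct]

theorem lc_iff (x : ι) (i j : Fin q) (ρ τ : ι → Fin q) :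
    (ρ x = i ∧ τ = Function.update ρ x j) ↔ (τ x = j ∧ ρ = Function.update τ x i) := by
  constructor
  · rintro ⟨rfl, rfl⟩
    simp
  · rintro ⟨rfl, rfl⟩
    simp

theorem eu_apply (x : ι) (i j : Fin q) (ψ : Hs ι q) (σ : ι → Fin q) :
    eu x i j ψ σ = if σ x = i then ψ (Function.update σ x j) else 0 := by
  unfold eu
  rw [lc_clm_apply]
  by_cases h : σ x = i
  · simp [h]
  · simp [h]

theorem star_eu (x : ι) (i j : Fin q) : star (eu x i j : Op ι q) = eu x j i := by
  unfold eu
  rw [← map_star]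
  congr 1
  ext σ τ
  simp only [Matrix.star_apply, Matrix.of_apply]
  rw [if_congr (lc_iff x i j τ σ) rfl rfl]
  split_ifs <;> simp

theorem mem_loc {S : Finset ι} {a : Op ι q} :
    a ∈ loc S ↔ ∀ x ∉ S, ∀ i j, Commute (eu x i j) a := by
  unfold loc
  rw [StarSubalgebra.mem_centralizer_iff]
  constructor
  · intro h x hx i j
    exact (h _ ⟨x, hx, i, j, rfl⟩).1
  · rintro h _ ⟨x, hx, i, j, rfl⟩
    refine ⟨h x hx i j, ?_⟩
    rw [star_eu]
    exact h x hx j i

theorem loc_mono {S S' : Finset ι} (h : S ⊆ S') {a : Op ι q} (ha : a ∈ loc S) : a ∈ loc S' :=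
  mem_loc.2 fun x hx i j => mem_loc.1 ha x (fun hs => hx (h hs)) i j

theorem sp_mono {A A' : Finset ι} {G G' : Finset (Op ι q)} (h : A ⊆ A') (h' : G ⊆ G') :
    sp A G ≤ sp A' G' := by
  refine Submodule.span_mono ?_
  rintro _ ⟨a, ha, g, hg, rfl⟩
  exact ⟨a, loc_mono h ha, g, h' hg, rfl⟩

theorem mem_sp {A : Finset ι} {G : Finset (Op ι q)} {a g : Op ι q} (ha : a ∈ loc A) (hg : g ∈ G) :
    a * g ∈ sp A G :=
  Submodule.subset_span ⟨a, ha, g, hg, rfl⟩

theorem mul_mem_sp {A : Finset ι} {G : Finset (Op ι q)} {a z : Op ι q} (ha : a ∈ loc A)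
    (hz : z ∈ sp A G) : a * z ∈ sp A G := by
  induction hz using Submodule.span_induction with
  | mem z hz =>
    obtain ⟨b, hb, g, hg, rfl⟩ := hz
    rw [← mul_assoc]
    exact mem_sp (mul_mem ha hb) hg
  | zero => rw [mul_zero]; exact zero_mem _
  | add z w _ _ hz hw => rw [mul_add]; exact add_mem hz hw
  | smul c z _ hz => rw [mul_smul_comm]; exact Submodule.smul_mem _ c hz

theorem mem_sp_iff {A : Finset ι} {G : Finset (Op ι q)} {z : Op ι q} :
    z ∈ sp A G ↔ ∃ c : Op ι q → Op ι q, (∀ g, c g ∈ loc A) ∧ z = ∑ g ∈ G, c g * g := by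
  classical
  constructor
  · intro hz
    induction hz using Submodule.span_induction with
    | mem z hz =>
      obtain ⟨b, hb, g, hg, rfl⟩ := hz
      refine ⟨fun g' => if g' = g then b else 0, fun g' => ?_, ?_⟩
      · by_cases h : g' = g
        · simpa [h] using hb
        · simp only [h, if_false]
          exact zero_mem _
      · rw [Finset.sum_eq_single g]
        · simp
        · intro g' _ h
          simp [h]
        · intro h
          exact absurd hg h
    | zero => exact ⟨fun _ => 0, fun _ => zero_mem _, by simp⟩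
    | add z w _ _ hz hw =>
      obtain ⟨c, hc, rfl⟩ := hz
      obtain ⟨c', hc', rfl⟩ := hw
      refine ⟨fun g => c g + c' g, fun g => add_mem (hc g) (hc' g), ?_⟩
      simp only [add_mul, Finset.sum_add_distrib]
    | smul t z _ hz =>
      obtain ⟨c, hc, rfl⟩ := hz
      refine ⟨fun g => t • c g, fun g => (loc A).smul_mem (hc g) t, ?_⟩
      simp only [smul_mul_assoc, Finset.smul_sum]
  · rintro ⟨c, hc, rfl⟩
    exact Submodule.sum_mem _ fun g hg => mem_sp (hc g) hg

theorem lc_mul (x : ι) (i j k l : Fin q) :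
    (eu x i j * eu x k l : Op ι q) = if j = k then eu x i l else 0 := by
  ext ψ σ
  by_cases h : j = k
  · simp [eu_apply, h]
  · simp [eu_apply, h]

theorem lc_sum (x : ι) : (∑ i, eu x i i : Op ι q) = 1 := by
  ext ψ σ
  simp [eu_apply]

theorem lc_comm {x y : ι} (h : x ≠ y) (i j k l : Fin q) :
    Commute (eu x i j : Op ι q) (eu y k l) := by
  unfold Commute SemiconjBy
  ext ψ σ
  simp only [mul_apply_eq_comp, eu_apply, Function.update_of_ne h,
    Function.update_of_ne h.symm, Function.update_comm h]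
  split_ifs <;> rfl

theorem lc_right {A : Finset ι} {G G' : Finset (Op ι q)} {z e : Op ι q}
    (h : ∀ g ∈ G, g * e ∈ G') (hz : z ∈ sp A G) : z * e ∈ sp A G' := by
  obtain ⟨c, hc, rfl⟩ := mem_sp_iff.1 hz
  rw [Finset.sum_mul]
  refine Submodule.sum_mem _ fun g hg => ?_
  rw [mul_assoc]
  exact mem_sp (hc g) (h g hg)

theorem lc_left_sum (x : ι) (m n i j : Fin q) (a : Op ι q) :
    eu x m n * ∑ k, eu x k i * a * eu x j k = eu x m i * a * eu x j n := by
  rw [Finset.mul_sum, Finset.sum_eq_single n]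
  · rw [← mul_assoc, ← mul_assoc, lc_mul, if_pos rfl]
  · intro k _ hk
    rw [← mul_assoc, ← mul_assoc, lc_mul, if_neg (Ne.symm hk), zero_mul, zero_mul]
  · intro h
    exact absurd (Finset.mem_univ _) h

theorem lc_right_sum (x : ι) (m n i j : Fin q) (a : Op ι q) :
    (∑ k, eu x k i * a * eu x j k) * eu x m n = eu x m i * a * eu x j n := by
  rw [Finset.sum_mul, Finset.sum_eq_single m]
  · rw [mul_assoc _ (eu x j m), lc_mul, if_pos rfl]
  · intro k _ hk
    rw [mul_assoc _ (eu x j k), lc_mul, if_neg hk, mul_zero]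
  · intro h
    exact absurd (Finset.mem_univ _) h

theorem lc_units (B : Finset ι) : ∃ G : Finset (Op ι q), G.card ≤ q ^ (2 * B.card) ∧
    (∀ g ∈ G, ∀ b : Op ι q, (∀ x ∈ B, ∀ i j, Commute (eu x i j) b) → Commute g b) ∧
    ∀ S a, a ∈ loc S → a ∈ sp (S \ B) G := by
  classical
  induction B using Finset.induction_on with
  | empty =>
    refine ⟨{1}, by simp, ?_, ?_⟩
    · intro g hg b _
      rw [Finset.mem_singleton.1 hg]
      exact Commute.one_left b
    · intro S a ha
      have := mem_sp (G := {1}) ha (Finset.mem_singleton_self (1 : Op ι q))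
      simpa using this
  | insert x B hx ih =>
    obtain ⟨G, hc, hG, hs⟩ := ih
    refine ⟨(G ×ˢ (univ : Finset (Fin q × Fin q))).image fun p => p.1 * eu x p.2.1 p.2.2,
      ?_, ?_, ?_⟩
    · refine Finset.card_image_le.trans ?_
      rw [Finset.card_product, Finset.card_univ, Fintype.card_prod, Fintype.card_fin,
        Finset.card_insert_of_notMem hx, mul_add, pow_add, mul_one, sq]
      exact Nat.mul_le_mul_right _ hc
    · intro g hg b hb
      obtain ⟨p, hp, rfl⟩ := Finset.mem_image.1 hg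
      exact Commute.mul_left
        (hG _ (Finset.mem_product.1 hp).1 b fun y hy => hb y (Finset.mem_insert_of_mem hy))
        (hb x (Finset.mem_insert_self _ _) _ _)
    · intro S a ha
      have e : a = ∑ i, ∑ j, (∑ k, eu x k i * a * eu x j k) * eu x i j := by
        simp only [lc_right_sum]
        simp only [← Finset.mul_sum, ← Finset.sum_mul, lc_sum, one_mul, mul_one]
      have e2 : S \ insert x B = S.erase x \ B := by
        ext y
        simp only [Finset.mem_sdiff, Finset.mem_insert, Finset.mem_erase]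
        tauto
      rw [e, e2]
      refine Submodule.sum_mem _ fun i _ => Submodule.sum_mem _ fun j _ => ?_
      refine lc_right (G := G) (fun g hg => Finset.mem_image.2 ⟨(g, i, j), ?_, rfl⟩) (hs _ _ ?_)
      · exact Finset.mem_product.2 ⟨hg, Finset.mem_univ _⟩
      · rw [mem_loc]
        intro y hy m n
        by_cases hyx : y = x
        · subst hyx
          unfold Commute SemiconjBy
          rw [lc_left_sum, lc_right_sum]
        · have hyS : y ∉ S := fun h => hy (Finset.mem_erase.2 ⟨hyx, h⟩)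
          exact Commute.sum_right _ _ _ fun k _ =>
            ((lc_comm hyx _ _ _ _).mul_right (mem_loc.1 ha y hyS m n)).mul_right
              (lc_comm hyx _ _ _ _)

theorem lc_inv {f : (ι → Fin q) → ℂ} {B : Finset ι}
    (h : ∀ x ∈ B, ∀ σ j, f (Function.update σ x j) = f σ) {σ τ : ι → Fin q}
    (hst : ∀ x ∉ B, σ x = τ x) : f σ = f τ := by
  have key : ∀ s : Finset ι, s ⊆ B → f (s.piecewise τ σ) = f σ := by
    intro s
    induction s using Finset.induction_on with
    | empty => intro _; simp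
    | insert x s _ ih =>
      intro hs
      rw [Finset.piecewise_insert, h x (hs (Finset.mem_insert_self _ _))]
      exact ih fun y hy => hs (Finset.mem_insert_of_mem hy)
  rw [← key B (Finset.Subset.refl _)]
  congr 1
  funext y
  by_cases hy : y ∈ B
  · simp [hy]
  · simp [hy, hst y hy]

theorem lc_const {X : Type*} (f : X → ℂ) (h : ∀ a b, f a = f b) : ∃ κ, ∀ a, f a = κ := by
  rcases isEmpty_or_nonempty X with hX | ⟨⟨a₀⟩⟩
  · exact ⟨0, fun a => hX.elim a⟩
  · exact ⟨f a₀, fun a => h a a₀⟩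

theorem lc_scalar {c : Op ι q} (hc : c ∈ loc (∅ : Finset ι)) : ∃ κ : ℂ, c = κ • 1 := by
  have hcm : ∀ x i j (ψ : Hs ι q), c (eu x i j ψ) = eu x i j (c ψ) := fun x i j ψ => by
    have := (mem_loc.1 hc x (Finset.notMem_empty x) i j).eq
    exact (DFunLike.congr_fun this ψ).symm
  have h0 : ∀ σ τ : ι → Fin q, σ ≠ τ → c (EuclideanSpace.single τ 1) σ = 0 := by
    intro σ τ hne
    obtain ⟨x, hx⟩ := Function.ne_iff.1 hne
    have e : eu x (τ x) (τ x) (EuclideanSpace.single τ (1 : ℂ)) = EuclideanSpace.single τ 1 := by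
      ext ρ
      rw [eu_apply]
      by_cases h : ρ x = τ x
      · rw [if_pos h, ← h, Function.update_eq_self]
      · rw [if_neg h]
        have : ρ ≠ τ := fun h' => h (by rw [h'])
        simp [this]
    rw [← e, hcm, eu_apply, if_neg hx]
  have h1 : ∀ x ∈ (univ : Finset ι), ∀ (σ : ι → Fin q) j,
      c (EuclideanSpace.single (Function.update σ x j) 1) (Function.update σ x j) =
        c (EuclideanSpace.single σ 1) σ := by
    intro x _ σ j
    have e : eu x (σ x) j (EuclideanSpace.single (Function.update σ x j) (1 : ℂ)) =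
        EuclideanSpace.single σ 1 := by
      ext ρ
      rw [eu_apply]
      by_cases h : ρ = σ
      · subst h
        simp
      · by_cases h2 : ρ x = σ x
        · have : Function.update ρ x j ≠ Function.update σ x j := by
            intro h3
            apply h
            funext y
            by_cases hy : y = x
            · rw [hy, h2]
            · simpa [Function.update_of_ne hy] using congrFun h3 y
          simp [h, h2, this]
        · simp [h, h2]
    rw [← e, hcm, eu_apply, if_pos rfl]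
  obtain ⟨κ, hκ⟩ := lc_const (fun σ : ι → Fin q => c (EuclideanSpace.single σ 1) σ)
    fun σ τ => lc_inv (f := fun σ : ι → Fin q => c (EuclideanSpace.single σ 1) σ) h1
      fun x hx => absurd (Finset.mem_univ x) hx
  refine ⟨κ, ?_⟩
  ext ψ σ
  have e : ψ = ∑ τ, ψ τ • EuclideanSpace.single τ (1 : ℂ) := by
    ext ρ
    simp [Pi.single_apply]
  have e2 : c ψ σ = ∑ τ, ψ τ * c (EuclideanSpace.single τ 1) σ := by
    conv_lhs => rw [e]
    simp
  rw [e2, Finset.sum_eq_single σ]
  · rw [hκ σ]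
    simp [mul_comm]
  · intro τ _ hτ
    rw [h0 σ τ (Ne.symm hτ), mul_zero]
  · intro h
    exact absurd (Finset.mem_univ _) h

theorem exists_units (B : Finset ι) : ∃ G : Finset (Op ι q), G.card ≤ q ^ (2 * B.card) ∧
    (∀ g ∈ G, g ∈ loc B) ∧ ∀ S a, a ∈ loc S → a ∈ sp (S \ B) G := by
  obtain ⟨G, h1, h2, h3⟩ := lc_units (q := q) B
  refine ⟨G, h1, fun g hg => mem_loc.2 fun y hy i j => (h2 g hg _ fun x hx k l => ?_).symm, h3⟩
  exact lc_comm (fun h : x = y => hy (h ▸ hx)) _ _ _ _

theorem commute_of_disjoint {S S' : Finset ι} (h : Disjoint S S') {a b : Op ι q}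
    (ha : a ∈ loc S) (hb : b ∈ loc S') : Commute a b := by
  obtain ⟨G, -, h2, h3⟩ := lc_units (q := q) S
  have h4 := h3 S a ha
  rw [Finset.sdiff_self] at h4
  obtain ⟨c, hc, rfl⟩ := mem_sp_iff.1 h4
  refine Commute.sum_left _ _ _ fun g hg => Commute.mul_left ?_ (h2 g hg b fun x hx i j => ?_)
  · obtain ⟨κ, hκ⟩ := lc_scalar (hc g)
    rw [hκ]
    exact (Commute.one_left b).smul_left κ
  · exact mem_loc.1 hb x (Finset.disjoint_left.1 h hx) i j

theorem mul_mem_sp_of {A : Finset ι} {G G' G'' : Finset (Op ι q)} (hG : ∀ g ∈ G, g ∈ loc Aᶜ)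
    (h : ∀ g ∈ G, ∀ g' ∈ G', g * g' ∈ G'') {z z' : Op ι q} (hz : z ∈ sp A G) (hz' : z' ∈ sp A G') :
    z * z' ∈ sp A G'' := by
  obtain ⟨c, hc, rfl⟩ := mem_sp_iff.1 hz
  obtain ⟨c', hc', rfl⟩ := mem_sp_iff.1 hz'
  rw [Finset.sum_mul_sum]
  refine Submodule.sum_mem _ fun g hg => Submodule.sum_mem _ fun g' hg' => ?_
  have e : c g * g * (c' g' * g') = c g * c' g' * (g * g') := by
    have := (commute_of_disjoint disjoint_compl_right (hc' g') (hG g hg)).eq
    rw [mul_assoc, ← mul_assoc g, ← this, mul_assoc, mul_assoc]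
  rw [e]
  exact mem_sp (mul_mem (hc g) (hc' g')) (h g hg g' hg')

theorem ActsOn.mem_loc {X : Finset ι} {h : Matrix (ι → Fin q) (ι → Fin q) ℂ} (hh : ActsOn X h) :
    Matrix.toEuclideanCLM (n := ι → Fin q) (𝕜 := ℂ) h ∈ loc X := by
  obtain ⟨a, ha⟩ := hh
  rw [Vale.Agent.P356.mem_loc]
  intro x hx i j
  unfold eu
  refine Commute.map ?_ _
  unfold Commute SemiconjBy
  ext σ τ
  have e1 : ((Matrix.of fun σ σ' : ι → Fin q =>
      if σ x = i ∧ σ' = Function.update σ x j then (1 : ℂ) else 0) * h) σ τ =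
      if σ x = i then h (Function.update σ x j) τ else 0 := by
    rw [Matrix.mul_apply]
    by_cases hs : σ x = i
    · simp [hs]
    · simp [hs]
  have e2 : (h * (Matrix.of fun σ σ' : ι → Fin q =>
      if σ x = i ∧ σ' = Function.update σ x j then (1 : ℂ) else 0)) σ τ =
      if τ x = j then h σ (Function.update τ x i) else 0 := by
    rw [Matrix.mul_apply]
    simp only [Matrix.of_apply, lc_iff x i j _ τ]
    by_cases hs : τ x = j
    · simp [hs]
    · simp [hs]
  rw [e1, e2]
  have r : ∀ (ρ : ι → Fin q) (k : Fin q),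
      (fun y : X => Function.update ρ x k y) = fun y : X => ρ y := by
    intro ρ k
    funext y
    exact Function.update_of_ne (fun e : (y : ι) = x => hx (e ▸ y.2)) _ _
  by_cases h1 : σ x = i
  · by_cases h2 : τ x = j
    · rw [if_pos h1, if_pos h2, ha, ha, r, r]
      refine if_congr (forall_congr' fun y => forall_congr' fun _ => ?_) rfl rfl
      by_cases hy : y = x
      · subst hy
        simp [h1, h2]
      · simp [Function.update_of_ne hy]
    · rw [if_pos h1, if_neg h2, ha, if_neg]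
      intro h3
      apply h2
      simpa using (h3 x hx).symm
  · by_cases h2 : τ x = j
    · rw [if_neg h1, if_pos h2, ha, if_neg]
      intro h3
      apply h1
      simpa using h3 x hx
    · rw [if_neg h1, if_neg h2]

theorem Cov.mono {A : Finset ι} {r r' : ℝ} {U U' : Set (Op ι q)} (h : Cov A r U) (hr : r ≤ r')
    (hU : U' ⊆ U) : Cov A r' U' := by
  obtain ⟨G, h1, h2, h3⟩ := h
  exact ⟨G, h1.trans hr, h2, hU.trans h3⟩

theorem Cov.shift {A A' : Finset ι} {r : ℝ} {U : Set (Op ι q)} (h : Cov A' r U) (hA : A ⊆ A') :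
    Cov A ((q : ℝ) ^ (2 * (A' \ A).card) * r) U := by
  classical
  obtain ⟨G, h1, h2, h3⟩ := h
  obtain ⟨G₀, k1, k2, k3⟩ := exists_units (q := q) (A' \ A)
  refine ⟨Finset.image₂ (· * ·) G₀ G, ?_, ?_, ?_⟩
  · have c1 : ((Finset.image₂ (· * ·) G₀ G).card : ℝ) ≤ (G₀.card : ℝ) * G.card := by
      exact_mod_cast Finset.card_image₂_le _ _ _
    have c2 : (G₀.card : ℝ) ≤ (q : ℝ) ^ (2 * (A' \ A).card) := by exact_mod_cast k1
    exact c1.trans (mul_le_mul c2 h1 (Nat.cast_nonneg _) (by positivity))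
  · intro g hg
    obtain ⟨u, hu, g', hg', rfl⟩ := Finset.mem_image₂.1 hg
    refine mul_mem (loc_mono ?_ (k2 u hu)) (loc_mono (Finset.compl_subset_compl.2 hA) (h2 g' hg'))
    intro y hy
    exact Finset.mem_compl.2 (Finset.mem_sdiff.1 hy).2
  · intro z hz
    obtain ⟨c, hc, rfl⟩ := mem_sp_iff.1 (h3 hz)
    refine Submodule.sum_mem _ fun g hg => ?_
    refine lc_right (G := G₀) (fun u hu => Finset.mem_image₂.2 ⟨u, hu, g, hg, rfl⟩) ?_
    refine sp_mono ?_ (Finset.Subset.refl _) (k3 A' _ (hc g))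
    intro y hy
    simp only [Finset.mem_sdiff, not_and, not_not] at hy
    exact hy.2 hy.1

theorem Cov.span_iUnion {A : Finset ι} {r : ℝ} {J : Type*} (s : Finset J) {U : J → Set (Op ι q)}
    (h : ∀ j ∈ s, Cov A r (U j)) :
    Cov A (s.card * r) (↑(Submodule.span ℂ (⋃ j ∈ s, U j)) : Set (Op ι q)) := by
  classical
  choose! G h1 h2 h3 using h
  refine ⟨s.biUnion G, ?_, ?_, ?_⟩
  · have c1 : ((s.biUnion G).card : ℝ) ≤ ∑ j ∈ s, ((G j).card : ℝ) := by
      exact_mod_cast Finset.card_biUnion_le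
    refine c1.trans ((Finset.sum_le_sum h1).trans ?_)
    rw [Finset.sum_const, nsmul_eq_mul]
  · intro g hg
    obtain ⟨j, hj, hg⟩ := Finset.mem_biUnion.1 hg
    exact h2 j hj g hg
  · refine SetLike.coe_subset_coe.2 (Submodule.span_le.2 ?_)
    intro z hz
    obtain ⟨j, hj, hz⟩ := Set.mem_iUnion₂.1 hz
    exact sp_mono (Finset.Subset.refl _) (Finset.subset_biUnion_of_mem G hj) (h3 j hj hz)

theorem lc_prod {B : Finset ι} {a : Op ι q} (ha : a ∈ loc B) {v c : (ι → Fin q) → ℂ}
    (hv : ∀ x ∈ Bᶜ, ∀ σ j, v (Function.update σ x j) = v σ)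
    (hc : ∀ x ∈ B, ∀ σ j, c (Function.update σ x j) = c σ) {ψ : Hs ι q}
    (hψ : ∀ σ, ψ σ = v σ * c σ) :
    ∃ v' : (ι → Fin q) → ℂ, (∀ x ∈ Bᶜ, ∀ σ j, v' (Function.update σ x j) = v' σ) ∧
      ∀ σ, a ψ σ = v' σ * c σ := by
  obtain ⟨M, hM⟩ : ∃ M : Op ι q, ∀ (ξ : Hs ι q) σ, M ξ σ = ξ σ * c σ := by
    refine ⟨Matrix.toEuclideanCLM (n := ι → Fin q) (𝕜 := ℂ) (Matrix.diagonal c), fun ξ σ => ?_⟩
    rw [lc_clm_apply]
    simp [Matrix.diagonal_apply, mul_comm]
  have hMl : M ∈ loc Bᶜ := by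
    rw [mem_loc]
    intro x hx i j
    have hxB : x ∈ B := by simpa using hx
    unfold Commute SemiconjBy
    ext ξ σ
    simp only [mul_apply_eq_comp, eu_apply, hM, hc x hxB]
    split_ifs <;> simp
  obtain ⟨w, hw⟩ : ∃ w : Hs ι q, ∀ σ, w σ = v σ := ⟨WithLp.toLp 2 v, fun _ => rfl⟩
  have e : ψ = M w := by
    ext σ
    rw [hM, hw, hψ]
  refine ⟨fun σ => a w σ, ?_, fun σ => ?_⟩
  · intro x hx σ j
    have hs : ∀ (ξ : Hs ι q) ρ, (∑ i, eu x i j : Op ι q) ξ ρ = ξ (Function.update ρ x j) := by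
      intro ξ ρ
      simp [eu_apply]
    have hcm : Commute (∑ i, eu x i j : Op ι q) a :=
      Commute.sum_left _ _ _ fun i _ => mem_loc.1 ha x (Finset.mem_compl.1 hx) i j
    have e3 : (∑ i, eu x i j : Op ι q) w = w := by
      ext ρ
      rw [hs, hw, hw, hv x hx]
    have e4 := DFunLike.congr_fun hcm.eq w
    simp only [mul_apply_eq_comp] at e4
    rw [e3] at e4
    show a w (Function.update σ x j) = a w σ
    rw [← hs, e4]
  · have e4 := DFunLike.congr_fun (commute_of_disjoint disjoint_compl_right ha hMl).eq w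
    simp only [mul_apply_eq_comp] at e4
    rw [e, e4, hM]

theorem rankLe_of_cov {A : Finset ι} {r : ℝ} {K : Op ι q} (h : Cov A r {K}) {φ : Hs ι q}
    (v : (A → Fin q) → ℂ) (c : ({x // x ∉ A} → Fin q) → ℂ)
    (hφ : ∀ α β, φ (glue A α β) = v α * c β) : RankLe A r (K φ) := by
  classical
  obtain ⟨G, h1, h2, h3⟩ := h
  obtain ⟨a, ha, hK⟩ := mem_sp_iff.1 (h3 (Set.mem_singleton K))
  have hφ' : ∀ σ : ι → Fin q, φ σ = c (fun y => σ y) * v (fun y => σ y) := by
    intro σ
    rw [mul_comm, ← hφ]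
    refine congrArg (fun ρ => φ ρ) ?_
    funext y
    unfold glue
    split_ifs <;> rfl
  have hv : ∀ x ∈ Aᶜ, ∀ (σ : ι → Fin q) j,
      v (fun y => Function.update σ x j y) = v (fun y => σ y) := by
    intro x hx σ j
    congr 1
    funext y
    exact Function.update_of_ne (fun e : (y : ι) = x => Finset.mem_compl.1 hx (e ▸ y.2)) _ _
  have hc : ∀ x ∈ Aᶜᶜ, ∀ (σ : ι → Fin q) j,
      c (fun y => Function.update σ x j y) = c (fun y => σ y) := by
    intro x hx σ j
    congr 1
    funext y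
    rw [compl_compl] at hx
    exact Function.update_of_ne (fun e : (y : ι) = x => y.2 (e ▸ hx)) _ _
  have key : ∀ g ∈ G, ∃ w : EuclideanSpace ℂ (A → Fin q), ∀ β, ∃ κ : ℂ,
      col A (a g (g φ)) β = κ • w := by
    intro g hg
    obtain ⟨c', hc', e1⟩ := lc_prod (h2 g hg) (v := fun σ => c fun y => σ y)
      (c := fun σ => v fun y => σ y) hc hv hφ'
    rw [compl_compl] at hc'
    obtain ⟨v', hv', e2⟩ := lc_prod (ha g) (v := fun σ => v fun y => σ y) (c := c') hv hc'
      (ψ := g φ) fun σ => by rw [e1, mul_comm]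
    have k1 : ∀ α : A → Fin q, ∃ κ, ∀ β, v' (glue A α β) = κ := fun α =>
      lc_const _ fun β β' => lc_inv hv' fun x hx => by
        have hx' : x ∈ A := by simpa using hx
        simp [glue, hx']
    choose w hw using k1
    refine ⟨WithLp.toLp 2 w, fun β => ?_⟩
    obtain ⟨κ, hκ⟩ := lc_const (fun α : A → Fin q => c' (glue A α β)) fun α α' =>
      lc_inv hc' fun x hx => by simp [glue, hx]
    refine ⟨κ, ?_⟩
    ext α
    have := hκ α
    simp only [col] at this ⊢
    rw [e2, hw, this]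
    simp [mul_comm]
  choose! w hw using key
  refine ⟨Submodule.span ℂ (↑(G.image w) : Set (EuclideanSpace ℂ (A → Fin q))), ?_, fun β => ?_⟩
  · have c1 := (finrank_span_finset_le_card (R := ℂ) (G.image w)).trans Finset.card_image_le
    unfold Set.finrank at c1
    exact le_trans (by exact_mod_cast c1) h1
  · have e : col A (K φ) β = ∑ g ∈ G, col A (a g (g φ)) β := by
      ext α
      rw [hK]
      simp [col]
    rw [e]
    refine Submodule.sum_mem _ fun g hg => ?_
    obtain ⟨κ, hκ⟩ := hw g hg β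
    rw [hκ]
    exact Submodule.smul_mem _ _ (Submodule.subset_span (by
      rw [Finset.coe_image]
      exact ⟨g, hg, rfl⟩))

end Vale.Agent.P356
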