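import Vale.Agent.P356.Base

/-! Choice of parameters and counting lemmas. -/

namespace Vale.Agent.P356

open Finset Filter

theorem mn_exists_pow (c N : ℕ) : ∃ l : ℕ, c ≤ l ∧ l ^ N ≤ 2 ^ l := by
  have h := tendsto_pow_const_div_const_pow_of_one_lt N (r := 2) (by norm_num)
  obtain ⟨l, h1, h2⟩ := ((h.eventually (gt_mem_nhds one_pos)).and (eventually_ge_atTop c)).exists
  refine ⟨l, h2, ?_⟩
  rw [div_lt_one (by positivity)] at h1
  exact_mod_cast h1.le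

theorem mn_params (q R κ g C₀ : ℕ) {γ lam : ℝ} (hγ : 0 < γ) (h0 : 0 ≤ lam) (h1 : lam < 1) :
    ∃ (y : ℝ) (k k₀ d : ℕ), 100 ≤ y ∧ (q : ℝ) ≤ y ∧ 1 ≤ d * k₀ ∧ 1 ≤ k₀ ∧
      2 * lam ^ k ≤ 1 / y ^ 25 ∧ (1 / 2 : ℝ) ^ k₀ ≤ 1 / y ^ 25 ∧ 3 * ((d * k₀ : ℕ) : ℝ) ≤ y ∧
      ∀ M b : ℕ, M = 2 * ((2 * k + 2) * (R + 1)) * (2 * R + d * k₀ * (R + 1)) * C₀ * g + 2 →
        b = 2 * ((2 * k + 2) * (R + 1)) * (2 * R) * C₀ * g →
        (M : ℝ) ≤ γ / (8 * b + 4) * d ^ 2 ∧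
          12 * (((d * k₀ : ℕ) : ℝ) + 1) ^ 2 * M * (q : ℝ) ^ (2 * κ) ≤ y := by
  obtain ⟨k₁, hk₁⟩ := exists_pow_lt_of_lt_one (show (0 : ℝ) < 1 / 2 by norm_num) h1
  obtain ⟨c, hc⟩ := exists_nat_ge (1 / γ)
  obtain ⟨l, hl, hN⟩ := mn_exists_pow (100 + (R + 1) + g + C₀ + q ^ (2 * κ) + q + k₁ + c) 84
  have l1 : 100 ≤ l := by omega
  have l2 : R + 1 ≤ l := by omega
  have l3 : g ≤ l := by omega
  have l4 : C₀ ≤ l := by omega
  have l5 : q ^ (2 * κ) ≤ l := by omega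
  have l6 : q ≤ l := by omega
  have l7 : k₁ ≤ l := by omega
  have l8 : c ≤ l := by omega
  have lp : ∀ a b : ℕ, a ≤ b → l ^ a ≤ l ^ b := fun a b h => Nat.pow_le_pow_right (by omega) h
  have l0 : ∀ a : ℕ, 1 ≤ l ^ a := fun a => Nat.one_le_pow _ _ (by omega)
  have ls : ∀ a b : ℕ, b = a + 1 → 100 * l ^ a ≤ l ^ b := fun a b e => by
    rw [e, pow_succ, mul_comm]; exact Nat.mul_le_mul_left _ l1
  have hy : l ≤ 2 ^ l := by simpa using (lp 1 84 (by norm_num)).trans hN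
  have e25 : (1 / 2 : ℝ) ^ (25 * l) = 1 / ((2 : ℝ) ^ l) ^ 25 := by
    rw [one_div_pow, ← pow_mul, mul_comm]
  have hw : l ^ 22 * (25 * l) + 1 ≤ l ^ 24 := by
    have := ls 23 24 rfl
    have := l0 23
    have : l ^ 22 * (25 * l) = 25 * l ^ 23 := by ring
    omega
  refine ⟨2 ^ l, k₁ * (25 * l + 1), 25 * l, l ^ 22, by exact_mod_cast l1.trans hy,
    by exact_mod_cast l6.trans hy, Nat.mul_pos (l0 22) (by omega), by omega, ?_, e25.le, ?_, ?_⟩
  · rw [pow_mul, ← e25]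
    have := pow_le_pow_left₀ (pow_nonneg h0 k₁) hk₁.le (25 * l + 1)
    rw [pow_succ (1 / 2 : ℝ)] at this
    linarith
  · have h2 := ls 24 25 rfl
    have h3 := (lp 25 84 (by norm_num)).trans hN
    have : 3 * (l ^ 22 * (25 * l)) ≤ 2 ^ l := by omega
    exact_mod_cast this
  · intro M b hM hb
    have hh : (2 * (k₁ * (25 * l + 1)) + 2) * (R + 1) ≤ l ^ 4 := by
      have h2 : k₁ * (25 * l + 1) ≤ l * (26 * l) := Nat.mul_le_mul l7 (by omega)
      have h3 := ls 2 3 rfl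
      have h4 := l0 2
      have h5 : l * (26 * l) = 26 * l ^ 2 := by ring
      rw [show l ^ 4 = l ^ 3 * l by ring]
      exact Nat.mul_le_mul (by omega) l2
    have hT : 2 * R + l ^ 22 * (25 * l) * (R + 1) ≤ l ^ 26 := by
      have h2 : l ^ 22 * (25 * l) * (R + 1) ≤ l ^ 25 := by
        rw [show l ^ 25 = l ^ 24 * l by ring]
        exact Nat.mul_le_mul (by omega) l2
      have h3 := ls 25 26 rfl
      have h4 := lp 1 25 (by norm_num)
      rw [pow_one] at h4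
      omega
    have hM' : M ≤ l ^ 33 := by
      have h2 : M ≤ 2 * l ^ 4 * l ^ 26 * l * l + 2 := by rw [hM]; gcongr
      have h3 := ls 32 33 rfl
      have h4 := l0 32
      have h5 : 2 * l ^ 4 * l ^ 26 * l * l = 2 * l ^ 32 := by ring
      omega
    have hb' : 8 * b + 4 ≤ l ^ 8 := by
      have h2 : b ≤ 2 * l ^ 4 * (2 * l) * l * l := by rw [hb]; gcongr; omega
      have h3 := ls 7 8 rfl
      have h4 := l0 7
      have h5 : 2 * l ^ 4 * (2 * l) * l * l = 4 * l ^ 7 := by ring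
      omega
    constructor
    · have h2 : M * (8 * b + 4) * l ≤ (l ^ 22) ^ 2 := by
        calc _ ≤ l ^ 33 * l ^ 8 * l := by gcongr
          _ = l ^ 42 := by ring
          _ ≤ l ^ 44 := lp _ _ (by norm_num)
          _ = _ := by ring
      have h3 : (M : ℝ) * (8 * b + 4) * l ≤ ((l ^ 22 : ℕ) : ℝ) ^ 2 := by exact_mod_cast h2
      have h4 : 1 ≤ γ * l := by
        rw [div_le_iff₀ hγ] at hc
        have : (c : ℝ) ≤ l := by exact_mod_cast l8
        nlinarith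
      rw [div_mul_eq_mul_div, le_div_iff₀ (by positivity)]
      have h5 : (0 : ℝ) ≤ M * (8 * b + 4) := by positivity
      nlinarith [mul_le_mul_of_nonneg_left h3 hγ.le, mul_le_mul_of_nonneg_left h4 h5]
    · have h2 : 12 * (l ^ 22 * (25 * l) + 1) ^ 2 * M * q ^ (2 * κ) ≤ 2 ^ l := by
        calc _ ≤ l * (l ^ 24) ^ 2 * l ^ 33 * l := by gcongr; omega
          _ = l ^ 83 := by ring
          _ ≤ l ^ 84 := lp _ _ (by norm_num)
          _ ≤ _ := hN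
      exact_mod_cast h2

section
variable {ι : Type} [Fintype ι] [DecidableEq ι]

theorem mn_card_terms {𝒳 F : Finset (Finset ι)} {g : ℕ} (hg : ∀ x, (𝒳.filter (x ∈ ·)).card ≤ g)
    (Z : Finset ι) (h : ∀ X ∈ F, X ∈ 𝒳 ∧ ∃ x ∈ Z, x ∈ X) : F.card ≤ Z.card * g := by
  calc F.card ≤ (Z.biUnion fun x => 𝒳.filter (x ∈ ·)).card := card_le_card fun X hX => by
        obtain ⟨h1, x, h2, h3⟩ := h X hX
        exact mem_biUnion.2 ⟨x, h2, mem_filter.2 ⟨h1, h3⟩⟩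
    _ ≤ _ := card_biUnion_le_card_mul _ _ _ fun x _ => hg x

theorem mn_card_sites {σ τ : ι → ℕ} {T C₀ : ℕ}
    (hC : ∀ s t, 1 ≤ t → t ≤ T → (univ.filter fun x => σ x = s ∧ τ x = t).card ≤ C₀)
    (S U : Finset ℕ) (hU : ∀ t ∈ U, 1 ≤ t ∧ t ≤ T) :
    (univ.filter fun x => σ x ∈ S ∧ τ x ∈ U).card ≤ S.card * U.card * C₀ := by
  calc _ ≤ ((S ×ˢ U).biUnion fun z => univ.filter fun x => σ x = z.1 ∧ τ x = z.2).card :=
        card_le_card fun x hx => mem_biUnion.2 ⟨(σ x, τ x), by simpa using hx, by simp⟩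
    _ ≤ (S ×ˢ U).card * C₀ := card_biUnion_le_card_mul _ _ _ fun z hz =>
        hC _ _ (hU _ (mem_product.1 hz).2).1 (hU _ (mem_product.1 hz).2).2
    _ = _ := by rw [card_product]

end

end Vale.Agent.P356
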