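import Vale.Agent.P356.Loc

/-! Amortised Schmidt rank of words. -/

set_option linter.unusedSectionVars false

namespace Vale.Agent.P356

open Finset

section Ring

variable {O : Type*} [Ring O] [Algebra ℂ O] {w : ℕ} {α : Type*}

/-- Weighted expansion of a word. -/
noncomputable def srS (T : ℕ → Finset α) (p : ℕ → α → O) (δ : ℕ → α → Fin w → ℕ) :
    List ℕ → ((Fin w → ℕ) → ℂ) → O
  | [], g => g 0 • 1
  | i :: l, g => ∑ a ∈ T i, p i a * srS T p δ l fun β => g (β + δ i a)

/-- The word with given letters and exponents. -/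
def srE (L : List (ℕ × ℕ)) : List ℕ := L.flatMap fun x => List.replicate x.2 x.1

variable {T : ℕ → Finset α} {p : ℕ → α → O} {δ : ℕ → α → Fin w → ℕ}

theorem sr_one (l : List ℕ) :
    srS T p δ l (fun _ => 1) = (l.map fun i => ∑ a ∈ T i, p i a).prod := by
  induction l with
  | nil => simp [srS]
  | cons i l ih => simp [srS, ih, sum_mul]

theorem sr_sum {J : Type*} (s : Finset J) (l : List ℕ) (g : J → (Fin w → ℕ) → ℂ) :
    srS T p δ l (fun β => ∑ c ∈ s, g c β) = ∑ c ∈ s, srS T p δ l (g c) := by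
  induction l generalizing g with
  | nil => simp [srS, sum_smul]
  | cons i l ih =>
    simp only [srS]
    rw [sum_comm]
    refine sum_congr rfl fun a _ => ?_
    rw [← mul_sum, ← ih fun c β => g c (β + δ i a)]

theorem sr_zero (l : List ℕ) : srS T p δ l (fun _ => 0) = 0 := by
  simpa using sr_sum (T := T) (p := p) (δ := δ) (∅ : Finset Unit) l fun _ _ => 0

theorem sr_congr (hδ : ∀ i, ∀ a ∈ T i, ∑ c, δ i a c ≤ 1) (l : List ℕ)
    {g g' : (Fin w → ℕ) → ℂ} (h : ∀ β, ∑ c, β c ≤ l.length → g β = g' β) :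
    srS T p δ l g = srS T p δ l g' := by
  induction l generalizing g g' with
  | nil => simp only [srS]; rw [h 0 (by simp)]
  | cons i l ih =>
    simp only [srS]
    refine sum_congr rfl fun a ha => ?_
    rw [ih fun β hβ => h (β + δ i a) ?_]
    have := hδ i a ha
    simp only [Pi.add_apply, sum_add_distrib, List.length_cons]
    omega

theorem sr_length {j₀ : ℕ} (L : List (ℕ × ℕ)) (h : ∀ x ∈ L, x.2 ≤ j₀) :
    (srE L).length ≤ L.length * j₀ := by
  induction L with
  | nil => simp [srE]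
  | cons x L ih =>
    have h1 := ih fun y hy => h y (List.mem_cons_of_mem _ hy)
    have h2 := h x List.mem_cons_self
    simp only [srE, List.flatMap_cons, List.length_append, List.length_replicate,
      List.length_cons] at h1 ⊢
    nlinarith

theorem sr_word {j₀ : ℕ} (H K : ℕ → O)
    (hK : ∀ i, K i ∈ Submodule.span ℂ {z | ∃ j ≤ j₀, z = H i ^ j}) (I : List ℕ) :
    (I.map K).prod ∈ Submodule.span ℂ {z | ∃ L : List (ℕ × ℕ), L.map Prod.fst = I ∧
      (∀ x ∈ L, x.2 ≤ j₀) ∧ z = ((srE L).map H).prod} := by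
  induction I with
  | nil => exact Submodule.subset_span ⟨[], rfl, by simp, by simp [srE]⟩
  | cons i I ih =>
    rw [List.map_cons, List.prod_cons]
    have := Submodule.mul_mem_mul (hK i) ih
    rw [Submodule.span_mul_span] at this
    refine Submodule.span_mono ?_ this
    rintro _ ⟨_, ⟨j, hj, rfl⟩, _, ⟨L, rfl, hL, rfl⟩, rfl⟩
    refine ⟨(i, j) :: L, rfl, ?_, by simp [srE]⟩
    intro x hx
    rcases List.mem_cons.1 hx with rfl | hx
    exacts [hj, hL x hx]

theorem sr_part {D : ℕ} {β : Fin w → ℕ} (h : ∑ c, β c < w * (D + 1)) :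
    ∑ c, (if β c ≤ D ∧ ∀ c' < c, D < β c' then (1 : ℂ) else 0) = 1 := by
  have h1 : (univ.filter fun c => β c ≤ D).Nonempty := by
    by_contra h2
    have h3 : ∀ c, D + 1 ≤ β c := fun c => by
      by_contra h4
      exact h2 ⟨c, by simp; omega⟩
    have := sum_le_sum (s := univ) fun c _ => h3 c
    simp at this
    omega
  have h2 := min'_mem _ h1
  have h3 : ∀ c, β c ≤ D → min' _ h1 ≤ c := fun c hc => min'_le _ _ (by simpa using hc)
  rw [mem_filter] at h2
  rw [sum_eq_single (min' _ h1), if_pos]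
  · refine ⟨h2.2, fun c' hc' => ?_⟩
    by_contra h4
    exact absurd (h3 c' (not_lt.1 h4)) (not_le.2 hc')
  · intro c _ hc
    refine if_neg fun h4 => ?_
    exact absurd (h4.2 _ (lt_of_le_of_ne (h3 c h4.1) hc.symm)) (not_lt.2 h2.2)
  · simp

theorem sr_walks (D : ℕ) : ∃ W : Finset (List (Fin 3)), 2 * W.card + 1 ≤ 3 * 3 ^ D ∧
    ∀ p, p ∈ W ↔ p.length ≤ D := by
  induction D with
  | zero => exact ⟨{[]}, by simp, by simp⟩
  | succ D ih =>
    obtain ⟨W, h1, h2⟩ := ih
    refine ⟨insert [] (image₂ List.cons univ W), ?_, fun p => ?_⟩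
    · have h3 := card_insert_le [] (image₂ List.cons (univ : Finset (Fin 3)) W)
      have h4 := card_image₂_le List.cons (univ : Finset (Fin 3)) W
      simp only [card_univ, Fintype.card_fin] at h4
      rw [pow_succ]
      omega
    · cases p with
      | nil => simp
      | cons s p => simp [h2]

theorem sr_plist (a : ℕ) (p : List (Fin 3)) : (plist a p).length ≤ p.length := by
  induction p generalizing a with
  | nil => simp [plist]
  | cons s p ih =>
    simp only [plist]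
    split_ifs
    · simpa using ih a
    · exact (ih _).trans (by simp)

end Ring

variable {ι : Type} [Fintype ι] [DecidableEq ι] {q : ℕ}

theorem sr_units (hq : 1 ≤ q) (A : Finset ι) {α : Type*} (T : Finset α) (S : α → Finset ι)
    {κ M : ℕ} (hT : T.card ≤ M) : ∃ R : Finset (Op ι q), R.card ≤ M * q ^ (2 * κ) ∧
      (∀ g ∈ R, g ∈ loc Aᶜ) ∧ ∀ a ∈ T, (S a).card ≤ κ → ∀ z ∈ loc (S a), z ∈ sp A R := by
  classical
  choose U h1 h2 h3 using exists_units (ι := ι) (q := q)
  refine ⟨(T.filter fun a => (S a).card ≤ κ).biUnion fun a => U (S a \ A), ?_, ?_, ?_⟩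
  · refine (card_biUnion_le_card_mul _ _ (q ^ (2 * κ)) fun a ha => (h1 _).trans ?_).trans
      (Nat.mul_le_mul_right _ ((card_filter_le _ _).trans hT))
    have := (mem_filter.1 ha).2
    have := card_le_card (sdiff_subset (s := S a) (t := A))
    exact Nat.pow_le_pow_right hq (by omega)
  · intro g hg
    obtain ⟨a, -, ha⟩ := mem_biUnion.1 hg
    exact loc_mono (fun x hx => mem_compl.2 (mem_sdiff.1 hx).2) (h2 _ g ha)
  · intro a ha hκ z hz
    refine sp_mono (fun x hx => ?_) (subset_biUnion_of_mem (fun a => U (S a \ A))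
      (mem_filter.2 ⟨ha, hκ⟩)) (h3 (S a \ A) (S a) z hz)
    simp only [mem_sdiff, not_and, not_not] at hx
    exact hx.2 hx.1

theorem sr_core {w : ℕ} (hq : 1 ≤ q) (A : Finset ι) (c : Fin w) {α : Type*}
    (T : ℕ → Finset α) (p : ℕ → α → Op ι q) (δ : ℕ → α → Fin w → ℕ) (S : ℕ → α → Finset ι)
    {κ M j₀ : ℕ} (hM : 1 ≤ M) (hT : ∀ i, (T i).card ≤ M)
    (hcls : ∀ i, ∀ a ∈ T i, (p i a ∈ loc A ∧ δ i a c = 0) ∨
      (p i a ∈ loc Aᶜ ∧ ∀ c' ≤ c, δ i a c' = 0) ∨
      (δ i a c = 1 ∧ p i a ∈ loc (S i a) ∧ (S i a).card ≤ κ)) (I : List ℕ) (k : ℕ) :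
    ∃ G : Finset (Op ι q), G.card * (2 * (j₀ + 1) * (M * q ^ (2 * κ))) ≤
      (2 * (j₀ + 1)) ^ I.length * (2 * (j₀ + 1) * (M * q ^ (2 * κ))) ^ k ∧
      (∀ g ∈ G, g ∈ loc Aᶜ) ∧ ∀ L : List (ℕ × ℕ), L.map Prod.fst = I → (∀ x ∈ L, x.2 ≤ j₀) →
      ∀ g : (Fin w → ℕ) → ℂ, (∀ β β', (∀ c' ≤ c, β c' = β' c') → g β = g β') →
      (∀ β, k ≤ β c → g β = 0) → srS T p δ (srE L) g ∈ sp A G := by
  classical
  have hz : ∀ I : List ℕ, ∃ G : Finset (Op ι q), G.card * (2 * (j₀ + 1) * (M * q ^ (2 * κ))) ≤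
      (2 * (j₀ + 1)) ^ I.length * (2 * (j₀ + 1) * (M * q ^ (2 * κ))) ^ 0 ∧
      (∀ g ∈ G, g ∈ loc Aᶜ) ∧ ∀ L : List (ℕ × ℕ), L.map Prod.fst = I → (∀ x ∈ L, x.2 ≤ j₀) →
      ∀ g : (Fin w → ℕ) → ℂ, (∀ β β', (∀ c' ≤ c, β c' = β' c') → g β = g β') →
      (∀ β, 0 ≤ β c → g β = 0) → srS T p δ (srE L) g ∈ sp A G := fun I =>
    ⟨∅, by simp, by simp, fun L _ _ g _ hg => by
      rw [show g = fun _ => 0 from funext fun β => hg β (Nat.zero_le _), sr_zero]
      exact zero_mem _⟩
  induction I generalizing k with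
  | nil =>
    cases k with
    | zero => exact hz []
    | succ k =>
      refine ⟨{1}, ?_, by simp, fun L hL _ g _ _ => ?_⟩
      · have : 0 < 2 * (j₀ + 1) * (M * q ^ (2 * κ)) := by positivity
        simpa using Nat.le_self_pow (Nat.succ_ne_zero k) _
      · obtain rfl : L = [] := by simpa using hL
        exact Submodule.smul_mem _ _ (by
          simpa using mem_sp (A := A) (one_mem _) (mem_singleton_self (1 : Op ι q)))
  | cons i I ih =>
    induction k with
    | zero => exact hz _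
    | succ k ihk =>
      obtain ⟨G1, a1, a2, a3⟩ := ih (k + 1)
      obtain ⟨G2, b1, b2, b3⟩ := ihk
      obtain ⟨R, r1, r2, r3⟩ := sr_units hq A (T i) (S i) (κ := κ) (hT i)
      let P : α → Prop := fun a => p i a ∈ loc Aᶜ ∧ ∀ c' ≤ c, δ i a c' = 0
      let B : Op ι q := ∑ a ∈ (T i).filter P, p i a
      have hB : B ∈ loc Aᶜ := sum_mem fun a ha => (mem_filter.1 ha).2.1
      let G0 := G1 ∪ image₂ (· * ·) R G2
      let Gj : ℕ → Finset (Op ι q) := fun j => image₂ (fun b g => B ^ b * g) (range (j + 1)) G0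
      have m0 : ∀ j, G0 ⊆ Gj j := fun j g hg =>
        mem_image₂.2 ⟨0, by simp, g, hg, by simp⟩
      have m1 : ∀ {j j'}, j ≤ j' → Gj j ⊆ Gj j' := fun h =>
        image₂_subset_right (range_subset_range.2 (by omega))
      refine ⟨Gj j₀, ?_, ?_, fun L hL hj => ?_⟩
      · have c1 : (Gj j₀).card ≤ (j₀ + 1) * (G1.card + M * q ^ (2 * κ) * G2.card) := by
          refine (card_image₂_le _ _ _).trans ?_
          rw [card_range]
          refine Nat.mul_le_mul_left _ ((card_union_le _ _).trans (Nat.add_le_add_left ?_ _))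
          exact (card_image₂_le _ _ _).trans (Nat.mul_le_mul_right _ r1)
        rw [List.length_cons] at b1 ⊢
        generalize M * q ^ (2 * κ) = ρ at *
        calc _ ≤ (j₀ + 1) * (G1.card + ρ * G2.card) * (2 * (j₀ + 1) * ρ) :=
              Nat.mul_le_mul_right _ c1
          _ = (j₀ + 1) * (G1.card * (2 * (j₀ + 1) * ρ) + ρ * (G2.card * (2 * (j₀ + 1) * ρ))) := by
              ring
          _ ≤ (j₀ + 1) * ((2 * (j₀ + 1)) ^ I.length * (2 * (j₀ + 1) * ρ) ^ (k + 1) +
              ρ * ((2 * (j₀ + 1)) ^ (I.length + 1) * (2 * (j₀ + 1) * ρ) ^ k)) := by gcongr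
          _ = _ := by ring
      · intro g hg
        obtain ⟨b, -, g', hg', rfl⟩ := mem_image₂.1 hg
        refine mul_mem (pow_mem hB _) ?_
        rcases mem_union.1 hg' with h | h
        · exact a2 g' h
        · obtain ⟨x, hx, y, hy, rfl⟩ := mem_image₂.1 h
          exact mul_mem (r2 x hx) (b2 y hy)
      · obtain ⟨⟨i', j⟩, L, rfl, rfl, rfl⟩ := List.map_eq_cons_iff.1 hL
        have hL' : ∀ x ∈ L, x.2 ≤ j₀ := fun x hx => hj x (List.mem_cons_of_mem _ hx)
        have hj' : j ≤ j₀ := hj _ List.mem_cons_self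
        suffices h : ∀ j ≤ j₀, ∀ g : (Fin w → ℕ) → ℂ,
            (∀ β β', (∀ c' ≤ c, β c' = β' c') → g β = g β') → (∀ β, k + 1 ≤ β c → g β = 0) →
            srS T p δ (srE ((i', j) :: L)) g ∈ sp A (Gj j) from
          fun g h1 h2 => sp_mono subset_rfl (m1 hj') (h j hj' g h1 h2)
        intro j
        induction j with
        | zero =>
          exact fun _ g h1 h2 => sp_mono subset_rfl (subset_union_left.trans (m0 0))
            (a3 L rfl hL' g h1 h2)
        | succ j ihj =>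
          intro hj1 g h1 h2
          have e1 : srE ((i', j + 1) :: L) = i' :: srE ((i', j) :: L) := by
            simp [srE, List.replicate_succ]
          have h3 : ∀ a β β', (∀ c' ≤ c, β c' = β' c') → g (β + δ i' a) = g (β' + δ i' a) :=
            fun a β β' h => h1 _ _ fun c' hc' => by simp [h c' hc']
          rw [e1, srS, ← sum_filter_add_sum_filter_not (T i') P]
          refine add_mem ?_ (Submodule.sum_mem _ fun a ha => ?_)
          · rw [sum_congr rfl (g := fun a => p i' a * srS T p δ (srE ((i', j) :: L)) g)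
              fun a ha => by
                rw [show (fun β => g (β + δ i' a)) = g from funext fun β => h1 _ _ fun c' hc' => by
                  simp [(mem_filter.1 ha).2.2 c' hc']], ← sum_mul]
            refine mul_mem_sp_of (G := {B}) (by simpa using hB) (fun x hx y hy => ?_)
              (by simpa using mem_sp (A := A) (one_mem _) (mem_singleton_self B))
              (ihj (by omega) g h1 h2)
            obtain ⟨b, hb, y', hy', rfl⟩ := mem_image₂.1 hy
            rw [mem_singleton.1 hx]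
            exact mem_image₂.2 ⟨b + 1, by simpa using hb, y', hy', by rw [pow_succ', mul_assoc]⟩
          · obtain ⟨ha, hP⟩ := mem_filter.1 ha
            rcases hcls i' a ha with h | h | h
            · exact mul_mem_sp h.1 (sp_mono subset_rfl (m1 (Nat.le_succ j))
                (ihj (by omega) _ (h3 a) fun β hβ => h2 _ (by simp; omega)))
            · exact absurd h hP
            · refine mul_mem_sp_of r2 (fun x hx y hy => m0 _ (mem_union_right _
                (mem_image₂_of_mem hx hy))) (r3 a ha h.2.2 _ h.2.1)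
                (b3 _ rfl (fun x hx => ?_) _ (h3 a) fun β hβ => h2 _ (by simp [h.1]; omega))
              rcases List.mem_cons.1 hx with rfl | hx
              exacts [by simp; omega, hL' x hx]

theorem cov_V {w : ℕ} (hw : 1 ≤ w) (hq : 1 ≤ q) (A : Finset ι) (Ac : Fin w → Finset ι) {α : Type*}
    (T : ℕ → Finset α) (p : ℕ → α → Op ι q) (δ : ℕ → α → Fin w → ℕ) (S : ℕ → α → Finset ι)
    {κ M j₀ n : ℕ} (hM : 1 ≤ M) (hT : ∀ i, (T i).card ≤ M) (hj : j₀ ≤ w)
    (hδ : ∀ i, ∀ a ∈ T i, ∑ c, δ i a c ≤ 1)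
    (hcls : ∀ i, ∀ a ∈ T i, ∀ c, (p i a ∈ loc (Ac c) ∧ δ i a c = 0) ∨
      (p i a ∈ loc (Ac c)ᶜ ∧ ∀ c' ≤ c, δ i a c' = 0) ∨
      (δ i a c = 1 ∧ p i a ∈ loc (S i a) ∧ (S i a).card ≤ κ))
    (hA : ∀ c, A ⊆ Ac c ∧ (Ac c \ A).card ≤ n) (K : ℕ → Op ι q)
    (hK : ∀ i, K i ∈ Submodule.span ℂ {z | ∃ j ≤ j₀, z = (∑ a ∈ T i, p i a) ^ j}) (a b D : ℕ) :
    Cov A (3 * w * (q : ℝ) ^ (2 * n) * (12 * (j₀ + 1) ^ 2 * M * (q : ℝ) ^ (2 * κ)) ^ D)
      (↑(V K a b D) : Set (Op ι q)) := by
  classical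
  obtain ⟨W, w1, w2⟩ := sr_walks D
  let g : Fin w → (Fin w → ℕ) → ℂ := fun c β => if β c ≤ D ∧ ∀ c' < c, D < β c' then 1 else 0
  let U : List (Fin 3) × Fin w → Set (Op ι q) := fun x => {z | ∃ L : List (ℕ × ℕ),
    L.map Prod.fst = plist a x.1 ∧ (∀ y ∈ L, y.2 ≤ j₀) ∧ z = srS T p δ (srE L) (g x.2)}
  have hq' : (1 : ℝ) ≤ q := by exact_mod_cast hq
  have h1 : ∀ x ∈ W ×ˢ (univ : Finset (Fin w)), Cov A ((q : ℝ) ^ (2 * n) *
      (4 * (j₀ + 1) ^ 2 * M * (q : ℝ) ^ (2 * κ)) ^ D) (U x) := by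
    rintro ⟨u, c⟩ hx
    have hu : (plist a u).length ≤ D := (sr_plist a u).trans ((w2 u).1 (mem_product.1 hx).1)
    obtain ⟨G, g1, g2, g3⟩ := sr_core (j₀ := j₀) hq (Ac c) c T p δ S hM hT
      (fun i a ha => hcls i a ha c) (plist a u) (D + 1)
    have h2 : Cov (Ac c) ((4 * (j₀ + 1) ^ 2 * M * (q : ℝ) ^ (2 * κ)) ^ D) (U (u, c)) := by
      refine ⟨G, ?_, g2, ?_⟩
      · have t0 : 0 < 2 * (j₀ + 1) * (M * q ^ (2 * κ)) := by positivity
        rw [pow_succ, ← mul_assoc ((2 * (j₀ + 1)) ^ _)] at g1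
        have t1 := (Nat.le_of_mul_le_mul_right g1 t0).trans (Nat.mul_le_mul_right _
          (Nat.pow_le_pow_right (by omega) hu))
        rw [← mul_pow] at t1
        refine (Nat.cast_le.2 t1).trans (le_of_eq ?_)
        push_cast
        ring
      · rintro _ ⟨L, l1, l2, rfl⟩
        refine g3 L l1 l2 _ (fun β β' h => ?_) fun β hβ => if_neg fun h => absurd h.1 (not_le.2 hβ)
        refine if_congr (and_congr (by rw [h c le_rfl]) (forall₂_congr fun c' hc' => ?_)) rfl rfl
        rw [h c' hc'.le]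
    refine (h2.shift (hA c).1).mono ?_ subset_rfl
    have := (hA c).2
    gcongr
  refine (Cov.span_iUnion _ h1).mono ?_ ?_
  · have : (W.card : ℝ) ≤ 3 * 3 ^ D := by exact_mod_cast (by omega : W.card ≤ 3 * 3 ^ D)
    rw [card_product, card_univ, Fintype.card_fin]
    push_cast
    calc _ ≤ 3 * 3 ^ D * (w : ℝ) * ((q : ℝ) ^ (2 * n) *
      (4 * (j₀ + 1) ^ 2 * M * (q : ℝ) ^ (2 * κ)) ^ D) := by gcongr
      _ = _ := by
        rw [show (12 * (j₀ + 1) ^ 2 * M * (q : ℝ) ^ (2 * κ)) =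
          3 * (4 * (j₀ + 1) ^ 2 * M * (q : ℝ) ^ (2 * κ)) by ring, mul_pow 3]
        ring
  · refine Submodule.span_le.2 ?_
    rintro _ ⟨u, hu, -, rfl⟩
    refine Submodule.span_le.2 ?_ (sr_word _ K hK (plist a u))
    rintro _ ⟨L, l1, l2, rfl⟩
    have e1 : L.length ≤ D := by
      rw [← List.length_map Prod.fst, l1]
      exact (sr_plist a u).trans hu
    rw [← sr_one (δ := δ), sr_congr hδ (g' := fun β => ∑ c, g c β) _ fun β hβ =>
      (sr_part ((hβ.trans (sr_length L l2)).trans_lt (by nlinarith))).symm, sr_sum]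
    refine Submodule.sum_mem _ fun c _ => Submodule.subset_span ?_
    exact Set.mem_biUnion (x := (u, c)) (by simpa using (w2 u).2 hu) ⟨L, l1, l2, rfl⟩

end Vale.Agent.P356
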