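import Vale.Agent.P356.Cheb
import Vale.Agent.P356.Chain
import Vale.Agent.P356.SR
import Vale.Agent.P356.Ent
import Vale.Agent.P356.Par

/-! The abstract area law. -/

set_option linter.unusedSectionVars false

namespace Vale.Agent.P356

open Finset
open scoped InnerProductSpace

section
variable {E : Type*} [NormedAddCommGroup E] [InnerProductSpace ℂ E] [FiniteDimensional ℂ E]
  [CompleteSpace E] {X : Type*}

/-- The atoms of a truncated Hamiltonian. -/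
noncomputable def mn_atom (p : X → E →L[ℂ] E) (Fi Fo : Finset X) : X ⊕ Bool → E →L[ℂ] E :=
  Sum.elim p fun s => if s then 1 - gp p Fo else 1 - gp p Fi

theorem mn_letter' {p : X → E →L[ℂ] E} (hp : ∀ x, IsStarProjection (p x))
    {F Fi Fo W B : Finset X} (hF : ∀ x ∈ F, x ∈ Fi ∨ x ∈ Fo ∨ x ∈ W) (hi : Fi ⊆ F) (ho : Fo ⊆ F)
    (hW' : W ⊆ F) (hc : Commute (gp p Fi) (gp p Fo))
    (hW : ∀ x ∈ W, x ∉ B → Commute (p x) (gp p Fi) ∧ Commute (p x) (gp p Fo)) {γ : ℝ}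
    (hγ : 0 < γ) (hγ1 : γ ≤ 1) (hgap : ∀ ψ, γ * ‖ψ - gp p F ψ‖ ^ 2 ≤ ∑ x ∈ F, ‖p x ψ‖ ^ 2)
    {M b d k : ℕ} (hM : W.card + 2 ≤ M) (hb : B.card ≤ b)
    (hd : (M : ℝ) ≤ γ / (8 * b + 4) * d ^ 2) (hk : 1 ≤ k) :
    ∃ K ∈ Submodule.span ℂ {z | ∃ j ≤ d * k, z = (∑ a ∈ W.disjSum univ, mn_atom p Fi Fo a) ^ j},
      star K = K ∧ K * gp p F = gp p F ∧ gp p F * K = gp p F ∧ ‖K - gp p F‖ ≤ (1 / 2) ^ k := by
  have hb' : (B.card : ℝ) ≤ b := by exact_mod_cast hb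
  have hM' : (W.card : ℝ) + 2 ≤ M := by exact_mod_cast hM
  refine exists_cheb _ _ ?_ (gp_proj p F) ?_ (γ := γ / (8 * b + 4)) (by positivity) ?_ ?_
    (fun ψ => ?_) d k hd hk
  · rintro (x | s) _
    · exact hp x
    · cases s
      · exact (gp_proj p Fi).one_sub
      · exact (gp_proj p Fo).one_sub
  · rintro (x | s) h
    · change p x * gp p F = 0
      exact mul_gp (hW' (inl_mem_disjSum.1 h))
    · cases s
      · change (1 - gp p Fi) * gp p F = 0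
        rw [sub_mul, one_mul, (gp_mul_gp hi).1, sub_self]
      · change (1 - gp p Fo) * gp p F = 0
        rw [sub_mul, one_mul, (gp_mul_gp ho).1, sub_self]
  · rw [div_lt_iff₀ (by positivity)]
    have : (0 : ℝ) ≤ W.card := Nat.cast_nonneg _
    have : (0 : ℝ) ≤ b := Nat.cast_nonneg _
    nlinarith
  · rw [card_disjSum]
    simpa using hM'
  · have h1 := gap_trunc hp hF hc hW hγ.le hγ1 hgap ψ
    rw [sum_disjSum, Fintype.sum_bool]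
    simp only [mn_atom, Sum.elim_inl, Sum.elim_inr, if_true, Bool.false_eq_true, if_false]
    have h2 : γ / (8 * b + 4) * ‖ψ - gp p F ψ‖ ^ 2 ≤ γ / (8 * B.card + 4) * ‖ψ - gp p F ψ‖ ^ 2 := by
      gcongr
    linarith

theorem mn_fix {K : ℕ → E →L[ℂ] E} {Ω : E} (h1 : ∀ i, star (K i) = K i) (h2 : ∀ i, K i Ω = Ω)
    {a b D : ℕ} {G : E →L[ℂ] E} (hG : G ∈ V K a b D) : ∃ c : ℂ, star G Ω = c • Ω := by
  induction hG using Submodule.span_induction with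
  | mem z hz =>
    obtain ⟨l, -, -, rfl⟩ := hz
    refine ⟨1, ?_⟩
    rw [one_smul]
    induction plist a l with
    | nil => simp
    | cons i l ih => rw [List.map_cons, List.prod_cons, star_mul, h1, mul_apply_eq_comp, h2, ih]
  | zero => exact ⟨0, by simp⟩
  | add x y _ _ hx hy =>
    obtain ⟨c, hc⟩ := hx
    obtain ⟨c', hc'⟩ := hy
    exact ⟨c + c', by rw [star_add, add_apply, hc, hc', add_smul]⟩
  | smul s x _ hx =>
    obtain ⟨c, hc⟩ := hx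
    exact ⟨star s * c, by rw [star_smul, smul_apply, hc, smul_smul]⟩

end

section
variable {ι : Type} [Fintype ι] [DecidableEq ι] {q : ℕ} {𝒳 : Finset (Finset ι)}
  {p : Finset ι → Op ι q} {σ τ : ι → ℕ} {R κ g : ℕ}

/-- Terms inside a band. -/
def mn_band (𝒳 : Finset (Finset ι)) (σ : ι → ℕ) (a b : ℕ) : Finset (Finset ι) :=
  𝒳.filter fun X => ∀ x ∈ X, a ≤ σ x ∧ σ x < b

theorem mn_band_mono {a b a' b' : ℕ} (ha : a' ≤ a) (hb : b ≤ b') :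
    mn_band 𝒳 σ a b ⊆ mn_band 𝒳 σ a' b' := fun X hX => by
  simp only [mn_band, mem_filter] at hX ⊢
  exact ⟨hX.1, fun x hx => ⟨ha.trans (hX.2 x hx).1, (hX.2 x hx).2.trans_le hb⟩⟩

theorem mn_gp_loc (hp : ∀ X, IsStarProjection (p X)) {F : Finset (Finset ι)} {S : Finset ι}
    (h : ∀ X ∈ F, p X ∈ loc X ∧ X ⊆ S) : gp p F ∈ loc S :=
  mem_loc.2 fun x hx i j => commute_gp (fun X _ => (hp X).isSelfAdjoint.star_eq) fun X hX =>
    mem_loc.1 (loc_mono (h X hX).2 (h X hX).1) x hx i j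

theorem mn_band_loc (hp : ∀ X, IsStarProjection (p X)) (hX : ∀ X ∈ 𝒳, p X ∈ loc X) (a b : ℕ) :
    gp p (mn_band 𝒳 σ a b) ∈ loc (univ.filter fun x => a ≤ σ x ∧ σ x < b) :=
  mn_gp_loc hp fun X h => ⟨hX X (mem_filter.1 h).1, fun x hx =>
    mem_filter.2 ⟨mem_univ _, (mem_filter.1 h).2 x hx⟩⟩

theorem mn_band_commute (hp : ∀ X, IsStarProjection (p X)) (hX : ∀ X ∈ 𝒳, p X ∈ loc X)
    {a b a' b' : ℕ} (h : b ≤ a') :
    Commute (gp p (mn_band 𝒳 σ a b)) (gp p (mn_band 𝒳 σ a' b')) :=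
  commute_of_disjoint (disjoint_filter.2 fun x _ h1 h2 => by omega) (mn_band_loc hp hX a b)
    (mn_band_loc hp hX a' b')

theorem mn_overlap (hp : ∀ X, IsStarProjection (p X))
    (hX : ∀ X ∈ 𝒳, p X ∈ loc X ∧ X.card ≤ κ ∧ X.Nonempty ∧
      ∀ x ∈ X, ∀ y ∈ X, σ x ≤ σ y + R ∧ τ x ≤ τ y + R)
    (hg : ∀ x, (𝒳.filter (x ∈ ·)).card ≤ g) {γ : ℝ} (hγ : 0 < γ)
    (hgap : ∀ a b ψ, γ * ‖ψ - gp p (mn_band 𝒳 σ a b) ψ‖ ^ 2 ≤
      ∑ X ∈ mn_band 𝒳 σ a b, ‖p X ψ‖ ^ 2) (k j a b : ℕ)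
    (ha : a ≤ j * ((2 * k + 2) * (R + 1))) (hb : (j + 1) * ((2 * k + 2) * (R + 1)) ≤ b) :
    ‖gp p (mn_band 𝒳 σ (j * ((2 * k + 2) * (R + 1))) b) *
      gp p (mn_band 𝒳 σ a ((j + 1) * ((2 * k + 2) * (R + 1)))) - gp p (mn_band 𝒳 σ a b)‖ ≤
      √(((κ * g : ℕ) : ℝ) ^ 2 / (((κ * g : ℕ) : ℝ) ^ 2 + γ)) ^ k := by
  have hsub : ∀ X ∈ mn_band 𝒳 σ a b, X ∈ 𝒳 := fun X h => (mem_filter.1 h).1
  have hsup : ∀ X ∈ 𝒳, ∀ x ∈ X, σ x ≤ X.sup σ ∧ X.sup σ ≤ σ x + R := fun X h x hx =>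
    ⟨le_sup hx, Finset.sup_le fun y hy => ((hX X h).2.2.2 y hy x hx).1⟩
  refine norm_gp_mul_gp_sub hp (mn_band_mono le_rfl hb) (mn_band_mono ha le_rfl)
    (fun X Y => ¬ Disjoint X Y) (fun X Y h h' => h h'.symm)
    (fun X h Y h' hd => commute_of_disjoint (not_not.1 hd) (hX X (hsub X h)).1 (hX Y (hsub Y h')).1)
    (fun X h => ?_) hγ (hgap a b) (fun X => X.sup σ / (R + 1)) (fun X h Y h' hd => ?_)
    (j * (2 * k + 2) + 1) k (fun X h hd => ?_) (fun X h hd => ?_)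
  · refine (mn_card_terms hg X fun Y hY => ?_).trans (Nat.mul_le_mul_right _ (hX X (hsub X h)).2.1)
    obtain ⟨h1, h2⟩ := mem_filter.1 hY
    obtain ⟨x, h3, h4⟩ := not_disjoint_iff.1 h2
    exact ⟨hsub Y h1, x, h3, h4⟩
  · refine commute_of_disjoint (disjoint_left.2 fun x h1 h2 => ?_) (hX X (hsub X h)).1
      (hX Y (hsub Y h')).1
    have h3 := (hsup X (hsub X h) x h1).1
    have h4 := (hsup Y (hsub Y h') x h2).2
    have h5 : Y.sup σ / (R + 1) ≤ (X.sup σ + (R + 1)) / (R + 1) := Nat.div_le_div_right (by omega)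
    rw [Nat.add_div_right _ (by omega)] at h5
    omega
  · refine mem_filter.2 ⟨hsub X h, fun x hx => ⟨((mem_filter.1 h).2 x hx).1, ?_⟩⟩
    have h3 := (hsup X (hsub X h) x hx).1
    have h4 : X.sup σ / (R + 1) < (j + 1) * (2 * k + 2) := by rw [add_mul]; omega
    rw [Nat.div_lt_iff_lt_mul (by omega), mul_assoc] at h4
    omega
  · refine mem_filter.2 ⟨hsub X h, fun x hx => ⟨?_, ((mem_filter.1 h).2 x hx).2⟩⟩
    have h3 := (hsup X (hsub X h) x hx).2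
    rw [Nat.le_div_iff_mul_le (by omega), add_mul, mul_assoc] at hd
    omega

theorem mn_letter (hp : ∀ X, IsStarProjection (p X)) (hX : ∀ X ∈ 𝒳, p X ∈ loc X)
    {F : Finset (Finset ι)} (hF : F ⊆ 𝒳) {t₀ t₁ : ℕ} (ht : t₀ ≤ t₁) {γ : ℝ} (hγ : 0 < γ)
    (hγ1 : γ ≤ 1) (hgap : ∀ ψ, γ * ‖ψ - gp p F ψ‖ ^ 2 ≤ ∑ X ∈ F, ‖p X ψ‖ ^ 2) {M b d k : ℕ}
    (hM : (F.filter fun X => ¬ (∀ x ∈ X, τ x ≤ t₀) ∧ ¬ ∀ x ∈ X, t₁ < τ x).card + 2 ≤ M)
    (hb : ((F.filter fun X => ¬ (∀ x ∈ X, τ x ≤ t₀) ∧ ¬ ∀ x ∈ X, t₁ < τ x).filter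
      fun X => ∃ x ∈ X, τ x ≤ t₀ ∨ t₁ < τ x).card ≤ b)
    (hd : (M : ℝ) ≤ γ / (8 * b + 4) * d ^ 2) (hk : 1 ≤ k) :
    ∃ K ∈ Submodule.span ℂ {z | ∃ j ≤ d * k, z = (∑ a ∈ (F.filter fun X =>
        ¬ (∀ x ∈ X, τ x ≤ t₀) ∧ ¬ ∀ x ∈ X, t₁ < τ x).disjSum univ,
        mn_atom p (F.filter fun X => ∀ x ∈ X, τ x ≤ t₀) (F.filter fun X => ∀ x ∈ X, t₁ < τ x) a) ^ j},
      star K = K ∧ K * gp p F = gp p F ∧ gp p F * K = gp p F ∧ ‖K - gp p F‖ ≤ (1 / 2) ^ k := by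
  set W := F.filter fun X => ¬ (∀ x ∈ X, τ x ≤ t₀) ∧ ¬ ∀ x ∈ X, t₁ < τ x with hW
  set B := W.filter fun X => ∃ x ∈ X, τ x ≤ t₀ ∨ t₁ < τ x with hB
  set Fi := F.filter fun X => ∀ x ∈ X, τ x ≤ t₀ with hFi
  set Fo := F.filter fun X => ∀ x ∈ X, t₁ < τ x with hFo
  have li : gp p Fi ∈ loc (univ.filter fun x => τ x ≤ t₀) := mn_gp_loc hp fun X h =>
    ⟨hX X (hF (mem_filter.1 h).1), fun x hx => mem_filter.2 ⟨mem_univ _, (mem_filter.1 h).2 x hx⟩⟩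
  have lo : gp p Fo ∈ loc (univ.filter fun x => t₁ < τ x) := mn_gp_loc hp fun X h =>
    ⟨hX X (hF (mem_filter.1 h).1), fun x hx => mem_filter.2 ⟨mem_univ _, (mem_filter.1 h).2 x hx⟩⟩
  refine mn_letter' hp (B := B) (fun X h => ?_) (filter_subset _ _) (filter_subset _ _)
    (filter_subset _ _) (commute_of_disjoint (disjoint_filter.2 fun x _ h1 h2 => by omega) li lo)
    (fun X h h' => ?_) hγ hγ1 hgap hM hb hd hk
  · simp only [mem_filter]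
    tauto
  · have h2 : ∀ x ∈ X, ¬ (τ x ≤ t₀ ∨ t₁ < τ x) := fun x hx h3 =>
      h' (mem_filter.2 ⟨h, x, hx, h3⟩)
    have h3 := hX X (hF (mem_filter.1 h).1)
    exact ⟨commute_of_disjoint (disjoint_left.2 fun x hx h4 =>
        h2 x hx (Or.inl (mem_filter.1 h4).2)) h3 li,
      commute_of_disjoint (disjoint_left.2 fun x hx h4 =>
        h2 x hx (Or.inr (mem_filter.1 h4).2)) h3 lo⟩

theorem mn_cov (hq : 1 ≤ q) (hp : ∀ X, IsStarProjection (p X))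
    (hX : ∀ X ∈ 𝒳, p X ∈ loc X ∧ X.card ≤ κ ∧ X.Nonempty ∧
      ∀ x ∈ X, ∀ y ∈ X, σ x ≤ σ y + R ∧ τ x ≤ τ y + R) {w M n : ℕ} (hw : 1 ≤ w) (hM1 : 1 ≤ M)
    (F : ℕ → Finset (Finset ι)) (hF : ∀ i, F i ⊆ 𝒳)
    (hM : ∀ i, ((F i).filter fun X => ¬ (∀ x ∈ X, τ x ≤ R) ∧
      ¬ ∀ x ∈ X, R + w * (R + 1) < τ x).card + 2 ≤ M)
    (hn : (univ.filter fun x => 1 ≤ τ x ∧ τ x ≤ R + w * (R + 1)).card ≤ n) (K : ℕ → Op ι q)
    (hK : ∀ i, K i ∈ Submodule.span ℂ {z | ∃ j ≤ w, z = (∑ a ∈ ((F i).filter fun X =>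
        ¬ (∀ x ∈ X, τ x ≤ R) ∧ ¬ ∀ x ∈ X, R + w * (R + 1) < τ x).disjSum univ,
        mn_atom p ((F i).filter fun X => ∀ x ∈ X, τ x ≤ R)
          ((F i).filter fun X => ∀ x ∈ X, R + w * (R + 1) < τ x) a) ^ j}) (a b D : ℕ) :
    Cov (univ.filter fun x => τ x = 0)
      (3 * w * (q : ℝ) ^ (2 * n) * (12 * (w + 1) ^ 2 * M * (q : ℝ) ^ (2 * κ)) ^ D)
      (↑(V K a b D) : Set (Op ι q)) := by
  have hc : ∀ c : Fin w, (c : ℕ) * (R + 1) ≤ w * (R + 1) := fun c =>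
    Nat.mul_le_mul_right _ c.2.le
  have hcc : ∀ c c' : Fin w, c < c' → (c : ℕ) * (R + 1) + (R + 1) ≤ c' * (R + 1) := fun c c' h => by
    rw [← add_one_mul]
    exact Nat.mul_le_mul_right _ h
  refine cov_V hw hq _ (fun c => univ.filter fun x => τ x ≤ R + c * (R + 1)) _ _
    (fun _ a c => Sum.elim (fun X => if (∃ x ∈ X, τ x ≤ R + c * (R + 1)) ∧
      ∃ x ∈ X, R + c * (R + 1) < τ x then 1 else 0) (fun _ => 0) a)
    (fun _ a => Sum.elim id (fun _ => ∅) a) hM1 (fun i => ?_) le_rfl ?_ ?_ (fun c => ⟨?_, ?_⟩)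
    K hK a b D
  · rw [card_disjSum]
    simpa using hM i
  · rintro i (X | s) h
    · have h1 := (hX X (hF i (mem_filter.1 (inl_mem_disjSum.1 h)).1)).2.2.2
      simp only [Sum.elim_inl]
      rw [← card_filter, card_le_one]
      intro c hc c' hc'
      obtain ⟨⟨x, hx, h2⟩, x', hx', h3⟩ := (mem_filter.1 hc).2
      obtain ⟨⟨z, hz, h4⟩, z', hz', h5⟩ := (mem_filter.1 hc').2
      have h6 := (h1 x' hx' z hz).2
      have h7 := (h1 z' hz' x hx).2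
      rcases lt_trichotomy c c' with h8 | h8 | h8
      · have := hcc _ _ h8
        omega
      · exact h8
      · have := hcc _ _ h8
        omega
    · simp
  · rintro i (X | s) h c
    · have h1 := hX X (hF i (mem_filter.1 (inl_mem_disjSum.1 h)).1)
      simp only [Sum.elim_inl, mn_atom, id]
      by_cases h2 : ∃ x ∈ X, R + c * (R + 1) < τ x
      · by_cases h3 : ∃ x ∈ X, τ x ≤ R + c * (R + 1)
        · exact Or.inr (Or.inr ⟨if_pos ⟨h3, h2⟩, h1.1, h1.2.1⟩)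
        · refine Or.inr (Or.inl ⟨loc_mono (fun x hx => ?_) h1.1, fun c' hc' => if_neg ?_⟩)
          · exact mem_compl.2 fun h4 => h3 ⟨x, hx, (mem_filter.1 h4).2⟩
          · rintro ⟨⟨x, hx, h4⟩, -⟩
            have : (c' : ℕ) * (R + 1) ≤ c * (R + 1) := Nat.mul_le_mul_right _ hc'
            exact h3 ⟨x, hx, by omega⟩
      · refine Or.inl ⟨loc_mono (fun x hx => ?_) h1.1, if_neg fun h3 => h2 h3.2⟩
        exact mem_filter.2 ⟨mem_univ _, not_lt.1 fun h3 => h2 ⟨x, hx, h3⟩⟩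
    · cases s
      · refine Or.inl ⟨sub_mem (one_mem _) (mn_gp_loc hp fun X h => ⟨(hX X (hF i
          (mem_filter.1 h).1)).1, fun x hx => mem_filter.2 ⟨mem_univ _, ?_⟩⟩), rfl⟩
        have := (mem_filter.1 h).2 x hx
        omega
      · refine Or.inr (Or.inl ⟨sub_mem (one_mem _) (mn_gp_loc hp fun X h => ⟨(hX X (hF i
          (mem_filter.1 h).1)).1, fun x hx => mem_compl.2 fun h4 => ?_⟩), fun _ _ => rfl⟩)
        have h5 := (mem_filter.1 h).2 x hx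
        have h6 := (mem_filter.1 h4).2
        have := hc c
        omega
  · intro x hx
    have := (mem_filter.1 hx).2
    exact mem_filter.2 ⟨mem_univ _, by omega⟩
  · refine le_trans (card_le_card fun x hx => ?_) hn
    simp only [mem_sdiff, mem_filter, mem_univ, true_and] at hx ⊢
    have := hc c
    omega

end

theorem abstract_area (q R κ g C₀ : ℕ) (hq : 1 ≤ q) {γ : ℝ} (hγ : 0 < γ) :
    ∃ (T : ℕ) (C : ℝ), 0 ≤ C ∧ ∀ (ι : Type) [Fintype ι] [DecidableEq ι] (𝒳 : Finset (Finset ι))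
      (p : Finset ι → Op ι q) (σ τ : ι → ℕ) (n : ℕ) (Ω : Hs ι q),
      (∀ X, IsStarProjection (p X)) →
      (∀ X ∈ 𝒳, p X ∈ loc X ∧ X.card ≤ κ ∧ X.Nonempty ∧
        ∀ x ∈ X, ∀ y ∈ X, σ x ≤ σ y + R ∧ τ x ≤ τ y + R) →
      (∀ x, (𝒳.filter (x ∈ ·)).card ≤ g) → (∀ x, σ x ≤ n) →
      (∀ s t, 1 ≤ t → t ≤ T → (univ.filter fun x => σ x = s ∧ τ x = t).card ≤ C₀) →
      (∀ a b ψ, γ * ‖ψ - gp p (𝒳.filter fun X => ∀ x ∈ X, a ≤ σ x ∧ σ x < b) ψ‖ ^ 2 ≤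
        ∑ X ∈ 𝒳.filter fun X => ∀ x ∈ X, a ≤ σ x ∧ σ x < b, ‖p X ψ‖ ^ 2) →
      ‖Ω‖ = 1 → (∀ ψ, gp p 𝒳 ψ = ⟪Ω, ψ⟫_ℂ • Ω) →
      entropy (univ.filter fun x => τ x = 0) Ω ≤ C * (n + 1) := by
  have hγ' : 0 < min γ 1 := lt_min hγ one_pos
  obtain ⟨y, k, k₀, d, hy, hqy, hw, hk₀, hl, hm, hwy, hpar⟩ := mn_params q R κ g C₀ hγ'
    (Real.sqrt_nonneg (((κ * g : ℕ) : ℝ) ^ 2 / (((κ * g : ℕ) : ℝ) ^ 2 + γ)))
    (by rw [Real.sqrt_lt' one_pos, one_pow, div_lt_one (by positivity)]; linarith)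
  set w := d * k₀ with hwd
  set h := (2 * k + 2) * (R + 1) with hh
  set T := 2 * R + w * (R + 1) with hT
  obtain ⟨hd, hBy⟩ := hpar _ _ rfl rfl
  have hlog : 0 ≤ Real.log y := Real.log_nonneg (by linarith)
  refine ⟨T, (4 * T * C₀ + 20) * Real.log y, by positivity, ?_⟩
  intro ι _ _ 𝒳 p σ τ n Ω hp hX hg hn hC hgap hΩ hP
  have hX1 : ∀ X ∈ 𝒳, p X ∈ loc X := fun X h => (hX X h).1
  have hsub : ∀ a b, mn_band 𝒳 σ a b ⊆ 𝒳 := fun a b => filter_subset _ _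
  have hwin : ∀ X ∈ 𝒳, ¬ (∀ x ∈ X, τ x ≤ R) ∧ ¬ (∀ x ∈ X, R + w * (R + 1) < τ x) →
      ∀ x ∈ X, 1 ≤ τ x ∧ τ x ≤ T := fun X h1 h2 x hx => by
    push Not at h2
    obtain ⟨⟨z, hz, h3⟩, z', hz', h4⟩ := h2
    have h5 := ((hX X h1).2.2.2 z hz x hx).2
    have h6 := ((hX X h1).2.2.2 x hx z' hz').2
    omega
  have hIco : ∀ i, (Ico (i * h) ((i + 2) * h)).card = 2 * h := fun i => by
    rw [Nat.card_Ico, add_mul]; omega
  have hM : ∀ i, ((mn_band 𝒳 σ (i * h) ((i + 2) * h)).filter fun X => ¬ (∀ x ∈ X, τ x ≤ R) ∧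
      ¬ ∀ x ∈ X, R + w * (R + 1) < τ x).card + 2 ≤ 2 * h * T * C₀ * g + 2 := fun i => by
    have h1 := mn_card_sites hC (Ico (i * h) ((i + 2) * h)) (Icc 1 T) fun t ht => mem_Icc.1 ht
    rw [hIco, Nat.card_Icc, Nat.add_sub_cancel] at h1
    refine Nat.add_le_add_right ((mn_card_terms hg _ fun X hX' => ?_).trans
      (Nat.mul_le_mul_right _ h1)) _
    obtain ⟨h2, h3⟩ := mem_filter.1 hX'
    obtain ⟨x, hx⟩ := (hX X (hsub _ _ h2)).2.2.1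
    exact ⟨hsub _ _ h2, x, mem_filter.2 ⟨mem_univ _, mem_Ico.2 ((mem_filter.1 h2).2 x hx),
      mem_Icc.2 (hwin X (hsub _ _ h2) h3 x hx)⟩, hx⟩
  have hB : ∀ i, (((mn_band 𝒳 σ (i * h) ((i + 2) * h)).filter fun X => ¬ (∀ x ∈ X, τ x ≤ R) ∧
      ¬ ∀ x ∈ X, R + w * (R + 1) < τ x).filter
      fun X => ∃ x ∈ X, τ x ≤ R ∨ R + w * (R + 1) < τ x).card ≤ 2 * h * (2 * R) * C₀ * g :=
    fun i => by
    have h1 := mn_card_sites hC (Ico (i * h) ((i + 2) * h)) (Icc 1 R ∪ Ioc (R + w * (R + 1)) T)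
      fun t ht => by
        simp only [mem_union, mem_Icc, mem_Ioc] at ht
        omega
    have h2 : (Icc 1 R ∪ Ioc (R + w * (R + 1)) T).card ≤ 2 * R := by
      refine (card_union_le _ _).trans ?_
      rw [Nat.card_Icc, Nat.card_Ioc]
      omega
    rw [hIco] at h1
    refine (mn_card_terms hg _ fun X hX' => ?_).trans
      (Nat.mul_le_mul_right _ (h1.trans (by gcongr)))
    obtain ⟨h3, x, hx, h4⟩ := mem_filter.1 hX'
    obtain ⟨h5, h6⟩ := mem_filter.1 h3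
    have h7 := hwin X (hsub _ _ h5) h6 x hx
    refine ⟨hsub _ _ h5, x, mem_filter.2 ⟨mem_univ _, mem_Ico.2 ((mem_filter.1 h5).2 x hx), ?_⟩, hx⟩
    simp only [mem_union, mem_Icc, mem_Ioc]
    omega
  choose K hK1 hK2 hK3 hK4 hK5 using fun i => mn_letter (τ := τ) hp hX1
    (hsub (i * h) ((i + 2) * h)) (Nat.le_add_right R (w * (R + 1))) hγ' (min_le_right _ _)
    (fun ψ => le_trans (mul_le_mul_of_nonneg_right (min_le_left _ _) (sq_nonneg _)) (hgap _ _ ψ))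
    (hM i) (hB i) hd hk₀
  have hn' : (univ.filter fun x => 1 ≤ τ x ∧ τ x ≤ R + w * (R + 1)).card ≤ (n + 1) * T * C₀ := by
    have h1 := mn_card_sites hC (range (n + 1)) (Icc 1 T) fun t ht => mem_Icc.1 ht
    rw [card_range, Nat.card_Icc, Nat.add_sub_cancel] at h1
    refine le_trans (card_le_card fun x hx => ?_) h1
    have := hn x
    simp only [mem_filter, mem_univ, true_and, mem_range, mem_Icc] at hx ⊢
    omega
  have hov : ∀ i a, a ≤ (i + 1) * h → ‖gp p (mn_band 𝒳 σ ((i + 1) * h) ((i + 1 + 2) * h)) *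
      gp p (mn_band 𝒳 σ a ((i + 2) * h)) - gp p (mn_band 𝒳 σ a ((i + 1 + 2) * h))‖ ≤ _ :=
    fun i a ha => mn_overlap hp hX hg hγ hgap k (i + 1) a ((i + 1 + 2) * h) ha
      (Nat.mul_le_mul_right _ (by omega))
  have hl0 : 0 ≤ √(((κ * g : ℕ) : ℝ) ^ 2 / (((κ * g : ℕ) : ℝ) ^ 2 + γ)) ^ k := by positivity
  have hmul : ∀ a b, a ≤ b → a * h ≤ b * h := fun a b h => Nat.mul_le_mul_right _ h
  have hch := chain (O := Op ι q) ContinuousLinearMap.norm_id_le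
    (fun i => gp p (mn_band 𝒳 σ (i * h) ((i + 2) * h))) K
    (fun i => gp p (mn_band 𝒳 σ 0 ((i + 2) * h))) hy
    (fun i => ⟨(gp_proj _ _).isIdempotentElem, (gp_proj _ _).norm_le⟩)
    (fun i => ⟨(gp_proj _ _).isIdempotentElem, (gp_proj _ _).norm_le⟩) (by rw [zero_mul])
    (fun i j hij => mn_band_commute hp hX1 (hmul _ _ hij))
    (fun i j hij => mn_band_commute hp hX1 (hmul _ _ hij))
    (fun i => (gp_mul_gp (mn_band_mono le_rfl (hmul _ _ (by omega)))).symm)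
    (fun i => (gp_mul_gp (mn_band_mono (Nat.zero_le _) le_rfl)).symm)
    (fun i => by linarith [hov i 0 (Nat.zero_le _)])
    (fun i => by
      have h1 := hov i (i * h) (hmul _ _ (by omega))
      have h2 := h1
      rw [← norm_star, star_sub, star_mul, (gp_proj _ _).isSelfAdjoint.star_eq,
        (gp_proj _ _).isSelfAdjoint.star_eq, (gp_proj _ _).isSelfAdjoint.star_eq] at h2
      refine le_trans ?_ hl
      rw [← sub_sub_sub_cancel_right _ _ (gp p (mn_band 𝒳 σ (i * h) ((i + 1 + 2) * h)))]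
      linarith [norm_sub_le (gp p (mn_band 𝒳 σ (i * h) ((i + 2) * h)) *
        gp p (mn_band 𝒳 σ ((i + 1) * h) ((i + 1 + 2) * h)) -
        gp p (mn_band 𝒳 σ (i * h) ((i + 1 + 2) * h)))
        (gp p (mn_band 𝒳 σ ((i + 1) * h) ((i + 1 + 2) * h)) *
        gp p (mn_band 𝒳 σ (i * h) ((i + 2) * h)) - gp p (mn_band 𝒳 σ (i * h) ((i + 1 + 2) * h)))])
    (fun i => ⟨hK3 i, hK4 i, (hK5 i).trans hm⟩) n
  have hall : mn_band 𝒳 σ 0 ((n + 2) * h) = 𝒳 := filter_true_of_mem fun X _ x _ => by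
    have h1 := hn x
    have h2 : (n + 2) * 1 ≤ (n + 2) * h := Nat.mul_le_mul_left _ (Nat.mul_pos (by omega) (by omega))
    omega
  have hΩ' : gp p 𝒳 Ω = Ω := by rw [hP, inner_self_eq_norm_sq_to_K, hΩ]; simp
  have hKΩ : ∀ i, K i Ω = Ω := fun i => by
    have h1 : gp p (mn_band 𝒳 σ (i * h) ((i + 2) * h)) Ω = Ω :=
      gp_apply_eq_iff.2 fun X hX' => gp_apply_eq_iff.1 hΩ' X (hsub _ _ hX')
    rw [← h1, ← mul_apply_eq_comp, hK3]
  have hent := entropy_le (univ.filter fun x => τ x = 0) Ω hΩ (gp p 𝒳) hP (by linarith : 2 ≤ y)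
    (1 + 2 * ((n + 1) * T * C₀)) (3 * n + 3) fun D => by
      obtain ⟨G, hG1, hG2⟩ := hch D
      simp only [hall] at hG2
      refine ⟨G, (mn_cov hq hp hX hw (by omega) _ (fun i => hsub _ _) hM hn' K hK1 n 0 D).mono ?_
        (Set.singleton_subset_iff.2 hG1), mn_fix hK2 hKΩ hG1, hG2⟩
      rw [pow_add, pow_add, pow_one]
      gcongr
  refine hent.trans ?_
  push_cast
  have : (0 : ℝ) ≤ n := Nat.cast_nonneg _
  nlinarith [mul_nonneg this hlog]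

end Vale.Agent.P356
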