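import Vale.Agent.P356.Defs

/-! The entanglement entropy of a region equals that of its complement. -/

set_option linter.unusedSectionVars false

namespace Vale.Agent.P356

open Finset Matrix Polynomial
open scoped ComplexConjugate

variable {ι : Type} [Fintype ι] [DecidableEq ι] {q : ℕ}

/-- The entropy of the roots of a polynomial. -/
noncomputable def pu_ent (p : ℂ[X]) : ℝ := (p.roots.map fun z => Real.negMulLog z.re).sum

theorem pu_entropy (A : Finset ι) (Ω : (ι → Fin q) → ℂ) :
    entropy A Ω = pu_ent (redDens A Ω).charpoly := by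
  rw [pu_ent, (redDens_isHermitian A Ω).roots_charpoly_eq_eigenvalues, Multiset.map_map]
  simp [entropy]

theorem pu_X (k : ℕ) {p : ℂ[X]} (hp : p ≠ 0) : pu_ent (X ^ k * p) = pu_ent p := by
  rw [pu_ent, roots_mul (mul_ne_zero (pow_ne_zero _ X_ne_zero) hp), roots_X_pow]
  simp [pu_ent, Multiset.map_nsmul, Multiset.sum_nsmul]

/-- Configurations on the complement. -/
def pu_e1 (A : Finset ι) : ({x // x ∉ A} → Fin q) ≃ (↥Aᶜ → Fin q) :=
  Equiv.arrowCongr (Equiv.subtypeEquivRight fun _ => mem_compl.symm) (Equiv.refl _)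

/-- Configurations on the complement of the complement. -/
def pu_e2 (A : Finset ι) : (A → Fin q) ≃ ({x // x ∉ Aᶜ} → Fin q) :=
  Equiv.arrowCongr (Equiv.subtypeEquivRight fun _ => by simp) (Equiv.refl _)

theorem pu_glue (A : Finset ι) (α : A → Fin q) (β : {x // x ∉ A} → Fin q) :
    glue Aᶜ (pu_e1 A β) (pu_e2 A α) = glue A α β := by
  funext x
  by_cases h : x ∈ A
  · simp only [glue, h, mem_compl, not_true_eq_false, dite_false, dite_true]
    rfl
  · simp only [glue, h, mem_compl, not_false_eq_true, dite_false, dite_true]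
    rfl

theorem entropy_compl (A : Finset ι) (Ω : (ι → Fin q) → ℂ) : entropy Aᶜ Ω = entropy A Ω := by
  let M : Matrix (A → Fin q) ({x // x ∉ A} → Fin q) ℂ := Matrix.of fun α β => Ω (glue A α β)
  have h1 : redDens A Ω = M * Mᴴ := by
    ext α α'
    simp [redDens, mul_apply, M, conjTranspose_apply]
  have h2 : redDens Aᶜ Ω = reindex (pu_e1 A) (pu_e1 A) (Mᴴ * M)ᵀ := by
    ext β β'
    obtain ⟨β, rfl⟩ := (pu_e1 A).surjective β
    obtain ⟨β', rfl⟩ := (pu_e1 A).surjective β'
    simp only [redDens, reindex_apply, submatrix_apply, Equiv.symm_apply_apply, transpose_apply,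
      mul_apply, conjTranspose_apply, M, of_apply]
    rw [← (pu_e2 A).sum_comp]
    simp [pu_glue, mul_comm]
  rw [pu_entropy, pu_entropy, h1, h2, charpoly_reindex, charpoly_transpose,
    ← pu_X (Fintype.card (A → Fin q)) (charpoly_monic _).ne_zero, ← charpoly_mul_comm',
    pu_X _ (charpoly_monic _).ne_zero]

end Vale.Agent.P356
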