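import Vale.Agent.P356.Defs

/-! Subadditivity of the entanglement entropy. -/

set_option linter.unusedSectionVars false

namespace Vale.Agent.P356

open Finset Matrix
open scoped ComplexConjugate ComplexOrder Kronecker

section Abstract

variable {n k α β : Type} [Fintype n] [DecidableEq n] [Fintype k] [DecidableEq k]
  [Fintype α] [DecidableEq α] [Fintype β] [DecidableEq β]

theorem sb_spec {ρ : Matrix n n ℂ} (h : ρ.IsHermitian) :
    ∃ U : Matrix n n ℂ, U * Uᴴ = 1 ∧ Uᴴ * U = 1 ∧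
      Uᴴ * ρ * U = diagonal fun i => (h.eigenvalues i : ℂ) := by
  refine ⟨h.eigenvectorUnitary, Unitary.coe_mul_star_self _, Unitary.coe_star_mul_self _, ?_⟩
  have := h.conjStarAlgAut_star_eigenvectorUnitary
  rw [Unitary.conjStarAlgAut_star_apply] at this
  exact this

theorem sb_col {V : Matrix n k ℂ} (h : Vᴴ * V = 1) (j : k) : ∑ i, ‖V i j‖ ^ 2 = 1 := by
  have := congrFun (congrFun h j) j
  rw [mul_apply, one_apply_eq] at this
  apply Complex.ofReal_injective
  rw [Complex.ofReal_one, ← this, Complex.ofReal_sum]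
  refine sum_congr rfl fun i _ => ?_
  rw [conjTranspose_apply, Complex.star_def, Complex.conj_mul', Complex.ofReal_pow]

theorem sb_row {V : Matrix n k ℂ} (h : V * Vᴴ = 1) (i : n) : ∑ j, ‖V i j‖ ^ 2 = 1 := by
  have := sb_col (V := Vᴴ) (by rwa [conjTranspose_conjTranspose]) i
  simpa [conjTranspose_apply] using this

/-- The entropy is at most the entropy of the diagonal in any orthonormal basis. -/
theorem sb_conc {ρ : Matrix n n ℂ} (h : ρ.PosSemidef) (W : Matrix n k ℂ) (h1 : W * Wᴴ = 1)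
    (h2 : Wᴴ * W = 1) :
    ∑ i, Real.negMulLog (h.1.eigenvalues i) ≤ ∑ j, Real.negMulLog ((Wᴴ * ρ * W) j j).re := by
  obtain ⟨U, hU1, hU2, hU⟩ := sb_spec h.1
  set V := Uᴴ * W with hV
  have hV1 : V * Vᴴ = 1 := by
    rw [hV, conjTranspose_mul, conjTranspose_conjTranspose, Matrix.mul_assoc,
      ← Matrix.mul_assoc W, h1, Matrix.one_mul, hU2]
  have hV2 : Vᴴ * V = 1 := by
    rw [hV, conjTranspose_mul, conjTranspose_conjTranspose, Matrix.mul_assoc,
      ← Matrix.mul_assoc U, hU1, Matrix.one_mul, h2]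
  have hW : Wᴴ * ρ * W = Vᴴ * (diagonal fun i => (h.1.eigenvalues i : ℂ)) * V := by
    rw [← hU, hV, conjTranspose_mul, conjTranspose_conjTranspose]
    simp only [Matrix.mul_assoc]
    rw [← Matrix.mul_assoc U Uᴴ, hU1, Matrix.one_mul, ← Matrix.mul_assoc U Uᴴ, hU1,
      Matrix.one_mul]
  have hd : ∀ j, ((Wᴴ * ρ * W) j j).re = ∑ i, ‖V i j‖ ^ 2 • h.1.eigenvalues i := fun j => by
    rw [hW, mul_apply, Complex.re_sum]
    refine sum_congr rfl fun i _ => ?_
    rw [mul_diagonal, conjTranspose_apply, mul_right_comm]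
    change (conj (V i j) * V i j * _).re = _
    rw [Complex.conj_mul', ← Complex.ofReal_pow, ← Complex.ofReal_mul, Complex.ofReal_re,
      smul_eq_mul]
  calc ∑ i, Real.negMulLog (h.1.eigenvalues i)
      = ∑ i, ∑ j, ‖V i j‖ ^ 2 • Real.negMulLog (h.1.eigenvalues i) := by
        refine sum_congr rfl fun i _ => ?_
        rw [← sum_smul, sb_row hV1, one_smul]
    _ = ∑ j, ∑ i, ‖V i j‖ ^ 2 • Real.negMulLog (h.1.eigenvalues i) := sum_comm
    _ ≤ _ := sum_le_sum fun j _ => by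
        rw [hd]
        exact Real.concaveOn_negMulLog.le_map_sum (fun i _ => by positivity) (sb_col hV2 j)
          (fun i _ => h.eigenvalues_nonneg i)

/-- Classical subadditivity. -/
theorem sb_classical (p : α × β → ℝ) (l : α → ℝ) (m : β → ℝ) (hp : ∀ x, 0 ≤ p x)
    (hl : ∀ a, ∑ b, p (a, b) = l a) (hm : ∀ b, ∑ a, p (a, b) = m b) (h1 : ∑ a, l a = 1) :
    ∑ x, Real.negMulLog (p x) ≤ ∑ a, Real.negMulLog (l a) + ∑ b, Real.negMulLog (m b) := by
  have hl0 : ∀ a b, p (a, b) ≤ l a := fun a b =>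
    hl a ▸ single_le_sum (f := fun b => p (a, b)) (fun _ _ => hp _) (mem_univ b)
  have hm0 : ∀ a b, p (a, b) ≤ m b := fun a b =>
    hm b ▸ single_le_sum (f := fun a => p (a, b)) (fun _ _ => hp _) (mem_univ a)
  have hp1 : ∑ x, p x = 1 := by
    rw [Fintype.sum_prod_type, ← h1]
    exact sum_congr rfl fun a _ => hl a
  have h2 : ∑ b, m b = 1 := by
    rw [← hp1, Fintype.sum_prod_type_right]
    exact sum_congr rfl fun b _ => (hm b).symm
  have e1 : ∑ a, Real.negMulLog (l a) = ∑ x : α × β, -p x * Real.log (l x.1) := by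
    rw [Fintype.sum_prod_type]
    refine sum_congr rfl fun a _ => ?_
    simp only
    rw [← sum_mul, sum_neg_distrib, hl, Real.negMulLog]
  have e2 : ∑ b, Real.negMulLog (m b) = ∑ x : α × β, -p x * Real.log (m x.2) := by
    rw [Fintype.sum_prod_type_right]
    refine sum_congr rfl fun b _ => ?_
    simp only
    rw [← sum_mul, sum_neg_distrib, hm, Real.negMulLog]
  have e3 : ∑ x : α × β, (l x.1 * m x.2 - p x) = 0 := by
    rw [sum_sub_distrib, hp1, Fintype.sum_prod_type, ← sum_mul_sum, h1, h2]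
    ring
  refine le_of_le_of_eq ?_ (add_zero _)
  rw [e1, e2, ← sum_add_distrib, ← e3, ← sum_add_distrib]
  refine sum_le_sum fun x _ => ?_
  obtain ⟨a, b⟩ := x
  have ha := hl0 a b
  have hb := hm0 a b
  rcases (hp (a, b)).eq_or_lt with h0 | h0
  · rw [← h0] at ha hb ⊢
    simpa using mul_nonneg ha hb
  · have hla : 0 < l a := h0.trans_le ha
    have hmb : 0 < m b := h0.trans_le hb
    have h3 := Real.log_le_sub_one_of_pos (x := l a * m b / p (a, b)) (by positivity)
    rw [Real.log_div (by positivity) h0.ne', Real.log_mul hla.ne' hmb.ne'] at h3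
    have h4 := mul_le_mul_of_nonneg_left h3 h0.le
    rw [mul_sub (p (a, b)) (_ / _), mul_div_cancel₀ _ h0.ne'] at h4
    simp only [Real.negMulLog]
    linarith

theorem sb_ptr (ρ : Matrix (α × β) (α × β) ℂ) (X : Matrix α α ℂ) (Y : Matrix β β ℂ)
    (hY : Y * Yᴴ = 1) (a : α) :
    ∑ b, ((X ⊗ₖ Y)ᴴ * ρ * (X ⊗ₖ Y)) (a, b) (a, b) =
      (Xᴴ * (Matrix.of fun u u' => ∑ v, ρ (u, v) (u', v)) * X) a a := by
  have hd : ∀ v v', ∑ b, Y v' b * conj (Y v b) = if v' = v then 1 else 0 := fun v v' => by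
    have := congrFun (congrFun hY v') v
    rw [mul_apply, one_apply] at this
    exact this
  calc ∑ b, ((X ⊗ₖ Y)ᴴ * ρ * (X ⊗ₖ Y)) (a, b) (a, b)
      = ∑ b, ∑ u', ∑ v', ∑ u, ∑ v,
          conj (X u a) * ρ (u, v) (u', v') * X u' a * (Y v' b * conj (Y v b)) := by
        refine sum_congr rfl fun b _ => ?_
        simp only [mul_apply, Fintype.sum_prod_type, conjTranspose_apply, kroneckerMap_apply,
          sum_mul, star_mul', Complex.star_def]
        refine sum_congr rfl fun u' _ => sum_congr rfl fun v' _ => sum_congr rfl fun u _ =>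
          sum_congr rfl fun v _ => by ring
    _ = ∑ u', ∑ v', ∑ u, ∑ v, ∑ b,
          conj (X u a) * ρ (u, v) (u', v') * X u' a * (Y v' b * conj (Y v b)) := by
        rw [sum_comm]
        refine sum_congr rfl fun u' _ => ?_
        rw [sum_comm]
        refine sum_congr rfl fun v' _ => ?_
        rw [sum_comm]
        refine sum_congr rfl fun u _ => ?_
        rw [sum_comm]
    _ = ∑ u', ∑ v', ∑ u, conj (X u a) * ρ (u, v') (u', v') * X u' a := by
        simp only [← mul_sum, hd, mul_ite, mul_one, mul_zero, sum_ite_eq, mem_univ, if_true]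
    _ = _ := by
        simp only [mul_apply, conjTranspose_apply, of_apply, sum_mul, mul_sum, Complex.star_def]
        exact sum_congr rfl fun u' _ => sum_comm

theorem sb_swap (ρ : Matrix (α × β) (α × β) ℂ) (X : Matrix α α ℂ) (Y : Matrix β β ℂ)
    (a : α) (b : β) :
    ((X ⊗ₖ Y)ᴴ * ρ * (X ⊗ₖ Y)) (a, b) (a, b) =
      ((Y ⊗ₖ X)ᴴ * ρ.submatrix Prod.swap Prod.swap * (Y ⊗ₖ X)) (b, a) (b, a) := by
  simp only [mul_apply, conjTranspose_apply, sum_mul]
  refine Fintype.sum_equiv (Equiv.prodComm α β) _ _ fun x => ?_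
  refine Fintype.sum_equiv (Equiv.prodComm α β) _ _ fun y => ?_
  obtain ⟨x1, x2⟩ := x
  obtain ⟨y1, y2⟩ := y
  simp only [kroneckerMap_apply, Equiv.prodComm_apply, Prod.swap_prod_mk, submatrix_apply,
    star_mul']
  ring

theorem sb_abs (e : α × β ≃ n) {ρ : Matrix n n ℂ} (h : ρ.PosSemidef) {ρA : Matrix α α ℂ}
    {ρB : Matrix β β ℂ} (hA : ρA.IsHermitian) (hB : ρB.IsHermitian)
    (eA : ∀ u u', ρA u u' = ∑ v, ρ (e (u, v)) (e (u', v)))
    (eB : ∀ v v', ρB v v' = ∑ u, ρ (e (u, v)) (e (u, v'))) (htr : ρA.trace = 1) :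
    ∑ i, Real.negMulLog (h.1.eigenvalues i) ≤
      ∑ a, Real.negMulLog (hA.eigenvalues a) + ∑ b, Real.negMulLog (hB.eigenvalues b) := by
  obtain ⟨X, hX1, hX2, hX⟩ := sb_spec hA
  obtain ⟨Y, hY1, hY2, hY⟩ := sb_spec hB
  have hK1 : (X ⊗ₖ Y) * (X ⊗ₖ Y)ᴴ = 1 := by
    rw [conjTranspose_kronecker, ← mul_kronecker_mul, hX1, hY1, one_kronecker_one]
  have hK2 : (X ⊗ₖ Y)ᴴ * (X ⊗ₖ Y) = 1 := by
    rw [conjTranspose_kronecker, ← mul_kronecker_mul, hX2, hY2, one_kronecker_one]
  set W : Matrix n (α × β) ℂ := (X ⊗ₖ Y).submatrix e.symm (Equiv.refl _) with hW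
  have hW1 : W * Wᴴ = 1 := by
    rw [hW, conjTranspose_submatrix, submatrix_mul_equiv, hK1, submatrix_one_equiv]
  have hW2 : Wᴴ * W = 1 := by
    rw [hW, conjTranspose_submatrix, submatrix_mul_equiv, hK2, submatrix_one_equiv]
  have hW3 : Wᴴ * ρ * W = (X ⊗ₖ Y)ᴴ * ρ.submatrix e e * (X ⊗ₖ Y) := by
    have : ρ = (ρ.submatrix e e).submatrix e.symm e.symm := by simp
    conv_lhs => rw [this]
    rw [hW, conjTranspose_submatrix, submatrix_mul_equiv, submatrix_mul_equiv]
    rfl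
  refine (sb_conc h W hW1 hW2).trans (sb_classical _ _ _ (fun x => ?_) (fun a => ?_)
    (fun b => ?_) ?_)
  · exact (Complex.nonneg_iff.1 ((h.conjTranspose_mul_mul_same W).diag_nonneg (i := x))).1
  · have : (Matrix.of fun u u' => ∑ v, ρ.submatrix e e (u, v) (u', v)) = ρA := by
      ext u u'
      exact (eA u u').symm
    rw [← Complex.re_sum, hW3, sb_ptr _ _ _ hY1, this, hX, diagonal_apply_eq, Complex.ofReal_re]
  · have : (Matrix.of fun v v' => ∑ u, (ρ.submatrix e e).submatrix Prod.swap Prod.swap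
        (v, u) (v', u)) = ρB := by
      ext v v'
      exact (eB v v').symm
    rw [← Complex.re_sum, hW3, sum_congr rfl fun a _ => sb_swap _ X Y a b, sb_ptr _ _ _ hX1,
      this, hY, diagonal_apply_eq, Complex.ofReal_re]
  · apply Complex.ofReal_injective
    rw [Complex.ofReal_sum, Complex.ofReal_one, ← htr]
    exact hA.trace_eq_sum_eigenvalues.symm

end Abstract

variable {ι : Type} [Fintype ι] [DecidableEq ι] {q : ℕ}

theorem sb_psd (A : Finset ι) (Ω : (ι → Fin q) → ℂ) : (redDens A Ω).PosSemidef :=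
  posSemidef_self_mul_conjTranspose (Matrix.of fun α β => Ω (glue A α β))

theorem sb_trace (A : Finset ι) (Ω : (ι → Fin q) → ℂ) : (redDens A Ω).trace = star Ω ⬝ᵥ Ω := by
  simp only [trace, diag_apply, redDens, dotProduct]
  rw [← Fintype.sum_prod_type']
  refine Fintype.sum_equiv
    (Equiv.piEquivPiSubtypeProd (fun x => x ∈ A) fun _ => Fin q).symm _ _ fun p => ?_
  exact mul_comm _ _

/-- Splitting the configurations outside `A`. -/
def sb_out {A B S : Finset ι} (h : Disjoint A B) (hS : ∀ x, x ∈ S ↔ x ∈ A ∨ x ∈ B) :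
    (B → Fin q) × ({x // x ∉ S} → Fin q) ≃ ({x // x ∉ A} → Fin q) where
  toFun p x := if hx : x.1 ∈ B then p.1 ⟨x.1, hx⟩
    else p.2 ⟨x.1, fun h' => ((hS _).1 h').elim x.2 hx⟩
  invFun β := (fun y => β ⟨y.1, disjoint_right.1 h y.2⟩,
    fun z => β ⟨z.1, fun h' => z.2 ((hS _).2 (Or.inl h'))⟩)
  left_inv p := by
    refine Prod.ext (funext fun y => dif_pos y.2) (funext fun z => ?_)
    exact dif_neg fun h' => z.2 ((hS _).2 (Or.inr h'))
  right_inv β := by
    funext x
    by_cases hx : x.1 ∈ B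
    · exact dif_pos hx
    · exact dif_neg hx

theorem sb_partial {A B S : Finset ι} (h : Disjoint A B) (hS : ∀ x, x ∈ S ↔ x ∈ A ∨ x ∈ B)
    (g : (A → Fin q) → (B → Fin q) → (S → Fin q))
    (hgA : ∀ u v x (hx : x ∈ A) (hx' : x ∈ S), g u v ⟨x, hx'⟩ = u ⟨x, hx⟩)
    (hgB : ∀ u v x (hx : x ∈ B) (hx' : x ∈ S), g u v ⟨x, hx'⟩ = v ⟨x, hx⟩)
    (Ω : (ι → Fin q) → ℂ) (u u' : A → Fin q) :
    redDens A Ω u u' = ∑ v, redDens S Ω (g u v) (g u' v) := by
  have key : ∀ (w : A → Fin q) (p : (B → Fin q) × ({x // x ∉ S} → Fin q)),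
      glue S (g w p.1) p.2 = glue A w (sb_out h hS p) := fun w p => by
    funext x
    simp only [glue]
    by_cases hA : x ∈ A
    · rw [dif_pos ((hS x).2 (Or.inl hA)), dif_pos hA, hgA]
    · rw [dif_neg hA]
      by_cases hB : x ∈ B
      · rw [dif_pos ((hS x).2 (Or.inr hB)), hgB _ _ _ hB]
        exact Eq.symm (dif_pos hB : sb_out h hS p ⟨x, hA⟩ = _)
      · rw [dif_neg fun h' => ((hS x).1 h').elim hA hB]
        exact Eq.symm (dif_neg hB : sb_out h hS p ⟨x, hA⟩ = _)
  simp only [redDens]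
  rw [← Fintype.sum_prod_type']
  refine (Fintype.sum_equiv (sb_out h hS) _ _ fun p => ?_).symm
  rw [key, key]

/-- Joining configurations on two disjoint sets. -/
def sb_join {A B : Finset ι} (h : Disjoint A B) :
    (A → Fin q) × (B → Fin q) ≃ (↥(A ∪ B) → Fin q) where
  toFun p x := if hx : x.1 ∈ A then p.1 ⟨x.1, hx⟩
    else p.2 ⟨x.1, (mem_union.1 x.2).resolve_left hx⟩
  invFun σ := (fun y => σ ⟨y.1, mem_union_left _ y.2⟩, fun z => σ ⟨z.1, mem_union_right _ z.2⟩)
  left_inv p := by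
    refine Prod.ext (funext fun y => dif_pos y.2) (funext fun z => ?_)
    exact dif_neg (disjoint_right.1 h z.2)
  right_inv σ := by
    funext x
    by_cases hx : x.1 ∈ A
    · exact dif_pos hx
    · exact dif_neg hx

theorem entropy_union_le {A B : Finset ι} (h : Disjoint A B) (Ω : (ι → Fin q) → ℂ)
    (hΩ : star Ω ⬝ᵥ Ω = 1) : entropy (A ∪ B) Ω ≤ entropy A Ω + entropy B Ω := by
  refine sb_abs (sb_join h) (sb_psd (A ∪ B) Ω) (redDens_isHermitian A Ω)
    (redDens_isHermitian B Ω) (fun u u' => ?_) (fun v v' => ?_) ((sb_trace A Ω).trans hΩ)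
  · exact sb_partial h (fun _ => mem_union) (fun u v => sb_join h (u, v))
      (fun u v x hx _ => dif_pos hx) (fun u v x hx _ => dif_neg (disjoint_right.1 h hx)) Ω u u'
  · exact sb_partial h.symm (fun _ => mem_union.trans or_comm) (fun v u => sb_join h (u, v))
      (fun v u x hx _ => dif_neg (disjoint_right.1 h hx)) (fun v u x hx _ => dif_pos hx) Ω v v'

end Vale.Agent.P356
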